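import Vale.Agent.P179.R2.H450.Qn
import Vale.Agent.P179.H166.KN9

/-!
# (W1) the weights of a block with abelian defect group `D` are the simple modules of the
corresponding block of `N_G(D)`
-/

namespace P179H450

open P179H524 P179C P179A Finset P179P P179Y Subgroup P179R

open P179X (pp SameSec IrrB)

open scoped Classical

universe u

section Weights

variable {p : ℕ} [hp : Fact p.Prime] {k : Type u} [Field k] [IsAlgClosed k] [CharP k p]
  (red : integralClosure ℤ ℂ →+* k) {G : Type} [Group G] [Fintype G] {D : Subgroup G}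
  {l : (G → k) → k}

/-- the number of weights of a block with abelian defect group `D` -/
theorem numWeightsIn_eq_inf (hl : BP p D l) (hD : IsPGroup p D)
    (hab : ∀ a ∈ D, ∀ b ∈ D, a * b = b * a)
    (hT : ¬ p ∣ (centralizer (D : Set G)).relIndex (stabT D l)) {B : MonoidAlgebra k G}
    (hlB : ∀ z : G → k, IsCF z → l z = centralChar B (mkF z)) :
    numWeightsIn p red B = Nat.card {φ : Irr (NQ D) //
      InL red (lres (normalizer (D : Set G)) l)
        (inf (D.subgroupOf (normalizer (D : Set G))) φ).1} := by
  have hab' : D ≤ centralizer (D : Set G) := le_cent_of_comm hab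
  have hDN : D ≤ normalizer (D : Set G) := le_normalizer
  have hCN : centralizer (D : Set G) ≤ normalizer (D : Set G) := cent_le_norm D
  have hl' := hl.restrict hDN hCN
  have hD' : IsPGroup p (D.subgroupOf (normalizer (D : Set G))) := hD.comap_subtype
  have hab'' : D.subgroupOf (normalizer (D : Set G)) ≤
      centralizer ((D.subgroupOf (normalizer (D : Set G)) : Subgroup _) : Set _) := by
    intro x hx
    rw [mem_cent_subgroupOf hDN]
    exact hab' (by simpa [Subgroup.mem_subgroupOf] using hx)
  have hT' : ¬ p ∣ (centralizer ((D.subgroupOf (normalizer (D : Set G)) :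
      Subgroup (normalizer (D : Set G))) : Set (normalizer (D : Set G)))).relIndex
      (stabT (D.subgroupOf (normalizer (D : Set G))) (lres (normalizer (D : Set G)) l)) :=
    fun h => hT (h.trans (relIndex_stabT_lres_dvd hDN hCN))
  have hdz : ∀ φ : {φ : Irr (NQ D) // InL red (lres (normalizer (D : Set G)) l)
        (inf (D.subgroupOf (normalizer (D : Set G))) φ).1}, IsDefectZeroChar p φ.1.1 :=
    fun φ => dz_of_inf red hl' hD' hab'' hT' φ.1 φ.2
  symm
  let W : {φ : Irr (NQ D) // InL red (lres (normalizer (D : Set G)) l)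
        (inf (D.subgroupOf (normalizer (D : Set G))) φ).1} → P179H524.Weight p G :=
    fun φ => ⟨D, hD, φ.1.1, hdz φ⟩
  have hW : ∀ φ, WeightInBlock red (W φ) B := by
    intro φ
    rw [weightInBlock_iff_mu red (W φ) P179C.blockHomStmt P179C.homBlockStmt B]
    intro z
    have hzcf : IsCF (fun g => z.1.coeff g) := (P179C.mem_center_iff _).1 z.2
    have hzN : IsCF (fun n : normalizer (D : Set G) => z.1.coeff (n : G)) := fun g x => hzcf g x
    have h1 : lam red (Weight.infl (W φ)) (fun n : normalizer (D : Set G) => z.1.coeff (n : G)) =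
        lres (normalizer (D : Set G)) l (fun n => z.1.coeff (n : G)) := φ.2 _ hzN
    rw [muHom_apply]
    refine h1.trans ?_
    rw [hl.lres_coe hCN (fun g => z.1.coeff g), hlB _ hzcf, mkF_coeff]
  refine Nat.card_congr (Equiv.ofBijective (fun φ => Quot.mk _ ⟨W φ, hW φ⟩) ⟨?_, ?_⟩)
  · intro φ ψ h
    have hE : Equivalence (fun a b : {w : P179H524.Weight p G // WeightInBlock red w B} =>
        P179H524.Weight.Conj a.1 b.1) :=
      ⟨fun a => (conj_equivalence p G).refl _, fun h => (conj_equivalence p G).symm h,
        fun h h' => (conj_equivalence p G).trans h h'⟩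
    obtain ⟨g, hg1, hg2⟩ := (hE.quot_mk_eq_iff _ _).1 h
    have hgN : g ∈ normalizer (D : Set G) := by
      rw [mem_normalizer_iff]
      intro x
      have hg1' : D = D.map (MulAut.conj g).toMonoidHom := hg1
      constructor
      · intro hx
        rw [hg1']
        exact ⟨x, hx, rfl⟩
      · intro hx
        rw [hg1'] at hx
        obtain ⟨y, hy, hyx⟩ := hx
        have h2 : g * y * g⁻¹ = g * x * g⁻¹ := hyx
        rw [← mul_left_cancel (mul_right_cancel h2)]
        exact hy
    apply Subtype.ext
    apply Subtype.ext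
    funext c
    obtain ⟨n, rfl⟩ := QuotientGroup.mk_surjective c
    have h3 := hg2 n ((⟨g, hgN⟩ : normalizer (D : Set G)) * n * (⟨g, hgN⟩)⁻¹) rfl
    have h4 := ψ.1.conj (QuotientGroup.mk (⟨g, hgN⟩ : normalizer (D : Set G)))
      (QuotientGroup.mk n)
    have h5 : ψ.1.1 (QuotientGroup.mk ((⟨g, hgN⟩ : normalizer (D : Set G)) * n * (⟨g, hgN⟩)⁻¹)) =
        ψ.1.1 (QuotientGroup.mk n) := h4
    exact h3.symm.trans h5
  · rintro ⟨w, hw⟩
    obtain ⟨φ, hφ, hconj, hWL⟩ := exists_conj_WL red hl hD hab' hT w
      (wl_of_weightInBlock red hlB w hw)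
    have hin : InL red (lres (normalizer (D : Set G)) l)
        (inf (D.subgroupOf (normalizer (D : Set G))) ⟨φ, hφ.1⟩).1 := by
      intro z hz
      exact first_main hl hD hab hT (isHomCF_lam red
        (inf (D.subgroupOf (normalizer (D : Set G))) ⟨φ, hφ.1⟩)) (fun y hy => hWL y hy) hz
    refine ⟨⟨⟨φ, hφ.1⟩, hin⟩, Quot.sound ?_⟩
    exact (conj_equivalence p G).symm hconj

end Weights

section Main

variable {p : ℕ} [hp : Fact p.Prime] {k : Type u} [Field k] [IsAlgClosed k] [CharP k p]
  (red : integralClosure ℤ ℂ →+* k) {G : Type} [Group G] [Fintype G] {D : Subgroup G}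
  {l : (G → k) → k}

omit [IsAlgClosed k] [CharP k p] hp in
theorem trunc_eq_mkF (H : Subgroup G) (z : MonoidAlgebra k G) :
    P179C.trunc H z = mkF (fun h : H => z.coeff h) := by
  ext h
  rw [coeff_mkF, coeff_trunc]

omit [CharP k p] hp in
/-- two blocks with the same central character are equal -/
theorem block_ext {K : Type} [Group K] [Fintype K] {b b' : MonoidAlgebra k K} (hb : IsBlock b)
    (hb' : IsBlock b') (h : ∀ z : K → k, IsCF z → centralChar b (mkF z) = centralChar b' (mkF z)) :
    b = b' := by
  have hcf : IsCF (fun g => b'.coeff g) := (P179C.mem_center_iff _).1 hb'.1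
  have h1 := h _ hcf
  rw [mkF_coeff, centralChar_self b' hb', charBlockStmt b b' hb hb'] at h1
  by_contra hne
  rw [if_neg hne] at h1
  exact zero_ne_one h1

/-- **the Brauer correspondent** of a block with abelian defect group -/
theorem exists_corr (hl : BP p D l) (hD : IsPGroup p D)
    (hab : ∀ a ∈ D, ∀ b ∈ D, a * b = b * a)
    (hT : ¬ p ∣ (centralizer (D : Set G)).relIndex (stabT D l)) {B : MonoidAlgebra k G}
    (hlB : ∀ z : G → k, IsCF z → l z = centralChar B (mkF z)) :
    ∃ b : MonoidAlgebra k (normalizer (D : Set G)), IsBlock b ∧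
      (∀ z : normalizer (D : Set G) → k, IsCF z →
        centralChar b (mkF z) = l (ext (normalizer (D : Set G)) z)) ∧
      InducesTo b B ∧ ∀ b' : MonoidAlgebra k (normalizer (D : Set G)), IsBlock b' →
        InducesTo b' B → b' = b := by
  have hDN : D ≤ normalizer (D : Set G) := le_normalizer
  have hCN : centralizer (D : Set G) ≤ normalizer (D : Set G) := cent_le_norm D
  have hl' := hl.restrict hDN hCN
  have hD' : IsPGroup p (D.subgroupOf (normalizer (D : Set G))) := hD.comap_subtype
  have hhom := hl'.isHomCF' hD'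
  obtain ⟨b, hb, hlb⟩ := homBlockStmt (k := k) (G := normalizer (D : Set G)) hhom.toAlgHom
  have hbz : ∀ z : normalizer (D : Set G) → k, IsCF z →
      centralChar b (mkF z) = l (ext (normalizer (D : Set G)) z) := by
    intro z hz
    have h1 := hlb ⟨mkF z, mkF_mem hz⟩
    rw [hhom.toAlgHom_mkF hz] at h1
    exact h1.symm
  have hcf : ∀ z ∈ Subalgebra.center k (MonoidAlgebra k G),
      IsCF (fun h : normalizer (D : Set G) => z.coeff h) := by
    intro z hz
    have hzcf : IsCF (fun g => z.coeff g) := (P179C.mem_center_iff _).1 hz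
    exact fun t x => hzcf t x
  refine ⟨b, hb, hbz, ?_, ?_⟩
  · intro z hz
    have hzcf : IsCF (fun g => z.coeff g) := (P179C.mem_center_iff _).1 hz
    rw [trunc_eq_mkF, hbz _ (hcf z hz)]
    have h2 := hl.lres_coe hCN (fun g => z.coeff g)
    unfold lres at h2
    rw [h2, hlB _ hzcf, mkF_coeff]
  · intro b' hb' hbB'
    obtain ⟨μ, hμ, hμz⟩ := exists_hom_of_block hb'
    refine block_ext hb' hb fun z hz => ?_
    rw [hbz z hz, ← hμz z hz]
    refine first_main hl hD hab hT hμ (fun y hy => ?_) hz
    have hycf : IsCF (fun h : normalizer (D : Set G) => y h) := fun t x => hy t x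
    rw [hμz _ hycf, hlB y hy, ← hbB' _ (mkF_mem hy), trunc_eq_mkF]
    congr 1
    ext h
    rw [coeff_mkF, coeff_mkF, coeff_mkF]

omit [IsAlgClosed k] [CharP k p] hp in
/-- simple modules in the blocks inducing `B` -/
theorem numSimpleOver_of_unique {H : Subgroup G} {B : MonoidAlgebra k G}
    {b : MonoidAlgebra k H} (hb : IsBlock b) (hbB : InducesTo b B)
    (huniq : ∀ b' : MonoidAlgebra k H, IsBlock b' → InducesTo b' B → b' = b) :
    P179B.numSimpleOver H B = numSimpleIn b := by
  refine P179B.quot_aux IrrRep.Iso _ _ (funext fun a => propext ?_)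
  constructor
  · rintro ⟨b', hb', hab', hbB'⟩
    rw [P179B.inBlock_eq] at hab'
    have hb'' : IsBlock b' := hb'
    rw [huniq b' hb'' ((P179B.inducesTo_iff' b' B).1 hbB')] at hab'
    exact hab'
  · intro h
    refine ⟨b, hb, ?_, (P179B.inducesTo_iff' b B).2 hbB⟩
    rw [P179B.inBlock_eq]
    exact h

variable (p) in
/-- **(W1)** the number of weights of a block `B` with abelian defect group `D` is the number of
simple modules in the block of `N_G(D)` inducing `B` -/
theorem W1_corr {B : MonoidAlgebra k G} (hB : IsBlock B) (hD : IsDefectGroup B D)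
    (hab : ∀ a ∈ D, ∀ b ∈ D, a * b = b * a) :
    ∃ b : MonoidAlgebra k (normalizer (D : Set G)), IsBlock b ∧ InducesTo b B ∧
      (∀ b' : MonoidAlgebra k (normalizer (D : Set G)), IsBlock b' → InducesTo b' B → b' = b) ∧
      numSimpleIn b = numWeightsIn p red B ∧
      P179B.numSimpleOver (normalizer (D : Set G)) B = numWeightsIn p red B := by
  obtain ⟨hDp, l, hl, hlB⟩ := exists_BP_of_block (p := p) B hB D hD
  have hT := hT_of_block hB hD hDp hab hl hlB
  obtain ⟨b, hb, hbz, hbB, huniq⟩ := exists_corr hl hDp hab hT hlB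
  have hab' : D ≤ centralizer (D : Set G) := le_cent_of_comm hab
  have hDN : D ≤ normalizer (D : Set G) := le_normalizer
  have hCN : centralizer (D : Set G) ≤ normalizer (D : Set G) := cent_le_norm D
  have hl' := hl.restrict hDN hCN
  have hD' : IsPGroup p (D.subgroupOf (normalizer (D : Set G))) := hDp.comap_subtype
  have hab'' : D.subgroupOf (normalizer (D : Set G)) ≤
      centralizer ((D.subgroupOf (normalizer (D : Set G)) : Subgroup _) : Set _) := by
    intro x hx
    rw [mem_cent_subgroupOf hDN]
    exact hab' (by simpa [Subgroup.mem_subgroupOf] using hx)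
  have hT' : ¬ p ∣ (centralizer ((D.subgroupOf (normalizer (D : Set G)) :
      Subgroup (normalizer (D : Set G))) : Set (normalizer (D : Set G)))).relIndex
      (stabT (D.subgroupOf (normalizer (D : Set G))) (lres (normalizer (D : Set G)) l)) :=
    fun h => hT (h.trans (relIndex_stabT_lres_dvd hDN hCN))
  have h1 : numSimpleIn b = numWeightsIn p red B := by
    rw [numWeightsIn_eq_inf red hl hDp hab hT hlB]
    exact numSimpleIn_eq_inf red hl' hD' hab'' hT' hb fun z hz => (hbz z hz).symm
  exact ⟨b, hb, hbB, huniq, h1, by rw [numSimpleOver_of_unique hb hbB huniq, h1]⟩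

end Main

/-- **(W1)** the number of weights of a block `B` with abelian defect group `D` is the number of
simple modules of `N_G(D)` in the blocks `b` with `b^G = B` -/
theorem W1 {p : ℕ} [Fact p.Prime] {k : Type u} [Field k] [IsAlgClosed k] [CharP k p]
    (red : integralClosure ℤ ℂ →+* k) {G : Type} [Group G] [Finite G] {B : MonoidAlgebra k G}
    (hB : P179C.IsBlock B) {D : Subgroup G} (hD : P179C.IsDefectGroup B D)
    (hab : ∀ a ∈ D, ∀ b ∈ D, a * b = b * a) :
    P179C.numWeightsIn p red B = P179B.numSimpleOver (normalizer (D : Set G)) B := by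
  have := Fintype.ofFinite G
  obtain ⟨b, -, -, -, -, h⟩ := W1_corr p red hB hD hab
  exact h.symm

end P179H450
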