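import Mathlib

/-!
# Abelian `p`-groups with few small cyclic factors: the thresholds
-/

namespace P179B

/-- For every `i ≥ 1` the `i`-th smallest cyclic factor of the abelian `p`-group `D` has order at
least `p ^ (n i)`: fewer than `i` cyclic factors of `D` have order less than `p ^ (n i)`. In terms of
elements: the group of the `x ∈ D` with `x ^ p = 1` has at most `p ^ (i - 1)` times as many elements
as its subgroup of the `p ^ (n i - 1)`-th powers of elements of `D`. -/
def GrowBy (n : ℕ → ℕ) (p : ℕ) {G : Type*} [Group G] (D : Subgroup G) : Prop :=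
  ∀ i : ℕ, 1 ≤ i → Nat.card {x : G // x ∈ D ∧ x ^ p = 1} ≤
    p ^ (i - 1) * Nat.card {x : G // (∃ y ∈ D, y ^ p ^ (n i - 1) = x) ∧ x ^ p = 1}

/-- The thresholds `1, 2, 4, 6, 10, 13, 20, ...` for abelian groups of automorphisms: `i` for
`i ≤ 2` and `1 + i + (i - 3) ⌊(i - 1) / 2⌋` for `i ≥ 3`. -/
def facA (i : ℕ) : ℕ := if i ≤ 2 then i else 1 + i + (i - 3) * ((i - 1) / 2)

/-- The thresholds `1, 2, 6, 11, 20, 37, 60, ...` for arbitrary groups of automorphisms: `i` for
`i ≤ 2` and `1 + max (1 + (i - 1) ^ 2, 3 + (i - 3) ⌈i (i + 1) / 4⌉)` for `i ≥ 3`. -/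
def facB (i : ℕ) : ℕ :=
  if i ≤ 2 then i else 1 + max (1 + (i - 1) ^ 2) (3 + (i - 3) * ((i * (i + 1) + 3) / 4))

end P179B
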