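import Vale.Agent.P179.R2.H450.DQ3
import Vale.Agent.P179.R2.H725.Ind

/-!
# (F4a) in the form used by the induction
-/

namespace P179H450

open P179H524 P179C Subgroup

universe u

/-- **(F4a)** -/
theorem defQuo (p : ℕ) [Fact p.Prime] (k : Type u) [Field k] [IsAlgClosed k] [CharP k p] :
    P179H725.DefQuo p k := by
  intro G _ _ B D R _ B' hR hB hD hab hB' hdom
  refine ⟨D.map (QuotientGroup.mk' R), 1, isDefectGroup_quo p hB hD hab R hR hB' hdom, fun x => ?_⟩
  rw [inv_one, one_mul, mul_one]

end P179H450
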