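import Vale.Agent.P179.R2.H450.R2p

/-!
# The abelian groups `C_(p ^ m) × C_(p ^ n)`, `m > n ≥ 1`
-/

namespace P179H450

open Subgroup P179H292

theorem num_rank2 {p M N d e R : ℕ} (hp : 2 ≤ p) (hNM : N < M) (hd : p ^ (M + N + 2) ≤ d)
    (he : e ≤ (p - 1) ^ 2) (hR : d < R + (p ^ (M + 1) + p ^ (N + 1))) : e * d < p ^ 2 * R := by
  obtain ⟨q, rfl⟩ : ∃ q, p = q + 1 := ⟨p - 1, by omega⟩
  rw [Nat.add_sub_cancel] at he
  have hq : 1 ≤ q := by omega
  set P := q + 1 with hP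
  obtain ⟨c, rfl⟩ := Nat.exists_eq_add_of_lt hNM
  set A := P ^ N with hA
  set C := P ^ c with hC
  have hA1 : 1 ≤ A := Nat.one_le_pow _ _ (by omega)
  have hC1 : 1 ≤ C := Nat.one_le_pow _ _ (by omega)
  have e1 : P ^ (N + c + 1 + 1) = A * C * P ^ 2 := by
    rw [hA, hC]; ring
  have e2 : P ^ (N + 1) = A * P := by rw [hA]; ring
  have e3 : P ^ (N + c + 1 + N + 2) = A * A * C * P ^ 3 := by rw [hA, hC]; ring
  rw [e1, e2] at hR
  rw [e3] at hd
  -- `d + 1 ≤ R + A C P² + A P`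
  have h1 : P ^ 2 * (d + 1) ≤ P ^ 2 * R + P ^ 2 * (A * C * P ^ 2 + A * P) := by
    have := Nat.mul_le_mul_left (P ^ 2) (show d + 1 ≤ R + (A * C * P ^ 2 + A * P) by omega)
    calc P ^ 2 * (d + 1) ≤ P ^ 2 * (R + (A * C * P ^ 2 + A * P)) := this
      _ = _ := by ring
  have h2 : e * d ≤ q ^ 2 * d := Nat.mul_le_mul_right _ he
  -- `(2 q + 1) d ≥ P² (A C P² + A P)`
  have h3 : P ^ 2 * (A * C * P ^ 2 + A * P) ≤ (2 * q + 1) * d := by
    have h4 : (2 * q + 1) * (A * A * C * P ^ 3) ≤ (2 * q + 1) * d := Nat.mul_le_mul_left _ hd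
    refine le_trans ?_ h4
    have h5 : A * C * P ^ 4 ≤ P * (A * A * C * P ^ 3) := by
      calc A * C * P ^ 4 = 1 * (A * C * P ^ 4) := (one_mul _).symm
        _ ≤ A * (A * C * P ^ 4) := Nat.mul_le_mul_right _ hA1
        _ = P * (A * A * C * P ^ 3) := by ring
    have h6 : A * P ^ 3 ≤ q * (A * A * C * P ^ 3) := by
      calc A * P ^ 3 = 1 * 1 * 1 * (A * P ^ 3) := by ring
        _ ≤ q * A * C * (A * P ^ 3) := by gcongr
        _ = q * (A * A * C * P ^ 3) := by ring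
    calc P ^ 2 * (A * C * P ^ 2 + A * P) = A * C * P ^ 4 + A * P ^ 3 := by ring
      _ ≤ P * (A * A * C * P ^ 3) + q * (A * A * C * P ^ 3) := Nat.add_le_add h5 h6
      _ = (2 * q + 1) * (A * A * C * P ^ 3) := by rw [hP]; ring
  have h7 : P ^ 2 * (d + 1) = q ^ 2 * d + (2 * q + 1) * d + P ^ 2 := by rw [hP]; ring
  have h8 : 0 < P ^ 2 := by positivity
  omega

namespace LineData

variable {p : ℕ} [hp : Fact p.Prime] {G : Type*} [Group G] [Finite G] {D T L : Subgroup G}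
  (h : LineData p D T L)

include h

/-- **the number of regular elements**, sharper -/
theorem card_lt_reg {x1 x2 : G} (hx1 : x1 ∈ L) (hx1n : x1 ≠ 1) (hx2 : x2 ∈ omS h.comm p)
    (hx2L : x2 ∉ L) {M N : ℕ} (hM : ∀ x ∈ D, x ^ p ^ M = 1)
    (hN : ∀ y ∈ D, (y ^ p ^ N) ^ p = 1 → y ^ p ^ N ∈ L) :
    Nat.card D < Nat.card {w : G // w ∈ D ∧ ∀ n ∈ T, n * w * n⁻¹ = w →
      n ∈ centralizer (D : Set G)} + (p ^ M + p ^ N) := by
  classical
  have := Fintype.ofFinite G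
  set R : Finset G := Finset.univ.filter fun w => w ∈ D ∧ ∀ n ∈ T, n * w * n⁻¹ = w →
    n ∈ centralizer (D : Set G) with hR
  set P : Finset G := Finset.univ.filter fun w => w ∈ D with hP
  let A1 : Finset G := if ∃ t ∈ K1 T x1, t ∉ centralizer (D : Set G) then
    Finset.univ.filter fun w => w ∈ fixG D (K1 T x1) else {1}
  let A2 : Finset G := if ∃ t ∈ h.K2 hx2.1, t ∉ centralizer (D : Set G) then
    Finset.univ.filter fun w => w ∈ fixG D (h.K2 hx2.1) else {1}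
  have hA1 : A1.card ≤ p ^ M := by
    by_cases hc : ∃ t ∈ K1 T x1, t ∉ centralizer (D : Set G)
    · have e : A1 = Finset.univ.filter fun w => w ∈ fixG D (K1 T x1) := if_pos hc
      obtain ⟨t, ht, htC⟩ := hc
      have h1 := h.card_fix1 hx1 hx1n ht htC hM
      rw [Nat.card_eq_fintype_card, Fintype.card_subtype] at h1
      rw [e]
      exact h1
    · have e : A1 = {1} := if_neg hc
      rw [e, Finset.card_singleton]
      exact Nat.one_le_pow _ _ hp.out.pos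
  have hA2 : A2.card ≤ p ^ N := by
    by_cases hc : ∃ t ∈ h.K2 hx2.1, t ∉ centralizer (D : Set G)
    · have e : A2 = Finset.univ.filter fun w => w ∈ fixG D (h.K2 hx2.1) := if_pos hc
      obtain ⟨t, ht, htC⟩ := hc
      have h1 := h.card_fix2 hx1 hx1n hx2 hx2L ht htC hN
      rw [Nat.card_eq_fintype_card, Fintype.card_subtype] at h1
      rw [e]
      exact h1
    · have e : A2 = {1} := if_neg hc
      rw [e, Finset.card_singleton]
      exact Nat.one_le_pow _ _ hp.out.pos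
  have h1A1 : (1 : G) ∈ A1 := by
    by_cases hc : ∃ t ∈ K1 T x1, t ∉ centralizer (D : Set G)
    · have e : A1 = Finset.univ.filter fun w => w ∈ fixG D (K1 T x1) := if_pos hc
      rw [e]
      exact Finset.mem_filter.2 ⟨Finset.mem_univ _, one_mem _⟩
    · have e : A1 = {1} := if_neg hc
      rw [e]
      exact Finset.mem_singleton_self _
  have h1A2 : (1 : G) ∈ A2 := by
    by_cases hc : ∃ t ∈ h.K2 hx2.1, t ∉ centralizer (D : Set G)
    · have e : A2 = Finset.univ.filter fun w => w ∈ fixG D (h.K2 hx2.1) := if_pos hc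
      rw [e]
      exact Finset.mem_filter.2 ⟨Finset.mem_univ _, one_mem _⟩
    · have e : A2 = {1} := if_neg hc
      rw [e]
      exact Finset.mem_singleton_self _
  have hun : (A1 ∪ A2).card + 1 ≤ A1.card + A2.card := by
    rw [← Finset.card_union_add_card_inter]
    refine Nat.add_le_add_left ?_ _
    exact Finset.card_pos.2 ⟨1, Finset.mem_inter.2 ⟨h1A1, h1A2⟩⟩
  have hcov : P ⊆ R ∪ (A1 ∪ A2) := by
    intro u hu
    have huD : u ∈ D := (Finset.mem_filter.1 hu).2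
    rw [Finset.mem_union, Finset.mem_union]
    by_cases hu1 : u = 1
    · right; left
      rw [hu1]
      exact h1A1
    by_cases hreg : ∀ n ∈ T, n * u * n⁻¹ = u → n ∈ centralizer (D : Set G)
    · left
      exact Finset.mem_filter.2 ⟨Finset.mem_univ _, huD, hreg⟩
    · right
      push Not at hreg
      obtain ⟨t, ht, htu, htC⟩ := hreg
      rcases h.nonreg hx1 hx1n hx2 hx2L huD hu1 ht htC htu with ⟨h1, h2⟩ | ⟨h1, h2⟩
      · left
        have e : A1 = Finset.univ.filter fun w => w ∈ fixG D (K1 T x1) := if_pos ⟨t, h1, htC⟩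
        rw [e]
        exact Finset.mem_filter.2 ⟨Finset.mem_univ _, h2⟩
      · right
        have e : A2 = Finset.univ.filter fun w => w ∈ fixG D (h.K2 hx2.1) := if_pos ⟨t, h1, htC⟩
        rw [e]
        exact Finset.mem_filter.2 ⟨Finset.mem_univ _, h2⟩
  have h1 : P.card = Nat.card D := by
    rw [Nat.card_eq_fintype_card, Fintype.card_subtype]
  have h2 : R.card = Nat.card {w : G // w ∈ D ∧ ∀ n ∈ T, n * w * n⁻¹ = w →
      n ∈ centralizer (D : Set G)} := by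
    rw [Nat.card_eq_fintype_card, Fintype.card_subtype]
  rw [← h1, ← h2]
  have h3 : P.card ≤ R.card + (A1 ∪ A2).card :=
    (Finset.card_le_card hcov).trans (Finset.card_union_le _ _)
  omega

end LineData

section Main

variable {p : ℕ} [hp : Fact p.Prime] {G : Type*} [Group G] [Finite G] {D T : Subgroup G}

/-- **(R')** the groups `C_(p ^ m) × C_(p ^ n)`, `m > n = N + 1 ≥ 1` -/
theorem rank2' (hD : IsPGroup p D) (hab : ∀ a ∈ D, ∀ b ∈ D, a * b = b * a)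
    (hTN : T ≤ normalizer (D : Set G)) (hCT : centralizer (D : Set G) ≤ T)
    (hT : ¬ p ∣ (centralizer (D : Set G)).relIndex T)
    (h1 : Nat.card {x : G // x ∈ D ∧ x ^ p = 1} = p ^ 2) {N : ℕ}
    (h2 : ∀ x ∈ D, x ^ p = 1 → ∃ y ∈ D, y ^ p ^ N = x)
    (h3 : ∃ x ∈ D, x ^ p = 1 ∧ ∀ y ∈ D, y ^ p ^ (N + 1) ≠ x)
    (h4 : ∃ z ∈ D, z ^ p ^ (N + 1) ≠ 1) :
    (∃ w ∈ D, (∀ i : ℕ, (∃ d ∈ D, d ^ p = w ^ i) → p ∣ i) ∧
      ∀ n ∈ T, (∃ d ∈ D, n * w * n⁻¹ * w⁻¹ = d ^ p) → n ∈ centralizer (D : Set G)) ∧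
    (centralizer (D : Set G)).relIndex T * Nat.card D < p ^ 2 * Nat.card {w : G // w ∈ D ∧
      ∀ n ∈ T, n * w * n⁻¹ = w → n ∈ centralizer (D : Set G)} ∧
    Nat.card D = p ^ 2 * Nat.card {y : G // ∃ d ∈ D, d ^ p = y} ∧
    (centralizer (D : Set G)).relIndex T ≤ (p - 1) ^ 2 := by
  have hom : Nat.card (omS hab p) = p ^ 2 := h1
  obtain ⟨M, hNM, hM, z, hz, hz1⟩ := exists_exp_aux hD h4
  -- the line
  let L : Subgroup G := omS hab p ⊓ pw hab (p ^ (N + 1))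
  have hLO : L ≤ omS hab p := inf_le_left
  have hx1L : z ^ p ^ M ∈ L := by
    refine ⟨⟨pow_mem hz _, ?_⟩, ?_⟩
    · rw [← pow_mul, ← pow_succ]
      exact hM z hz
    · obtain ⟨c, rfl⟩ := Nat.exists_eq_add_of_lt hNM
      refine ⟨z ^ p ^ c, pow_mem hz _, ?_⟩
      rw [← pow_mul, ← pow_add]
      congr 2
      omega
  obtain ⟨x2, hx2D, hx2p, hx2⟩ := h3
  have hx2O : x2 ∈ omS hab p := ⟨hx2D, hx2p⟩
  have hx2L : x2 ∉ L := by
    rintro ⟨-, y, hy, hyx⟩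
    exact hx2 y hy hyx
  have hcardL : Nat.card L = p := by
    have h5 : Nat.card L ∣ p ^ 2 := by
      rw [← hom]
      exact Subgroup.card_dvd_of_le hLO
    obtain ⟨i, hi, hi'⟩ := (Nat.dvd_prime_pow hp.out).1 h5
    have h6 : i ≠ 2 := by
      rintro rfl
      have h7 : L = omS hab p := Subgroup.eq_of_le_of_card_ge hLO (by rw [hi', hom])
      exact hx2L (h7 ▸ hx2O)
    have h7 : i ≠ 0 := by
      rintro rfl
      rw [pow_zero] at hi'
      have h8 := Subgroup.card_eq_one.1 hi'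
      have h9 : z ^ p ^ M ∈ (⊥ : Subgroup G) := h8 ▸ hx1L
      exact hz1 (mem_bot.1 h9)
    have h8 : i = 1 := by omega
    rw [hi', h8, pow_one]
  have hconj : ∀ t ∈ T, ∀ x ∈ L, t * x * t⁻¹ ∈ L := by
    rintro t ht x ⟨⟨hx, hxp⟩, y, hy, rfl⟩
    have hc : ∀ v ∈ D, t * v * t⁻¹ ∈ D := fun v hv => (mem_normalizer_iff.1 (hTN ht) v).1 hv
    refine ⟨⟨hc _ hx, ?_⟩, t * y * t⁻¹, hc _ hy, conj_pow⟩
    rw [conj_pow, hxp]
    group
  have hdat : LineData p D T L := ⟨hD, hab, hTN, hCT, hT, hom, hcardL, hLO, hconj⟩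
  have hNL : ∀ y ∈ D, (y ^ p ^ (N + 1)) ^ p = 1 → y ^ p ^ (N + 1) ∈ L :=
    fun y hy hyp => ⟨⟨pow_mem hy _, hyp⟩, y, hy, rfl⟩
  obtain ⟨y2, hy2, hyx2⟩ := h2 x2 hx2D hx2p
  have he := hdat.relIndex_le hx1L hz1 hx2O hx2L
  have hreg := hdat.card_lt_reg hx1L hz1 hx2O hx2L hM hNL
  -- the order of `D`
  have hcD : p ^ (M + N + 2) ≤ Nat.card D := by
    rw [← card_pw hab (p ^ (N + 1))]
    have h5 := card_omS_ge_pow hab p N h2 (N + 1) le_rfl
    rw [hom] at h5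
    have h6 : p ^ (M - N) ≤ Nat.card (pw hab (p ^ (N + 1))) := by
      have h7 : orderOf (z ^ p ^ (N + 1)) = p ^ (M - N) := by
        have h8 : M - N = (M - N - 1) + 1 := by omega
        rw [h8]
        refine orderOf_eq_prime_pow ?_ ?_
        · rw [← pow_mul, ← pow_add, show N + 1 + (M - N - 1) = M by omega]
          exact hz1
        · rw [← pow_mul, ← pow_add, show N + 1 + (M - N - 1 + 1) = M + 1 by omega]
          exact hM z hz
      rw [← h7, ← Nat.card_zpowers]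
      refine Subgroup.card_le_of_le ?_
      rw [zpowers_le]
      exact ⟨z, hz, rfl⟩
    calc p ^ (M + N + 2) = (p ^ 2) ^ (N + 1) * p ^ (M - N) := by
          rw [← pow_mul, ← pow_add]
          congr 1
          omega
      _ ≤ _ := Nat.mul_le_mul h5 h6
  refine ⟨?_, ?_, ?_, he⟩
  · exact hdat.exists_reg hx1L hz1 hx2O hx2L hNM hM hz rfl hy2 hyx2 hNL
  · have h8 : 2 ≤ p := hp.out.two_le
    set R := Nat.card {w : G // w ∈ D ∧ ∀ n ∈ T, n * w * n⁻¹ = w →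
      n ∈ centralizer (D : Set G)}
    exact num_rank2 h8 hNM hcD he (by simpa using hreg)
  · rw [← hom]
    exact (card_pw hab p).symm

/-- **(R')** the abelian `p`-groups of rank two which are not homocyclic -/
theorem rank2_gen (hD : IsPGroup p D) (hab : ∀ a ∈ D, ∀ b ∈ D, a * b = b * a)
    (hTN : T ≤ normalizer (D : Set G)) (hCT : centralizer (D : Set G) ≤ T)
    (hT : ¬ p ∣ (centralizer (D : Set G)).relIndex T)
    (h1 : Nat.card {x : G // x ∈ D ∧ x ^ p = 1} = p ^ 2)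
    (h2 : ∃ a : ℕ, (∃ z ∈ D, z ^ p ^ a ≠ 1) ∧ ∃ x ∈ D, x ^ p = 1 ∧ ∀ y ∈ D, y ^ p ^ a ≠ x) :
    ∃ w ∈ D, (∀ i : ℕ, (∃ d ∈ D, w ^ i = d ^ p) → p ∣ i) ∧
      (∀ t ∈ T, (∃ d ∈ D, t * w * t⁻¹ * w⁻¹ = d ^ p) → t ∈ centralizer (D : Set G)) ∧
      (centralizer (D : Set G)).relIndex T * Nat.card D < p ^ 2 * Nat.card {w : G // w ∈ D ∧
        ∀ t ∈ T, t * w * t⁻¹ = w → t ∈ centralizer (D : Set G)} ∧
      Nat.card D = p ^ 2 * Nat.card {y : G // ∃ d ∈ D, d ^ p = y} ∧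
      (centralizer (D : Set G)).relIndex T ≤ (p - 1) ^ 2 := by
  classical
  obtain ⟨a, ⟨z, hz, hz1⟩, x, hx, hxp, hxa⟩ := h2
  have hex : ∃ n : ℕ, ∃ x ∈ D, x ^ p = 1 ∧ ∀ y ∈ D, y ^ p ^ n ≠ x := ⟨a, x, hx, hxp, hxa⟩
  have h3 := Nat.find_spec hex
  have h4 : Nat.find hex ≤ a := Nat.find_le ⟨x, hx, hxp, hxa⟩
  have h5 : Nat.find hex ≠ 0 := by
    intro h0
    rw [h0] at h3
    obtain ⟨y, hy, -, hyx⟩ := h3
    exact hyx y hy (by rw [pow_zero, pow_one])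
  obtain ⟨N, hN⟩ := Nat.exists_eq_succ_of_ne_zero h5
  have h6 : ∀ x ∈ D, x ^ p = 1 → ∃ y ∈ D, y ^ p ^ N = x := by
    intro x hx hxp
    by_contra hcon
    push Not at hcon
    exact Nat.find_min hex (m := N) (by omega) ⟨x, hx, hxp, hcon⟩
  rw [hN] at h3
  obtain ⟨⟨w, hw, hw1, hw2⟩, r2, r3, r4⟩ := rank2' hD hab hTN hCT hT h1 h6 h3 ⟨z, hz, fun hc => hz1 (by
    obtain ⟨c, hc'⟩ := Nat.exists_eq_add_of_le h4
    rw [hc', hN, pow_add, pow_mul]
    rw [Nat.succ_eq_add_one, hc, one_pow])⟩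
  exact ⟨w, hw, fun i ⟨d, hd, hdi⟩ => hw1 i ⟨d, hd, hdi.symm⟩, hw2, r2, r3, r4⟩

end Main

end P179H450
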