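import Vale.Agent.P179.R2.H450.R2q

/-!
# The group theory of a normal subgroup `M` of the defect group, rank two
-/

namespace P179H450

open Subgroup P179H292

section Act

variable {G : Type*} [Group G]

/-- conjugation by the elements of `T` on a `T`-stable subgroup -/
def cjAut (T A : Subgroup G) (h : ∀ t ∈ T, ∀ x ∈ A, t * x * t⁻¹ ∈ A) : T →* MulAut A where
  toFun t :=
    { toFun := fun x => ⟨(t : G) * x * (t : G)⁻¹, h t t.2 x x.2⟩
      invFun := fun x => ⟨(t : G)⁻¹ * x * t, by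
        have := h _ (inv_mem t.2) x x.2
        rwa [inv_inv] at this⟩
      left_inv := fun x => Subtype.ext (by
        change (t : G)⁻¹ * ((t : G) * x * (t : G)⁻¹) * t = x
        group)
      right_inv := fun x => Subtype.ext (by
        change (t : G) * ((t : G)⁻¹ * x * t) * (t : G)⁻¹ = x
        group)
      map_mul' := fun x y => Subtype.ext (by
        change (t : G) * ((x : G) * y) * (t : G)⁻¹ =
          (t : G) * x * (t : G)⁻¹ * ((t : G) * y * (t : G)⁻¹)
        group) }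
  map_one' := by
    ext x
    change (1 : G) * x * (1 : G)⁻¹ = x
    group
  map_mul' s t := by
    ext x
    change (s : G) * t * x * ((s : G) * t)⁻¹ = (s : G) * ((t : G) * x * (t : G)⁻¹) * (s : G)⁻¹
    group

theorem cjAut_apply (T A : Subgroup G) (h : ∀ t ∈ T, ∀ x ∈ A, t * x * t⁻¹ ∈ A) (t : T) (x : A) :
    ((cjAut T A h t x : A) : G) = (t : G) * x * (t : G)⁻¹ := rfl

/-- the action on the quotient -/
def quAut {T : Type*} [Group T] {A : Type*} [Group A] (φ : T →* MulAut A) (N : Subgroup A)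
    [N.Normal] (hN : ∀ t, ∀ x ∈ N, φ t x ∈ N) : T →* MulAut (A ⧸ N) where
  toFun t := QuotientGroup.congr N N (φ t) (by
    ext x
    constructor
    · rintro ⟨y, hy, rfl⟩
      exact hN t y hy
    · intro hx
      refine ⟨φ t⁻¹ x, hN _ _ hx, ?_⟩
      change φ t (φ t⁻¹ x) = x
      rw [← MulAut.mul_apply, ← map_mul, mul_inv_cancel, map_one, MulAut.one_apply])
  map_one' := by
    ext x
    obtain ⟨y, rfl⟩ := QuotientGroup.mk_surjective x
    change QuotientGroup.mk (φ 1 y) = _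
    rw [map_one]
    rfl
  map_mul' s t := by
    ext x
    obtain ⟨y, rfl⟩ := QuotientGroup.mk_surjective x
    change QuotientGroup.mk (φ (s * t) y) = (QuotientGroup.mk (φ s (φ t y)) : A ⧸ N)
    rw [map_mul]
    rfl

/-- the quotient by the kernel of an action on a group of order `p` -/
theorem cyc_of_hom {p : ℕ} [hp : Fact p.Prime] {T : Subgroup G} {A : Type*} [Group A]
    (hA : Nat.card A = p) (φ : T →* MulAut A) (N : Subgroup G)
    (hN : ∀ t : T, φ t = 1 ↔ (t : G) ∈ N) :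
    (N.subgroupOf T).Normal ∧ (∀ [(N.subgroupOf T).Normal], IsCyclic (T ⧸ N.subgroupOf T)) ∧
      N.relIndex T ∣ p - 1 := by
  have hker : N.subgroupOf T = φ.ker := by
    ext t
    rw [mem_subgroupOf, MonoidHom.mem_ker]
    exact (hN t).symm
  have hAf : Finite A := Nat.finite_of_card_ne_zero (by rw [hA]; exact hp.out.ne_zero)
  have hAc : IsCyclic A := isCyclic_of_prime_card hA
  have hcard : Nat.card (MulAut A) = p - 1 := by
    rw [IsCyclic.card_mulAut, hA, Nat.totient_prime hp.out]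
  have hcyc : IsCyclic (MulAut A) := by
    have h1 : IsCyclic (ZMod (Nat.card A))ˣ := by
      rw [hA]
      infer_instance
    exact isCyclic_of_surjective (IsCyclic.mulAutMulEquiv A).symm
      (IsCyclic.mulAutMulEquiv A).symm.surjective
  refine ⟨hker ▸ inferInstance, ?_, ?_⟩
  · intro hNn
    have h1 : IsCyclic φ.range := inferInstance
    have e : (T ⧸ N.subgroupOf T) ≃* φ.range :=
      (QuotientGroup.quotientMulEquivOfEq hker).trans (QuotientGroup.quotientKerEquivRange φ)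
    exact isCyclic_of_surjective e.symm e.symm.surjective
  · have h1 : N.relIndex T = Nat.card φ.range := by
      unfold Subgroup.relIndex
      rw [hker, Subgroup.index_ker]
    rw [h1, ← hcard]
    exact Subgroup.card_subgroup_dvd_card _

end Act

section Cyc

variable {p : ℕ} [hp : Fact p.Prime] {G : Type*} [Group G] {M X : Subgroup G}

/-- an element of `X` fixing the elements of order `p` of the abelian group `M` centralises `M` -/
theorem mem_cent_of_fix (hM : IsPGroup p M) (habM : ∀ a ∈ M, ∀ b ∈ M, a * b = b * a)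
    (hX : ∀ t ∈ X, ∀ x ∈ M, t * x * t⁻¹ ∈ M) (hidx : ¬ p ∣ (centralizer (M : Set G)).relIndex X)
    {t : G} (ht : t ∈ X) (hfix : ∀ x ∈ M, x ^ p = 1 → t * x * t⁻¹ = x) :
    t ∈ centralizer (M : Set G) := by
  have hXN : ∀ t ∈ X, t ∈ normalizer (M : Set G) := by
    intro t ht
    rw [mem_normalizer_iff]
    intro x
    constructor
    · exact hX t ht x
    · intro hx
      have h1 := hX _ (inv_mem ht) _ hx
      have e : t⁻¹ * (t * x * t⁻¹) * t⁻¹⁻¹ = x := by group
      rwa [e] at h1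
  have hN : ((centralizer (M : Set G)).subgroupOf X).Normal := by
    refine ⟨fun c hc n => ?_⟩
    rw [mem_subgroupOf] at hc ⊢
    change (n : G) * c * (n : G)⁻¹ ∈ _
    rw [mem_centralizer_iff] at hc ⊢
    intro x hx
    have h1 : (n : G)⁻¹ * x * n ∈ M := by
      have := hX _ (inv_mem n.2) x hx
      rwa [inv_inv] at this
    have h2 := hc _ h1
    calc x * (n * c * (n : G)⁻¹) = n * ((n : G)⁻¹ * x * n * c) * (n : G)⁻¹ := by group
      _ = n * c * (n : G)⁻¹ * x := by rw [h2]; group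
  have h1 : (⟨t, ht⟩ : X) ^ ((centralizer (M : Set G)).subgroupOf X).index ∈
      (centralizer (M : Set G)).subgroupOf X := pow_index_mem _ _
  exact centralises_of_omega habM hM (hXN t ht) hidx h1 fun x hx => hfix x hx.1 hx.2

/-- **(f)** a group acting on a cyclic `p`-group `M` as a `p'`-group: the quotient by the kernel is
cyclic of order dividing `p - 1` -/
theorem cyc_of_act (hM : IsPGroup p M) (habM : ∀ a ∈ M, ∀ b ∈ M, a * b = b * a)
    (h1 : Nat.card {x : G // x ∈ M ∧ x ^ p = 1} = p)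
    (hX : ∀ t ∈ X, ∀ x ∈ M, t * x * t⁻¹ ∈ M)
    (hidx : ¬ p ∣ (centralizer (M : Set G)).relIndex X) :
    ((centralizer (M : Set G)).subgroupOf X).Normal ∧
      (∀ [((centralizer (M : Set G)).subgroupOf X).Normal],
        IsCyclic (X ⧸ (centralizer (M : Set G)).subgroupOf X)) ∧
      (centralizer (M : Set G)).relIndex X ∣ p - 1 := by
  have h2 : ∀ t ∈ X, ∀ x ∈ omS habM p, t * x * t⁻¹ ∈ omS habM p := by
    rintro t ht x ⟨hx, hxp⟩
    refine ⟨hX t ht x hx, ?_⟩
    rw [conj_pow, hxp]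
    group
  have h3 : Nat.card (omS habM p) = p := h1
  refine cyc_of_hom h3 (cjAut X (omS habM p) h2) _ fun t => ?_
  constructor
  · intro h
    refine mem_cent_of_fix hM habM hX hidx t.2 fun x hx hxp => ?_
    have h4 := congrArg (fun φ : MulAut (omS habM p) => ((φ ⟨x, hx, hxp⟩ : omS habM p) : G)) h
    exact h4
  · intro h
    ext x
    have h4 := mem_centralizer_iff.1 h x x.2.1
    rw [cjAut_apply, MulAut.one_apply, ← h4]
    group

end Cyc

section Main

variable {p : ℕ} [hp : Fact p.Prime] {G : Type*} [Group G] [Finite G] {D T M : Subgroup G}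

/-- the data of the front `n = 1`: `M ≤ D` is `T`-stable, and some element of `T` centralises `M`
but not `D`, `D` of rank two -/
theorem rank2_M (hD : IsPGroup p D) (hab : ∀ a ∈ D, ∀ b ∈ D, a * b = b * a)
    (hTN : T ≤ normalizer (D : Set G)) (hCT : centralizer (D : Set G) ≤ T)
    (hT : ¬ p ∣ (centralizer (D : Set G)).relIndex T)
    (h1 : Nat.card {x : G // x ∈ D ∧ x ^ p = 1} = p ^ 2) (hMD : M ≤ D) (hM1 : M ≠ ⊥)
    (hMT : ∀ t ∈ T, ∀ x ∈ M, t * x * t⁻¹ ∈ M)
    (hn : ∃ n ∈ T, n ∈ centralizer (M : Set G) ∧ n ∉ centralizer (D : Set G)) :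
    Nat.card {x : G // x ∈ M ∧ x ^ p = 1} = p ∧
    (∀ x ∈ M, x ≠ 1 → ∀ t ∈ T, t * x * t⁻¹ = x → t ∈ centralizer (M : Set G)) ∧
    (((centralizer (M : Set G)).subgroupOf T).Normal ∧
      (∀ [((centralizer (M : Set G)).subgroupOf T).Normal],
        IsCyclic (T ⧸ (centralizer (M : Set G)).subgroupOf T)) ∧
      (centralizer (M : Set G)).relIndex T ∣ p - 1) ∧
    (((centralizer (D : Set G)).subgroupOf (T ⊓ centralizer (M : Set G))).Normal ∧
      (∀ [((centralizer (D : Set G)).subgroupOf (T ⊓ centralizer (M : Set G))).Normal],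
        IsCyclic (↥(T ⊓ centralizer (M : Set G)) ⧸
          (centralizer (D : Set G)).subgroupOf (T ⊓ centralizer (M : Set G)))) ∧
      (centralizer (D : Set G)).relIndex (T ⊓ centralizer (M : Set G)) ∣ p - 1) ∧
    (∀ u ∈ D, u ≠ 1 → ∀ t ∈ T ⊓ centralizer (M : Set G), t ∉ centralizer (D : Set G) →
      t * u * t⁻¹ = u → ∀ s ∈ T ⊓ centralizer (M : Set G), s * u * s⁻¹ = u) ∧
    (∃ d ∈ D, ∃ s ∈ T ⊓ centralizer (M : Set G), s * d * s⁻¹ ≠ d) := by
  have hom : Nat.card (omS hab p) = p ^ 2 := h1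
  have habM : ∀ a ∈ M, ∀ b ∈ M, a * b = b * a := fun a ha b hb => hab a (hMD ha) b (hMD hb)
  have hMp : IsPGroup p M := hD.to_le hMD
  obtain ⟨n, hnT, hnM, hnD⟩ := hn
  have hle : omS habM p ≤ omS hab p := fun x hx => ⟨hMD hx.1, hx.2⟩
  -- the line
  obtain ⟨x1, hx1, hx1n⟩ : ∃ x1 ∈ omS habM p, x1 ≠ 1 := by
    obtain ⟨x, hx⟩ := Subgroup.ne_bot_iff_exists_ne_one.1 hM1
    obtain ⟨i, hi, hi1⟩ := LineData.exists_pow_order hMp x.2 fun hc => hx (Subtype.ext hc)
    exact ⟨_, ⟨pow_mem x.2 _, hi⟩, hi1⟩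
  have hcardL : Nat.card (omS habM p) = p := by
    have h5 : Nat.card (omS habM p) ∣ p ^ 2 := by
      rw [← hom]
      exact Subgroup.card_dvd_of_le hle
    obtain ⟨i, hi, hi'⟩ := (Nat.dvd_prime_pow hp.out).1 h5
    have hpow : n ^ (centralizer (D : Set G)).relIndex T ∈ centralizer (D : Set G) := by
      have hN : ((centralizer (D : Set G)).subgroupOf T).Normal := by
        refine ⟨fun c hc n => ?_⟩
        rw [mem_subgroupOf] at hc ⊢
        change (n : G) * c * (n : G)⁻¹ ∈ _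
        rw [mem_centralizer_iff] at hc ⊢
        intro x hx
        have h1 : (n : G)⁻¹ * x * n ∈ D := by
          have := (mem_normalizer_iff.1 (inv_mem (hTN n.2)) x).1 hx
          rwa [inv_inv] at this
        have h2 := hc _ h1
        calc x * (n * c * (n : G)⁻¹) = n * ((n : G)⁻¹ * x * n * c) * (n : G)⁻¹ := by group
          _ = n * c * (n : G)⁻¹ * x := by rw [h2]; group
      have h1 : (⟨n, hnT⟩ : T) ^ ((centralizer (D : Set G)).subgroupOf T).index ∈
          (centralizer (D : Set G)).subgroupOf T := pow_index_mem _ _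
      exact h1
    have h6 : i ≠ 2 := by
      rintro rfl
      have h7 : omS habM p = omS hab p := Subgroup.eq_of_le_of_card_ge hle (by rw [hi', hom])
      apply hnD
      refine centralises_of_omega hab hD (hTN hnT) hT hpow fun x hx => ?_
      rw [← h7] at hx
      have h8 := mem_centralizer_iff.1 hnM x hx.1
      rw [← h8]
      group
    have h7 : i ≠ 0 := by
      rintro rfl
      rw [pow_zero] at hi'
      have h8 := Subgroup.card_eq_one.1 hi'
      have h9 : x1 ∈ (⊥ : Subgroup G) := h8 ▸ hx1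
      exact hx1n (mem_bot.1 h9)
    have h8 : i = 1 := by omega
    rw [hi', h8, pow_one]
  have hconj : ∀ t ∈ T, ∀ x ∈ omS habM p, t * x * t⁻¹ ∈ omS habM p := by
    rintro t ht x ⟨hx, hxp⟩
    refine ⟨hMT t ht x hx, ?_⟩
    rw [conj_pow, hxp]
    group
  have hdat : LineData p D T (omS habM p) := ⟨hD, hab, hTN, hCT, hT, hom, hcardL, hle, hconj⟩
  obtain ⟨x2, hx2, hx2L⟩ : ∃ x2 ∈ omS hab p, x2 ∉ omS habM p := by
    by_contra hcon
    push Not at hcon
    have h2 := Subgroup.card_le_of_le (show omS hab p ≤ omS habM p from hcon)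
    rw [hom, hcardL] at h2
    have h3 := hp.out.one_lt
    nlinarith
  -- indices
  have hCM : centralizer (D : Set G) ≤ centralizer (M : Set G) := centralizer_le hMD
  have hCT0 : centralizer (D : Set G) ≤ T ⊓ centralizer (M : Set G) := le_inf hCT hCM
  have hidxT : (centralizer (D : Set G)).relIndex (T ⊓ centralizer (M : Set G)) *
      (centralizer (M : Set G)).relIndex T = (centralizer (D : Set G)).relIndex T := by
    rw [← Subgroup.relIndex_mul_relIndex _ _ _ hCT0 inf_le_left, Subgroup.inf_relIndex_left]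
  have hidxM : ¬ p ∣ (centralizer (M : Set G)).relIndex T := by
    intro hc
    apply hT
    rw [← hidxT]
    exact hc.mul_left _
  -- `C_T(M)` is the stabiliser of any non-trivial element
  have hstab : ∀ x ∈ M, x ≠ 1 → ∀ t ∈ T, t * x * t⁻¹ = x → t ∈ centralizer (M : Set G) := by
    intro x hx hx1' t ht htx
    obtain ⟨i, hi, hi1⟩ := LineData.exists_pow_order hMp hx hx1'
    refine mem_cent_of_fix hMp habM hMT hidxM ht fun y hy hyp => ?_
    exact hdat.fix_L (x := x ^ p ^ i) ⟨pow_mem hx _, hi⟩ hi1 (LineData.fix_pow htx _) ⟨hy, hyp⟩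
  have hfixM : ∀ t ∈ centralizer (M : Set G), ∀ x ∈ M, t * x * t⁻¹ = x := by
    intro t ht x hx
    have h8 := mem_centralizer_iff.1 ht x hx
    rw [← h8]
    group
  refine ⟨hcardL, hstab, cyc_of_act hMp habM hcardL hMT hidxM, ?_, ?_, ?_⟩
  · -- the action on `Ω_1 / L`
    set A := omS hab p with hA
    set T0 := T ⊓ centralizer (M : Set G) with hT0
    have hA0 : ∀ t ∈ T0, ∀ x ∈ A, t * x * t⁻¹ ∈ A := fun t ht x hx => hdat.conj_om ht.1 hx
    set L' : Subgroup A := (omS habM p).subgroupOf A with hL'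
    have hAcomm : ∀ a b : A, a * b = b * a := fun a b => Subtype.ext (hab _ a.2.1 _ b.2.1)
    have hL'n : L'.Normal := ⟨fun x hx g => by
      rw [hAcomm g x, mul_assoc, mul_inv_cancel, mul_one]
      exact hx⟩
    have hφ : ∀ t, ∀ x ∈ L', cjAut T0 A hA0 t x ∈ L' := by
      intro t x hx
      rw [hL', mem_subgroupOf] at hx ⊢
      exact hconj t t.2.1 x hx
    have hcQ : Nat.card (A ⧸ L') = p := by
      have h2 : Nat.card A = Nat.card (A ⧸ L') * Nat.card L' :=
        Subgroup.card_eq_card_quotient_mul_card_subgroup L'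
      have h3 : Nat.card L' = p := by
        rw [← hcardL]
        exact Nat.card_congr (Subgroup.subgroupOfEquivOfLe hle).toEquiv
      rw [hom, h3, sq] at h2
      exact (Nat.eq_of_mul_eq_mul_right hp.out.pos h2).symm
    refine cyc_of_hom hcQ (quAut (cjAut T0 A hA0) L' hφ) _ fun t => ?_
    constructor
    · intro h
      have h2 := congrArg (fun φ : MulAut (A ⧸ L') =>
        φ (QuotientGroup.mk (⟨x2, hx2⟩ : A))) h
      have h3 : (QuotientGroup.mk (cjAut T0 A hA0 t ⟨x2, hx2⟩) : A ⧸ L') =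
          QuotientGroup.mk (⟨x2, hx2⟩ : A) := h2
      rw [eq_comm, QuotientGroup.eq] at h3
      have h4 : (x2 : G)⁻¹ * (t * x2 * (t : G)⁻¹) ∈ omS habM p := mem_subgroupOf.1 h3
      refine hdat.mem_C_of_unip t.2.1 hx1 hx1n hx2 hx2L (hfixM _ t.2.2 _ hx1.1) ?_
      have h5 : x2⁻¹ * (t * x2 * (t : G)⁻¹) = t * x2 * (t : G)⁻¹ * x2⁻¹ :=
        hab _ (inv_mem hx2.1) _ (hdat.conj_D t.2.1 hx2.1)
      rwa [h5] at h4
    · intro h
      ext x
      obtain ⟨y, rfl⟩ := QuotientGroup.mk_surjective x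
      change QuotientGroup.mk (cjAut T0 A hA0 t y) = (QuotientGroup.mk y : A ⧸ L')
      congr 1
      apply Subtype.ext
      rw [cjAut_apply]
      have h4 := mem_centralizer_iff.1 h y y.2.1
      rw [← h4]
      group
  · rintro u hu hu1 t ⟨htT, htM⟩ htC htu s ⟨hsT, hsM⟩
    have htx : t * x1 * t⁻¹ = x1 := hfixM t htM _ hx1.1
    have hsx : s * x1 * s⁻¹ = x1 := hfixM s hsM _ hx1.1
    rcases hdat.nonreg hx1 hx1n hx2 hx2L hu hu1 htT htC htu with ⟨-, h2⟩ | ⟨h2, -⟩
    · exact h2.2 s ⟨hsT, hsx⟩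
    · exact absurd (hdat.mem_C_of_unip htT hx1 hx1n hx2 hx2L htx h2.2) htC
  · by_contra hcon
    push Not at hcon
    apply hnD
    rw [mem_centralizer_iff]
    intro d hd
    have h2 := hcon d hd n ⟨hnT, hnM⟩
    rw [mul_inv_eq_iff_eq_mul] at h2
    exact h2.symm

omit hp in
/-- an abelian `p`-group with `p` elements of order dividing `p` is cyclic -/
theorem isCyclic_of_om [Fact p.Prime] (hMp : IsPGroup p M)
    (habM : ∀ a ∈ M, ∀ b ∈ M, a * b = b * a)
    (h1 : Nat.card {x : G // x ∈ M ∧ x ^ p = 1} ≤ p) : IsCyclic M := by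
  classical
  have hp : p.Prime := Fact.out
  have := Fintype.ofFinite M
  obtain ⟨m, hm⟩ := IsPGroup.iff_card.1 hMp
  refine isCyclic_of_card_pow_eq_one_le fun n hn => ?_
  obtain ⟨j, hj, hj'⟩ := (Nat.dvd_prime_pow hp).1 (show Nat.gcd n (p ^ m) ∣ p ^ m from
    Nat.gcd_dvd_right _ _)
  have h2 : (Finset.univ.filter fun a : M => a ^ n = 1).card ≤ Nat.card (omS habM (p ^ j)) := by
    rw [← Fintype.card_subtype, ← Nat.card_eq_fintype_card]
    refine Nat.card_le_card_of_injective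
      (fun a : {a : M // a ^ n = 1} => (⟨a.1.1, a.1.2, ?_⟩ : omS habM (p ^ j))) ?_
    · have h3 : (a.1 : M) ^ Nat.card M = 1 := pow_card_eq_one'
      rw [hm] at h3
      have h4 : orderOf a.1 ∣ Nat.gcd n (p ^ m) :=
        Nat.dvd_gcd (orderOf_dvd_of_pow_eq_one a.2) (orderOf_dvd_of_pow_eq_one h3)
      rw [hj'] at h4
      exact congrArg Subtype.val (orderOf_dvd_iff_pow_eq_one.1 h4)
    · intro a b hab
      have h3 : a.1.1 = b.1.1 := congrArg (fun z : omS habM (p ^ j) => z.1) hab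
      exact Subtype.ext (Subtype.ext h3)
  refine h2.trans ((card_omS_le habM p j).trans ?_)
  calc Nat.card (omS habM p) ^ j ≤ p ^ j := Nat.pow_le_pow_left h1 j
    _ = Nat.gcd n (p ^ m) := hj'.symm
    _ ≤ n := Nat.gcd_le_left _ hn

/-- the form used by the assembly of the front `n = 1` -/
theorem grp_M (hD : IsPGroup p D) (hab : ∀ a ∈ D, ∀ b ∈ D, a * b = b * a)
    (hTN : T ≤ normalizer (D : Set G)) (hCT : centralizer (D : Set G) ≤ T)
    (hT : ¬ p ∣ (centralizer (D : Set G)).relIndex T)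
    (h1 : Nat.card {x : G // x ∈ D ∧ x ^ p = 1} = p ^ 2) (hMD : M ≤ D) (hM1 : M ≠ ⊥)
    (hMT : ∀ t ∈ T, ∀ x ∈ M, t * x * t⁻¹ ∈ M)
    (hn : ∃ n ∈ T, n ∈ centralizer (M : Set G) ∧ n ∉ centralizer (D : Set G)) :
    (∃ K : Subgroup G, K ≤ D ∧ ¬ D ≤ K ∧ M ≤ K ∧ ∀ u ∈ D, u ≠ 1 → ∀ n ∈ T,
      n ∈ centralizer (M : Set G) → n * u * n⁻¹ = u → n ∉ centralizer (D : Set G) → u ∈ K) ∧
    (∃ K : Subgroup G, K ≤ D ∧ ¬ D ≤ K ∧ M ≤ K ∧ ∀ u ∈ D, ∀ n ∈ T,
      n ∈ centralizer (M : Set G) → n * u * n⁻¹ = u → n ∉ centralizer (D : Set G) → u ∈ K) ∧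
    (centralizer (D : Set G)).relIndex (T ⊓ centralizer (M : Set G)) ∣ p - 1 ∧
    (centralizer (D : Set G)).relIndex (T ⊓ centralizer (M : Set G)) ≤ p - 1 ∧
    IsCyclic M ∧
    ¬ p ∣ (centralizer (M : Set G)).relIndex T ∧
    ¬ p ∣ (centralizer (M : Set G) ⊓ T).relIndex T ∧
    (centralizer (M : Set G)).relIndex T ∣ p - 1 := by
  obtain ⟨r1, r2, r3, r4, r5, r6⟩ := rank2_M hD hab hTN hCT hT h1 hMD hM1 hMT hn
  have habM : ∀ a ∈ M, ∀ b ∈ M, a * b = b * a := fun a ha b hb => hab a (hMD ha) b (hMD hb)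
  have hMp : IsPGroup p M := hD.to_le hMD
  have hCM : centralizer (D : Set G) ≤ centralizer (M : Set G) := centralizer_le hMD
  have hCT0 : centralizer (D : Set G) ≤ T ⊓ centralizer (M : Set G) := le_inf hCT hCM
  have hidxT : (centralizer (D : Set G)).relIndex (T ⊓ centralizer (M : Set G)) *
      (centralizer (M : Set G)).relIndex T = (centralizer (D : Set G)).relIndex T := by
    rw [← Subgroup.relIndex_mul_relIndex _ _ _ hCT0 inf_le_left, Subgroup.inf_relIndex_left]
  have hidxM : ¬ p ∣ (centralizer (M : Set G)).relIndex T := by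
    intro hc
    apply hT
    rw [← hidxT]
    exact hc.mul_left _
  have hK : LineData.fixG D (T ⊓ centralizer (M : Set G)) ≤ D := fun _ h => h.1
  have hDK : ¬ D ≤ LineData.fixG D (T ⊓ centralizer (M : Set G)) := by
    intro hc
    obtain ⟨d, hd, s, hs, hsd⟩ := r6
    exact hsd ((hc hd).2 s hs)
  have hMK : M ≤ LineData.fixG D (T ⊓ centralizer (M : Set G)) := by
    intro x hx
    refine ⟨hMD hx, fun t ht => ?_⟩
    have h8 := mem_centralizer_iff.1 ht.2 x hx
    rw [← h8]
    group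
  have key : ∀ u ∈ D, ∀ n ∈ T, n ∈ centralizer (M : Set G) → n * u * n⁻¹ = u →
      n ∉ centralizer (D : Set G) → u ∈ LineData.fixG D (T ⊓ centralizer (M : Set G)) := by
    intro u hu n hn hnM hnu hnC
    by_cases hu1 : u = 1
    · rw [hu1]
      exact one_mem _
    · exact ⟨hu, r5 u hu hu1 n ⟨hn, hnM⟩ hnC hnu⟩
  have hpos : 0 < p - 1 := by
    have := hp.out.one_lt
    omega
  refine ⟨⟨_, hK, hDK, hMK, fun u hu _ => key u hu⟩, ⟨_, hK, hDK, hMK, key⟩, r4.2.2,
    Nat.le_of_dvd hpos r4.2.2, isCyclic_of_om hMp habM r1.le, hidxM, ?_, r3.2.2⟩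
  rw [Subgroup.inf_relIndex_right]
  exact hidxM

end Main

end P179H450
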