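import Vale.Agent.P179.R2.H443.Gp2
import Vale.Agent.P179.R2.H452.M7

/-!
# The groups `C_(p^2) × C_(p^2)`: the case of a regular element modulo `D ^ p`, and the reduction
-/

namespace P179H450

open Subgroup P179Y P179P P179H524 P179I P179A P179C P179H443

open P179B (inertialGroup inertialIndex regularElements)

open scoped Classical

universe u

section

variable {p : ℕ} [hp : Fact p.Prime] {k : Type u} [Field k] [IsAlgClosed k] [CharP k p]

/-- **case 1**: an element of `D` regular modulo `D ^ p` -/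
theorem bdSq_case1 (red : integralClosure ℤ ℂ →+* k) (hp2 : p ≠ 2) {G : Type} [Group G]
    [Finite G] {B : MonoidAlgebra k G} {D : Subgroup G}
    {β : MonoidAlgebra k (centralizer (D : Set G))} (hB : P179B.IsBlock B)
    (hD : P179B.IsDefectGroup B D) (hab : ∀ a ∈ D, ∀ b ∈ D, a * b = b * a)
    (hβ : P179B.IsBlock β) (hβB : P179B.InducesTo β B) (h : HomSq p D) {w : G} (hw : w ∈ D)
    (hwp : w ^ p ≠ 1)
    (hreg : ∀ n ∈ inertialGroup D β, n * w ^ p * n⁻¹ = w ^ p → n ∈ centralizer (D : Set G)) :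
    P179B.numSimpleIn B ≤ p ^ 2 := by
  have hTN : inertialGroup D β ≤ normalizer (D : Set G) := fun n hn => hn.1
  have h1 := P179H452.m7Stmt (p := p) red hp2 G B D β 1 p w hB hD hab hβ hβB le_rfl hw
    (fun i hi => by
      rw [pow_one] at hi
      exact h.dvd_of_pow_mem hw hwp hi)
    (fun n hn hh => by
      rw [pow_one] at hh
      exact hreg n hn ((h.stab_iff hab hTN hn hw).1 hh))
    (h.card_reg hab hTN hw hwp hreg)
  rw [pow_one, h.card_pow, h.card_D hab] at h1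
  have h2 : P179B.numSimpleIn B * (p ^ 2 * p) ≤ p ^ 2 * (p ^ 2 * p) := by
    calc P179B.numSimpleIn B * (p ^ 2 * p) = P179B.numSimpleIn B * p ^ 2 * p := by ring
      _ ≤ p ^ 4 * p := h1
      _ = p ^ 2 * (p ^ 2 * p) := by ring
  exact Nat.le_of_mul_le_mul_right h2 (by have := hp.out.pos; positivity)

/-- the bound in the case of `SqData`, in terms of a pair `(D, l)` -/
def Case2 (p : ℕ) [Fact p.Prime] (k : Type u) [Field k] (red : integralClosure ℤ ℂ →+* k) :
    Prop :=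
  ∀ (G : Type) [Group G] [Fintype G] (D : Subgroup G) (l : (G → k) → k) (w t : G) (s m₁ : ℕ),
    BP p D l → IsPGroup p D → (∀ a ∈ D, ∀ b ∈ D, a * b = b * a) →
    ¬ p ∣ (centralizer (D : Set G)).relIndex (stabT D l) → HomSq p D →
    P179H443.SqData p D (stabT D l) w t s → m₁.Coprime (Nat.card G) →
    m₁ ≡ 1 [MOD ordCompl[p] (Nat.card G)] →
    (∀ i : ℕ, i ≡ 1 [MOD p] → ∃ t : ℕ, m₁ ^ t ≡ i [MOD ordProj[p] (Nat.card G)]) →
    (P179H452.X1 red l m₁).card ≤ p ^ 2

/-- **the bound `l(B) ≤ p²`**, from the second case -/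
theorem bdSq_of_case2 (red : integralClosure ℤ ℂ →+* k) (hp2 : p ≠ 2) (h2 : Case2 p k red) :
    BdSq p k := by
  intro G _ _ B D hB hD hab h
  have := Fintype.ofFinite G
  obtain ⟨β, hβ, hβB⟩ := P179B.exists_root p hB hD
  by_cases hc : ∃ w ∈ D, w ^ p ≠ 1 ∧ ∀ n ∈ inertialGroup D β, n * w ^ p * n⁻¹ = w ^ p →
      n ∈ centralizer (D : Set G)
  · obtain ⟨w, hw, hwp, hreg⟩ := hc
    exact bdSq_case1 red hp2 hB hD hab hβ hβB h hw hwp hreg
  push Not at hc
  obtain ⟨w', hw', hwp'⟩ := h.exists_not_mem hab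
  obtain ⟨n₁, hn₁, hn₁w, hn₁C⟩ := hc w' hw' hwp'
  have hβB' := (P179B.inducesTo_iff β B).1 hβB
  obtain ⟨hDp, -⟩ := exists_BP_of_block (p := p) B hB D hD
  obtain ⟨l, hl, hlz, hlb⟩ := exists_BP_of_subblock (p := p) hB hD hab hβ hβB'
  have hT := stabT_eq_inertialGroup hβ hlb
  have hpT := hT_of_block hB hD hDp hab hl hlz
  rw [← hT] at hn₁
  obtain ⟨w, t, s, hs, -⟩ := h.exists_sqData hDp hab (stabT_le_norm D l) (cent_le_stabT D l) hpT
    hw' hwp' hn₁ hn₁w hn₁C
  obtain ⟨m, hmc, hm1, hmp, hgen⟩ := P179Y.exists_exp1 (p := p) hp2 (Nat.card G) Nat.card_pos.ne'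
  rw [P179B.numSimpleIn_eq]
  exact (P179H452.numSimpleIn_le_X1 red hB hD hDp hab hl hlz hmc hm1 hmp).trans
    (h2 G D l w t s m hl hDp hab hpT h hs hmc hm1 hgen)

end

end P179H450
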