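import Vale.Agent.P179.R2.H450.Coh4

/-!
# Coherence in the centraliser of a non-regular element: conclusion
-/

namespace P179H450

open Finset P179P P179C P179Y Subgroup P179H524 P179I P179H452

open scoped Classical IsMulCommutative

universe v

section

variable {p : ℕ} [hp : Fact p.Prime] {k : Type v} [Field k] [CharP k p] {red : AA →+* k}
  {G : Type} [Group G] [Fintype G] {D : Subgroup G} {l : (G → k) → k}
  {Φ : ∀ H : Subgroup G, Irr H} {aH bH : Subgroup G → ℕ} {ε : Subgroup G → ℤ} {κ₀ : k}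
  {Z : Subgroup G} {v : G} {q : ℕ}

theorem sum_X (F : Irr G → ℂ) :
    ∑ ψ : {ψ : Irr G // ψ ∈ XZ red l Z}, F ψ.1 = ∑ ψ ∈ XZ red l Z, F ψ :=
  (Finset.sum_subtype (XZ red l Z) (fun _ => Iff.rfl) F).symm

/-- from the subtype to the structure `Coh` -/
theorem coh_of [IsAlgClosed k] [NeZero q] (h : LocR p red D l Φ aH bH ε κ₀) (hl : BP p D l)
    (hD : IsPGroup p D) (hab : D ≤ centralizer (D : Set G))
    (hT : ¬ p ∣ (centralizer (D : Set G)).relIndex (stabT D l))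
    (hreg : ∀ u ∈ D, u ∉ Z → RegT D l u) (hQ : CycQ D Z v q) (hvZ : v ∉ Z) {s m : ℕ}
    (hq : s * m + 1 = q) {e : ℤ} {χ : Fin m → {ψ : Irr G // ψ ∈ XZ red l Z}}
    {r : {ψ : Irr G // ψ ∈ XZ red l Z} → ℤ} (he1 : e = 1 ∨ e = -1) (hinj : Function.Injective χ)
    (hval : ∀ ψ, (∀ i, ψ ≠ χ i) → ∀ j : ZMod q, j ≠ 0 → An p D Φ ε v ψ.1 j = r ψ)
    (hrχ : ∀ i, r (χ i) = 0) (hsq : ∑ ψ, r ψ ^ 2 = s)
    (hsum : ∀ j : ZMod q, j ≠ 0 → (e : ℂ) * ∑ i, An p D Φ ε v (χ i).1 j = -1)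
    (hh : ∀ i, ∀ g : G, ¬ p ∣ orderOf g → (e : ℂ) * (χ i).1.1 g = ∑ ψ, (r ψ : ℂ) * ψ.1.1 g) :
    ∃ (χ' : Fin m → Irr G) (r' : Irr G → ℤ), Coh p red D l Φ ε Z s m e χ' r' := by
  have he : ((centralizer (D : Set G)).relIndex (stabT D l) : k) ≠ 0 := by
    rwa [Ne, CharP.cast_eq_zero_iff k p]
  let r' : Irr G → ℤ := fun ψ => if hψ : ψ ∈ XZ red l Z then r ⟨ψ, hψ⟩ else 0
  have hr' : ∀ ψ : {ψ : Irr G // ψ ∈ XZ red l Z}, r' ψ.1 = r ψ := fun ψ => dif_pos ψ.2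
  have hnot : ∀ (ψ : Irr G) (hψ : ψ ∈ XZ red l Z), (∀ i, ψ ≠ (χ i).1) →
      ∀ i, (⟨ψ, hψ⟩ : {ψ : Irr G // ψ ∈ XZ red l Z}) ≠ χ i :=
    fun ψ hψ hn i h1 => hn i (congrArg Subtype.val h1)
  have hsumF : ∀ F : Irr G → ℂ, ∑ ψ ∈ (XZ red l Z).filter (fun ψ => ∀ i, ψ ≠ (χ i).1),
      (r' ψ : ℂ) * F ψ = ∑ ψ : {ψ : Irr G // ψ ∈ XZ red l Z}, (r ψ : ℂ) * F ψ.1 := by
    intro F
    have h1 := sum_X (red := red) (l := l) (Z := Z) fun ψ => (r' ψ : ℂ) * F ψ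
    have h2 : ∀ ψ : {ψ : Irr G // ψ ∈ XZ red l Z}, (r' ψ.1 : ℂ) * F ψ.1 = (r ψ : ℂ) * F ψ.1 :=
      fun ψ => by rw [hr']
    rw [Finset.sum_congr rfl fun ψ _ => h2 ψ] at h1
    rw [h1]
    refine Finset.sum_subset (filter_subset _ _) fun ψ hψ hψ' => ?_
    have h3 : ∃ i, ψ = (χ i).1 := by
      by_contra hcon
      push Not at hcon
      exact hψ' (mem_filter.2 ⟨hψ, hcon⟩)
    obtain ⟨i, rfl⟩ := h3
    rw [hr' (χ i), hrχ i, Int.cast_zero, zero_mul]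
  have hpj : ∀ u ∈ D, u ∉ Z → hQ.pj u ≠ 0 := fun u hu huZ h0 => huZ ((hQ.pj_eq_zero hu).1 h0)
  refine ⟨fun i => (χ i).1, r', he1, fun i j hij => hinj (Subtype.ext hij), fun i => (χ i).2,
    ?_, ?_, ?_, ?_, ?_, ?_⟩
  · intro ψ hψ hn h0
    have h1 := hval ⟨ψ, hψ⟩ (hnot ψ hψ hn) (hQ.pj v) (hpj v hQ.mem hvZ)
    rw [← An_eq h hreg hQ hψ hQ.mem hvZ, ← hr' ⟨ψ, hψ⟩, h0, Int.cast_zero] at h1
    exact h.Ad_ne_zero hl hD hab he (hreg v hQ.mem hvZ) (fun h2 => hvZ (h2 ▸ one_mem Z)) ψ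
      (mem_XZ.1 hψ).1 (Subtype.ext h1)
  · intro ψ hψ hn u hu huZ
    apply Subtype.ext
    rw [An_eq h hreg hQ hψ hu huZ, hval ⟨ψ, hψ⟩ (hnot ψ hψ hn) _ (hpj u hu huZ), ← hr' ⟨ψ, hψ⟩]
    push_cast
    rfl
  · have h1 := hsumF fun ψ => (r' ψ : ℂ)
    have h2 : ∑ ψ : {ψ : Irr G // ψ ∈ XZ red l Z}, (r ψ : ℂ) * (r' ψ.1 : ℂ) =
        ((∑ ψ, r ψ ^ 2 : ℤ) : ℂ) := by
      push_cast
      refine Finset.sum_congr rfl fun ψ _ => ?_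
      rw [hr']; ring
    rw [h2, hsq] at h1
    have h3 : ((∑ ψ ∈ (XZ red l Z).filter (fun ψ => ∀ i, ψ ≠ (χ i).1), (r' ψ) ^ 2 : ℤ) : ℂ) =
        ((s : ℤ) : ℂ) := by
      rw [← h1]
      push_cast
      exact Finset.sum_congr rfl fun ψ _ => by ring
    exact_mod_cast h3
  · intro u hu huZ
    apply Subtype.ext
    have h1 := hsum (hQ.pj u) (hpj u hu huZ)
    push_cast
    rw [← h1]
    congr 1
    exact Finset.sum_congr rfl fun i _ => An_eq h hreg hQ (χ i).2 hu huZ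
  · rw [hq, hQ.card]
  · intro i g hg
    rw [hsumF fun ψ => ψ.1 g]
    exact hh i g hg

include hp in
/-- **integer coherence in the centraliser** -/
theorem exists_coh [IsAlgClosed k] (h : LocR p red D l Φ aH bH ε κ₀) (hl : BP p D l)
    (hD : IsPGroup p D) (hab : D ≤ centralizer (D : Set G)) (hp2 : p ≠ 2)
    (hT : ¬ p ∣ (centralizer (D : Set G)).relIndex (stabT D l))
    (hreg : ∀ u ∈ D, u ∉ Z → RegT D l u) [NeZero q] (hQ : CycQ D Z v q) {s m : ℕ}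
    (hs : (centralizer (D : Set G)).relIndex (stabT D l) = s) (hq : s * m + 1 = q)
    (hm : s + 2 ≤ m) (hm3 : 3 ≤ m) :
    ∃ (e : ℤ) (χ : Fin m → Irr G) (r : Irr G → ℤ), Coh p red D l Φ ε Z s m e χ r := by
  have hTN : stabT D l ≤ normalizer (D : Set G) := stabT_le_norm D l
  have hq2 : 2 ≤ q := by
    have h1 : 1 ≤ s := by
      rw [← hs]
      exact Nat.one_le_iff_ne_zero.2 Subgroup.index_ne_zero_of_finite
    have : 1 * 3 ≤ s * m := Nat.mul_le_mul h1 hm3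
    omega
  have hvZ : v ∉ Z := by
    intro hv
    have h1 : v ^ 1 ∈ Z := by rwa [pow_one]
    have h2 := Nat.dvd_one.1 ((hQ.ord 1).1 h1)
    omega
  have hreg' : ∀ u ∈ D, u ∉ Z → ∀ n ∈ stabT D l, n * u * n⁻¹ = u →
      n ∈ centralizer (D : Set G) := fun u hu huZ n hn hh => (hreg u hu huZ).2 n hn hh
  have hdeg : ∀ ψ : {ψ : Irr G // ψ ∈ XZ red l Z}, ∃ d : ℕ, 0 < d ∧ ψ.1.1 1 = d :=
    fun ψ => Irr.exists_deg ψ.1
  choose dg hdg0 hdg using hdeg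
  have horth : ∀ g : G, ¬ p ∣ orderOf g → ∀ j : ZMod q, j ≠ 0 →
      ∑ ψ : {ψ : Irr G // ψ ∈ XZ red l Z}, An p D Φ ε v ψ.1 j * ψ.1.1 g = 0 := by
    intro g hg j hj
    have h1 := P179H854.sum_XZ_reg h hl hD hQ.cen hQ.le hreg (pow_mem hQ.mem j.val) (hQ.vj hj) hg
    exact (sum_X fun ψ => (Ad p D Φ ε (v ^ j.val) ψ : ℂ) * ψ.1 g).trans h1
  have hp1 : ¬ p ∣ orderOf (1 : G) := by
    rw [orderOf_one]
    exact fun h1 => hp.out.one_lt.ne' (Nat.dvd_one.1 h1)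
  obtain ⟨Δ, hΔ⟩ : ∃ Δ : Subgroup (ZMod q)ˣ, Δ = (hQ.kap hTN).range := ⟨_, rfl⟩
  have hgram : ∀ i j : ZMod q, i ≠ 0 → j ≠ 0 → ∑ ψ : {ψ : Irr G // ψ ∈ XZ red l Z},
      An p D Φ ε v ψ.1 i * (starRingEnd ℂ) (An p D Φ ε v ψ.1 j) =
      if ∃ δ ∈ Δ, (δ : ZMod q) * i = j then (q : ℂ) else 0 := by
    intro i j hi hj
    have h1 := P179H854.sum_XZ_gram h hl hD hab hQ.cen hQ.le hreg (pow_mem hQ.mem i.val)
      (hQ.vj hi) (pow_mem hQ.mem j.val) (hQ.vj hj)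
    rw [ite_gram hD hT hreg hQ hi] at h1
    have h2 : ∑ ψ : {ψ : Irr G // ψ ∈ XZ red l Z},
        An p D Φ ε v ψ.1 i * (starRingEnd ℂ) (An p D Φ ε v ψ.1 j) =
        ∑ ψ ∈ XZ red l Z, (Ad p D Φ ε (v ^ i.val) ψ : ℂ) *
          (starRingEnd ℂ) (Ad p D Φ ε (v ^ j.val) ψ : ℂ) :=
      sum_X fun ψ => (Ad p D Φ ε (v ^ i.val) ψ : ℂ) *
        (starRingEnd ℂ) (Ad p D Φ ε (v ^ j.val) ψ : ℂ)
    by_cases hex : ∃ δ ∈ Δ, (δ : ZMod q) * i = j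
    · rw [if_pos hex, h2, h1, if_pos]
      rw [hΔ] at hex
      exact hex
    · rw [if_neg hex, h2, h1, if_neg]
      rw [hΔ] at hex
      exact hex
  have hint : ∀ (a : ZMod q) (ψ : {ψ : Irr G // ψ ∈ XZ red l Z}), ∃ n : ℤ,
      ∑ j ∈ univ.erase (0 : ZMod q), (EE (-(a * j)) - 1) * An p D Φ ε v ψ.1 j = q * n :=
    fun a ψ => An_int h hl hD hab hp2 hT hreg hQ ψ.2 a
  have hinv : ∀ (ψ : {ψ : Irr G // ψ ∈ XZ red l Z}), ∀ δ ∈ Δ, ∀ j : ZMod q,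
      An p D Φ ε v ψ.1 ((δ : ZMod q) * j) = An p D Φ ε v ψ.1 j := by
    intro ψ δ hδ j
    rw [hΔ] at hδ
    exact An_inv h hl hreg hQ ψ.2 hδ j
  have hg0 : ∀ ψ : {ψ : Irr G // ψ ∈ XZ red l Z}, (0 : ℝ) < (dg ψ : ℝ) :=
    fun ψ => by exact_mod_cast hdg0 ψ
  have hgA : ∀ j : ZMod q, j ≠ 0 → ∑ ψ : {ψ : Irr G // ψ ∈ XZ red l Z},
      An p D Φ ε v ψ.1 j * (((dg ψ : ℝ)) : ℂ) = 0 := by
    intro j hj
    have h1 := horth 1 hp1 j hj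
    simp only [hdg] at h1
    exact_mod_cast h1
  have hcr : Nat.card Δ = s := by
    rw [hΔ, hQ.card_range hD hTN hT hvZ hreg', hs]
  have hfr : ∀ δ ∈ Δ, ∀ a : ZMod q, a ≠ 0 → (δ : ZMod q) * a = a → δ = 1 := by
    rw [hΔ]
    exact hQ.free hD hTN hT hvZ hreg'
  obtain ⟨e, χ, r, he1, hinj, hval, hrχ, hsq, hsum, hh⟩ := fourier_coh
    (X := {ψ : Irr G // ψ ∈ XZ red l Z}) Δ hfr (s := s) (m := m) hcr hq hm hm3
    (fun ψ j => An p D Φ ε v ψ.1 j) hinv hgram hint (fun ψ => (dg ψ : ℝ)) hg0 hgA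
  have hh' : ∀ i, ∀ g : G, ¬ p ∣ orderOf g → (e : ℂ) * (χ i).1.1 g =
      ∑ ψ : {ψ : Irr G // ψ ∈ XZ red l Z}, (r ψ : ℂ) * ψ.1.1 g :=
    fun i g hg => hh (fun ψ => ψ.1.1 g) (horth g hg) i
  obtain ⟨χ', r', hc⟩ := coh_of h hl hD hab hT hreg hQ hvZ hq he1 hinj hval hrχ hsq hsum hh'
  exact ⟨e, χ', r', hc⟩

end

end P179H450
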