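import Vale.Agent.P179.R2.H450.KNa
import Vale.Agent.P179.R2.H450.Coh5
import Vale.Agent.P179.R2.H666.Kb5
import Vale.Agent.P179.R2.H452.N1

/-!
# The local data at an element which is not regular, `D ≅ C_(p^2) × C_(p^2)`
-/

namespace P179H450

open Subgroup Finset P179P P179C P179Y P179A P179H524 P179I P179H452 P179H12 P179H443 P179H854

open scoped Classical IsMulCommutative

universe u

section Basic

variable {p : ℕ} [hp : Fact p.Prime] {k : Type u} [Field k] [CharP k p] {red : AA →+* k}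
  {G : Type} [Group G] [Fintype G] {D : Subgroup G} {l : (G → k) → k} {Z : Subgroup G} {v : G}
  {q : ℕ}

/-- **a basis with the Gram matrix `q δ - m`**, for a block with a central subgroup `Z ≤ D`
with `D / Z` cyclic of order `q`, the elements of `D` outside `Z` being regular -/
theorem basic_of_cyc [IsAlgClosed k] (hl : BP p D l)
    (hD : IsPGroup p D) (hab : D ≤ centralizer (D : Set G)) (hp2 : p ≠ 2)
    (hT : ¬ p ∣ (centralizer (D : Set G)).relIndex (stabT D l))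
    (hreg : ∀ u ∈ D, u ∉ Z → RegT D l u) [NeZero q] (hQ : CycQ D Z v q) {s m : ℕ}
    (hs : (centralizer (D : Set G)).relIndex (stabT D l) = s) (hq : s * m + 1 = q)
    (hm : s + 2 ≤ m) (hm3 : 3 ≤ m) (hs0 : s ≠ 0) {B : MonoidAlgebra k G} (hB : IsBlock B)
    (hlz : ∀ z : G → k, IsCF z → l z = centralChar B (mkF z)) (hsl : s ≤ numSimpleIn B) :
    ∃ (ψ : Fin s → Irr G) (σ : Fin s → ℤ), (∀ i, σ i = 1 ∨ σ i = -1) ∧
      (∀ i, InL red l (ψ i).1) ∧ Function.Injective ψ ∧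
      (∀ θ : Irr G, InL red l θ.1 → ∃ n : Fin s → ℤ, ∀ x, ¬ p ∣ orderOf x →
        θ.1 x = ∑ i, (n i : ℂ) * ((σ i : ℂ) * (ψ i).1 x)) ∧
      (∀ i j, (Nat.card D : ℂ) * rsum p (fun x => ((σ i : ℂ) * (ψ i).1 x) *
        ((σ j : ℂ) * (ψ j).1 x⁻¹)) = Nat.card G * ((if i = j then (q : ℂ) else 0) - m)) := by
  obtain ⟨Φ, aH, bH, ε, κ₀, hL⟩ := exists_LocR (red := red) hl hD hab
  obtain ⟨e, χ, r, hc⟩ := exists_coh hL hl hD hab hp2 hT hreg hQ hs hq hm hm3
  obtain ⟨ψ, σ, h1, h2, h3, h4, h5⟩ := P179H666.exists_basic hL hl hD hab hQ.cen hQ.le hreg hc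
    hs0 hs hT hB hlz hsl
  refine ⟨ψ, σ, h1, fun i => (mem_XZ.1 (h2 i)).1, h3, h4, fun i j => ?_⟩
  rw [h5 i j, hq]

end Basic

section Num

/-- the number `m = (p ^ 2 - 1) / s` -/
theorem exists_m {p s : ℕ} (hp : p.Prime) (h2 : 2 ≤ s) (hdvd : s ∣ p - 1) :
    ∃ m : ℕ, s * m + 1 = p ^ 2 ∧ s + 2 ≤ m ∧ 3 ≤ m := by
  obtain ⟨c, hc⟩ := hdvd
  have hp1 := hp.two_le
  obtain ⟨r, rfl⟩ : ∃ r, p = r + 1 := ⟨p - 1, by omega⟩
  rw [Nat.add_sub_cancel] at hc
  have hc0 : 0 < c := by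
    rcases Nat.eq_zero_or_pos c with h | h
    · rw [h, mul_zero] at hc
      omega
    · exact h
  have hsr : s ≤ r := by
    rw [hc]
    exact Nat.le_mul_of_pos_right s hc0
  refine ⟨c * (r + 2), ?_, ?_, ?_⟩
  · have h1 : s * (c * (r + 2)) = r * (r + 2) := by
      rw [← mul_assoc, ← hc]
    rw [h1]
    ring
  · have h1 : r + 2 ≤ c * (r + 2) := Nat.le_mul_of_pos_left _ hc0
    omega
  · have h1 : r + 2 ≤ c * (r + 2) := Nat.le_mul_of_pos_left _ hc0
    omega

end Num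

section

variable {p : ℕ} [hp : Fact p.Prime] {k : Type u} [Field k] [IsAlgClosed k] [CharP k p]
  {G : Type} [Group G] [Fintype G] {D : Subgroup G} {l : (G → k) → k} {w t : G} {s : ℕ}

omit [Fintype G] in
/-- the elements of `⟨w⟩` inside a subgroup -/
theorem mem_zpowers_sub {H : Subgroup G} (hw : w ∈ H) (x : H) :
    x ∈ zpowers (⟨w, hw⟩ : H) ↔ (x : G) ∈ zpowers w := by
  constructor
  · intro h
    obtain ⟨i, hi⟩ := mem_zpowers_iff.1 h
    refine mem_zpowers_iff.2 ⟨i, ?_⟩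
    rw [← hi]
    rfl
  · intro h
    obtain ⟨i, hi⟩ := mem_zpowers_iff.1 h
    refine mem_zpowers_iff.2 ⟨i, Subtype.ext ?_⟩
    rw [← hi]
    rfl

omit [Fintype G] in
/-- the structure of `D` over `⟨w⟩`, inside a subgroup -/
theorem cycQ_sub {H : Subgroup G} {v : G} {q : ℕ} (hDH : D ≤ H) (hw : w ∈ D) (hv : v ∈ D)
    (hcen : ∀ x ∈ H, w * x = x * w) (hord : ∀ j : ℕ, v ^ j ∈ zpowers w ↔ q ∣ j)
    (hgen : ∀ u ∈ D, ∃ z ∈ zpowers w, ∃ j : ℕ, u = z * v ^ j) :
    CycQ (D.subgroupOf H) (zpowers (⟨w, hDH hw⟩ : H)) (⟨v, hDH hv⟩ : H) q where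
  le := by
    rw [zpowers_le]
    exact mem_subgroupOf.2 hw
  mem := mem_subgroupOf.2 hv
  cen := by
    intro z hz x
    obtain ⟨i, hi⟩ := mem_zpowers_iff.1 hz
    have h1 : Commute (⟨w, hDH hw⟩ : H) x := Subtype.ext (hcen x x.2)
    rw [← hi]
    exact (h1.zpow_left i)
  gen := by
    intro u hu
    obtain ⟨z, hz, j, hj⟩ := hgen (u : G) (mem_subgroupOf.1 hu)
    have hzD : z ∈ D := zpowers_le_of_mem hw hz
    refine ⟨⟨z, hDH hzD⟩, (mem_zpowers_sub (hDH hw) _).2 hz, j, Subtype.ext ?_⟩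
    rw [hj]
    rfl
  ord := by
    intro j
    rw [mem_zpowers_sub (hDH hw), ← hord j]
    rfl

/-- **the local data at `w`** -/
theorem exists_nDat (red : AA →+* k) (hl : BP p D l) (hD : IsPGroup p D)
    (hab : ∀ a ∈ D, ∀ b ∈ D, a * b = b * a) (hp2 : p ≠ 2)
    (hT : ¬ p ∣ (centralizer (D : Set G)).relIndex (stabT D l)) (hq : HomSq p D)
    (h : P179H443.SqData p D (stabT D l) w t s) :
    ∃ (m : ℕ) (ψ : Fin s → Irr (centralizer ({w} : Set G))) (σ : Fin s → ℤ),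
      NDat p red D l (centralizer ({w} : Set G)) ψ σ m 2 2 := by
  obtain ⟨b1, hb1, hlb1, hnb⟩ := exists_b1 red hl hD hab hT hq h
  have hDH := SqData.D_le hab h
  have hCH := SqData.C_le h
  have hmemH : ∀ g, g ∈ centralizer ({w} : Set G) ↔ g * w * g⁻¹ = w := fun g =>
    mem_cent_singleton
  have hidx := h.idx
  obtain ⟨m, hm1, hm2, hm3⟩ := exists_m hp.out h.two_le h.dvd
  obtain ⟨v, hv, hord, hgen⟩ := exists_v hab hq h.w_mem h.w_ne
  have hcen : ∀ x ∈ centralizer ({w} : Set G), w * x = x * w := fun x hx =>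
    mem_centralizer_iff.1 hx w rfl
  have hQ := cycQ_sub (H := centralizer ({w} : Set G)) hDH h.w_mem hv hcen hord hgen
  have : NeZero (p ^ 2) := ⟨pow_ne_zero _ hp.out.ne_zero⟩
  have hab' : D ≤ centralizer (D : Set G) := by
    intro x hx
    rw [mem_centralizer_iff]
    intro y hy
    exact hab y hy x hx
  have hs' : (centralizer ((D.subgroupOf (centralizer ({w} : Set G)) :
      Subgroup (centralizer ({w} : Set G))) : Set (centralizer ({w} : Set G)))).relIndex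
      (stabT (D.subgroupOf (centralizer ({w} : Set G))) (lres (centralizer ({w} : Set G)) l)) =
      s := (relIndex_stabT_lres hDH hCH).trans hidx
  have hT' : ¬ p ∣ (centralizer ((D.subgroupOf (centralizer ({w} : Set G)) :
      Subgroup (centralizer ({w} : Set G))) : Set (centralizer ({w} : Set G)))).relIndex
      (stabT (D.subgroupOf (centralizer ({w} : Set G))) (lres (centralizer ({w} : Set G)) l)) :=
    fun hd => hT (hd.trans (relIndex_stabT_lres_dvd hDH hCH))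
  have hreg : ∀ u ∈ D.subgroupOf (centralizer ({w} : Set G)),
      u ∉ zpowers (⟨w, hDH h.w_mem⟩ : centralizer ({w} : Set G)) →
      RegT (D.subgroupOf (centralizer ({w} : Set G))) (lres (centralizer ({w} : Set G)) l) u := by
    intro u hu huw
    refine ⟨hu, fun n hn hnu => (mem_cent_subgroupOf hDH n).2 ?_⟩
    exact h.reg (u : G) (mem_subgroupOf.1 hu) (fun hc => huw ((mem_zpowers_sub _ _).2 hc)) (n : G)
      ((mem_stabT_lres hDH hCH n).1 hn) ((hmemH _).1 n.2) (congrArg Subtype.val hnu)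
  have hcardD : Nat.card (D.subgroupOf (centralizer ({w} : Set G))) = Nat.card D :=
    Nat.card_congr (subgroupOfEquivOfLe hDH).toEquiv
  obtain ⟨ψ, σ, -, h2, -, h4, h5⟩ := basic_of_cyc (red := red) (hl.restrict hDH hCH)
    hD.comap_subtype (comm_subgroupOf hab' hDH) hp2 hT' hreg hQ hs' hm1 hm2 hm3
    (by have := h.two_le; omega) hb1 (Low.char hlb1) hnb.ge
  refine ⟨m, ψ, σ, ⟨?_, hm1, h2, h4, fun i j => ?_⟩⟩
  · rw [hq.card_D hab]
    ring
  · have h6 := h5 i j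
    rw [hcardD] at h6
    rw [h6]
    push_cast
    rfl

end

end P179H450
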