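import Vale.Agent.P179.R2.H450.Ab1

/-!
# The height-refined bound for abelian inertial quotients: the numbers
-/

namespace P179H450

open Subgroup P179H292 P179H92 P179H351

/-- the geometric sum of the height-refined bound -/
theorem sum_geom_le {p r c : ℕ} (hp : 2 ≤ p) : ∀ H : ℕ, (1 ≤ c ∨ H ≤ 1) →
    p ^ r + ∑ h ∈ Finset.Ico 1 (H + 1), p ^ (r + c * h) ≤ 2 * p ^ (r + c * H) := by
  intro H
  induction H with
  | zero =>
    intro _
    rw [Finset.Ico_self, Finset.sum_empty, mul_zero, add_zero, add_zero]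
    omega
  | succ H ih =>
    intro h
    rw [Finset.sum_Ico_succ_top (by omega), ← add_assoc]
    have h1 := ih (h.imp id fun h => by omega)
    rcases Nat.eq_zero_or_pos c with hc | hc
    · subst hc
      have hH : H = 0 := by omega
      subst hH
      simp only [zero_mul, add_zero] at h1 ⊢
      rw [Finset.Ico_self, Finset.sum_empty] at h1 ⊢
      omega
    · have h2 : 2 * p ^ (r + c * H) ≤ p ^ (r + c * (H + 1)) := by
        have e : r + c * (H + 1) = c + (r + c * H) := by ring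
        rw [e, pow_add p c]
        refine Nat.mul_le_mul_right _ ?_
        calc 2 ≤ p := hp
          _ = p ^ 1 := (pow_one p).symm
          _ ≤ p ^ c := Nat.pow_le_pow_right (by omega) hc
      omega

section

variable {G : Type*} [Group G] [Finite G] {D T : Subgroup G} {p : ℕ} [hp : Fact p.Prime]

omit hp in
theorem card_eq_Y (hab : ∀ a ∈ D, ∀ b ∈ D, a * b = b * a) {r : ℕ}
    (hr : Nat.card {x : G // x ∈ D ∧ x ^ p = 1} = p ^ r) (j : ℕ) :
    Nat.card D ≤ Nat.card {y : G // ∃ d ∈ D, d ^ p ^ j = y} * p ^ (r * j) := by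
  have h1 := card_eq_mul hab (p ^ j)
  have h2 := card_omS_le hab p j
  have h3 : Nat.card (omS hab p) = p ^ r := hr
  rw [h3, ← pow_mul] at h2
  rw [h1]
  exact Nat.mul_le_mul_left _ h2

/-- the number `a` with `p ^ (a + 1) = p ^ (1 + r + (r - 3) ⌊(r - 1) / 2⌋)` -/
theorem bound_sum (hab : ∀ a ∈ D, ∀ b ∈ D, a * b = b * a) {r a : ℕ} (hr3 : 3 ≤ r)
    (hr : Nat.card {x : G // x ∈ D ∧ x ^ p = 1} = p ^ r) (ha : a = r + (r - 3) * ((r - 1) / 2))
    {o : ℕ → ℕ} (ho : ∀ j, j ≤ a + 1 → o j = p ^ j) :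
    Nat.card D * p / (Nat.card {y : G // ∃ d ∈ D, d ^ p ^ 1 = y} * o 1) +
      ∑ h ∈ Finset.Ico 1 ((r - 1) / 2 + 1), Nat.card D * p /
        (p ^ (2 * h) * (Nat.card {y : G // ∃ d ∈ D, d ^ p ^ (h + 1) = y} * o (h + 1))) ≤
      p ^ (a + 1) := by
  have hp2 := hp.out.two_le
  have hH : (r - 1) / 2 ≤ r := (Nat.div_le_self _ _).trans (by omega)
  have hHa : (r - 1) / 2 ≤ a := hH.trans (by rw [ha]; exact Nat.le_add_right _ _)
  have h1 : Nat.card D * p / (Nat.card {y : G // ∃ d ∈ D, d ^ p ^ 1 = y} * o 1) ≤ p ^ r := by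
    rw [ho 1 (by omega)]
    refine Nat.div_le_of_le_mul ?_
    have h2 := card_eq_Y hab hr 1
    rw [mul_one] at h2
    calc Nat.card D * p ≤ Nat.card {y : G // ∃ d ∈ D, d ^ p ^ 1 = y} * p ^ r * p :=
          Nat.mul_le_mul_right _ h2
      _ = _ := by ring
  have h2 : ∀ h ∈ Finset.Ico 1 ((r - 1) / 2 + 1), Nat.card D * p /
      (p ^ (2 * h) * (Nat.card {y : G // ∃ d ∈ D, d ^ p ^ (h + 1) = y} * o (h + 1))) ≤
      p ^ (r + (r - 3) * h) := by
    intro h hh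
    rw [Finset.mem_Ico] at hh
    rw [ho (h + 1) (by omega)]
    refine Nat.div_le_of_le_mul ?_
    have h3 := card_eq_Y hab hr (h + 1)
    obtain ⟨s, rfl⟩ : ∃ s, r = s + 3 := ⟨r - 3, by omega⟩
    rw [Nat.add_sub_cancel]
    calc Nat.card D * p ≤
          Nat.card {y : G // ∃ d ∈ D, d ^ p ^ (h + 1) = y} * p ^ ((s + 3) * (h + 1)) * p :=
          Nat.mul_le_mul_right _ h3
      _ = _ := by ring
  have h3 := sum_geom_le (r := r) (c := r - 3) hp2 ((r - 1) / 2) (by omega)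
  have h4 : 2 * p ^ (r + (r - 3) * ((r - 1) / 2)) ≤ p ^ (a + 1) := by
    rw [ha, pow_succ']
    exact Nat.mul_le_mul_right _ hp2
  exact (Nat.add_le_add h1 (Finset.sum_le_sum h2)).trans (h3.trans h4)

/-- **(c)** the data of the height-refined bound for abelian `T / C_T(D)` -/
theorem hasRegSeq_ab (hD : IsPGroup p D) (hab : ∀ a ∈ D, ∀ b ∈ D, a * b = b * a)
    (hTN : T ≤ normalizer (D : Set G)) (hT : ¬ p ∣ (centralizer (D : Set G)).relIndex T)
    (hTab : ∀ s ∈ T, ∀ t ∈ T, s * t * s⁻¹ * t⁻¹ ∈ centralizer (D : Set G)) {r a : ℕ} (hr3 : 3 ≤ r)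
    (hr : Nat.card {x : G // x ∈ D ∧ x ^ p = 1} = p ^ r) (ha : a = r + (r - 3) * ((r - 1) / 2))
    (hex : ∃ x ∈ D, x ^ p ^ a ≠ 1) :
    ∃ (a j₀ J : ℕ) (o : ℕ → ℕ) (w : G), (∃ d ∈ D, d ^ p ^ a ≠ 1) ∧ j₀ ≤ J ∧ w ∈ D ∧
      (∀ j, j₀ ≤ j → ∀ i : ℕ, (∃ d ∈ D, w ^ i = d ^ p ^ j) → o j ∣ i) ∧
      (∀ n ∈ T, (∃ d ∈ D, n * w * n⁻¹ * w⁻¹ = d ^ p ^ j₀) → n ∈ centralizer (D : Set G)) ∧
      (centralizer (D : Set G)).relIndex T * Nat.card D < p ^ (2 * J) *
        Nat.card {u : G // u ∈ D ∧ ∀ n ∈ T, n * u * n⁻¹ = u → n ∈ centralizer (D : Set G)} ∧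
      Nat.card D * p / (Nat.card {y : G // ∃ d ∈ D, d ^ p ^ j₀ = y} * o j₀) +
        ∑ h ∈ Finset.Ico j₀ J, Nat.card D * p /
          (p ^ (2 * h) * (Nat.card {y : G // ∃ d ∈ D, d ^ p ^ (h + 1) = y} * o (h + 1))) ≤
        p ^ (a + 1) ∧
      (centralizer (D : Set G)).relIndex T ≤ p ^ (a + 1) := by
  have hp2 := hp.out.two_le
  have hra : r ≤ a := by rw [ha]; exact Nat.le_add_right _ _
  obtain ⟨w, hw, hreg, hord⟩ := exists_regAb' hD hab hTN hT hTab hex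
  have hx : ∃ x ∈ D, x ^ p ≠ 1 := by
    obtain ⟨x, hx, hxa⟩ := hex
    refine ⟨x, hx, fun h => hxa ?_⟩
    obtain ⟨c, hc⟩ : ∃ c, a = c + 1 := ⟨a - 1, by omega⟩
    rw [hc, pow_succ', pow_mul, h, one_pow]
  refine ⟨a, 1, (r - 1) / 2 + 1, fun j => p ^ min j (a + 1), w, hex, by omega, hw, ?_, ?_, ?_,
    bound_sum hab hr3 hr ha (o := fun j => p ^ min j (a + 1))
      (fun j hj => by simp only [min_eq_left hj]), ?_⟩
  · rintro j - i ⟨d, hd, e⟩
    change p ^ min j (a + 1) ∣ i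
    rcases le_total j (a + 1) with hj | hj
    · rw [min_eq_left hj]
      exact hord j hj i ⟨d, hd, e⟩
    · rw [min_eq_right hj]
      refine hord (a + 1) le_rfl i ⟨d ^ p ^ (j - (a + 1)), pow_mem hd _, ?_⟩
      rw [e, ← pow_mul, ← pow_add, Nat.sub_add_cancel hj]
  · rintro n hn ⟨d, hd, e⟩
    rw [pow_one] at e
    exact hreg n hn ⟨d, hd, e⟩
  · refine (relIndex_mul_lt hD hab hTN hT hTab hr hx).trans_le (Nat.mul_le_mul_right _ ?_)
    exact Nat.pow_le_pow_right (by omega) (by omega)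
  · exact (relIndex_le hab hTN hr hw hreg).trans (Nat.pow_le_pow_right (by omega) (by omega))

end

end P179H450
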