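import Vale.Agent.P179.R2.H351.Ind4
import Vale.Agent.P179.R2.H443.EqwDef

/-!
# The congruence relative to the direct factors of small exponent
-/

namespace P179H450

open Subgroup P179H524 P179R P179Y MonoidAlgebra P179H292 P179H351

open P179B (inertialIndex inertialGroup regularElements)

open scoped Classical

universe u

/-- the congruence modulo `p ^ (a + 1)` relative to the subgroups `[F, D]`, `F ≤ T` centralising a
subgroup `M ≥ D ^ (p ^ a)` of `D` -/
def DvdStmt (p : ℕ) (k : Type u) [Field k] (red : integralClosure ℤ ℂ →+* k) : Prop :=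
  ∀ (a : ℕ) (G : Type) [Group G] [Finite G] (B : MonoidAlgebra k G) (D : Subgroup G)
    (β : MonoidAlgebra k (centralizer (D : Set G))), P179B.IsBlock B →
    P179B.IsDefectGroup B D → (∀ x ∈ D, ∀ y ∈ D, x * y = y * x) → P179B.IsBlock β →
    P179B.InducesTo β B → (∃ d ∈ D, d ^ p ^ a ≠ 1) →
    (∀ F ≤ inertialGroup D β, centralizer (D : Set G) ≤ F → ∀ M ≤ D, M ≠ ⊥ →
      (∀ d ∈ D, d ^ p ^ a ∈ M) → F ≤ centralizer (M : Set G) →
      ¬ F ≤ centralizer (D : Set G) → EqFor p red (⁅F, D⁆ : Subgroup G)) →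
    (p : ℤ) ^ (a + 1) ∣ (P179B.numSimpleIn B : ℤ) - P179B.numWeightsIn p red B

theorem comm_eq_focal {G : Type*} [Group G] (D F : Subgroup G) : ⁅F, D⁆ = focal D F := by
  rw [focal, Subgroup.commutator_def]
  congr 1
  ext x
  constructor
  · rintro ⟨t, ht, d, hd, rfl⟩
    exact ⟨t, ht, d, hd, rfl⟩
  · rintro ⟨t, ht, d, hd, rfl⟩
    exact ⟨t, ht, d, hd, rfl⟩

/-- `[F, D]` has exponent at most `q` if `F` centralises the `q`-th powers of `D` -/
theorem focal_pow {G : Type*} [Group G] {D F : Subgroup G}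
    (hab : ∀ x ∈ D, ∀ y ∈ D, x * y = y * x) (hTD : ∀ t ∈ F, ∀ d ∈ D, t * d * t⁻¹ ∈ D) {q : ℕ}
    (hF : ∀ t ∈ F, ∀ d ∈ D, t * d ^ q * t⁻¹ = d ^ q) : ∀ x ∈ focal D F, x ^ q = 1 := by
  intro x hx
  have hle := focal_le hTD
  unfold focal at hx
  induction hx using closure_induction with
  | mem x hx =>
    obtain ⟨t, ht, d, hd, rfl⟩ := hx
    have h1 : Commute (t * d * t⁻¹) d⁻¹ := hab _ (hTD t ht d hd) _ (inv_mem hd)
    rw [h1.mul_pow, conj_pow, hF t ht d hd, inv_pow, mul_inv_cancel]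
  | one => exact one_pow _
  | mul x y hx hy hx1 hy1 =>
    have h1 : Commute x y := hab _ (hle hx) _ (hle hy)
    rw [h1.mul_pow, hx1, hy1, one_mul]
  | inv x hx hx1 => rw [inv_pow, hx1, inv_one]

theorem relIndex_dvd' {G : Type*} [Group G] [Finite G] {D T F : Subgroup G}
    (hTN : T ≤ normalizer (D : Set G)) (hFT : F ≤ T) :
    (centralizer (D : Set G)).relIndex F ∣ (centralizer (D : Set G)).relIndex T := by
  have hn : ((centralizer (D : Set G)).subgroupOf T).Normal := by
    refine ⟨fun c hc n => ?_⟩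
    rw [mem_subgroupOf] at hc ⊢
    exact P179B.conj_mem_centralizer_of_mem_normalizer (hTN n.2) hc
  have h1 : ((centralizer (D : Set G)).subgroupOf T).relIndex (F.subgroupOf T) ∣
      ((centralizer (D : Set G)).subgroupOf T).index := Subgroup.relIndex_dvd_index_of_normal _ _
  rwa [relIndex_subgroupOf hFT] at h1

section

variable {p : ℕ} [hp : Fact p.Prime] {k : Type u} [Field k] [IsAlgClosed k] [CharP k p]
  (red : integralClosure ℤ ℂ →+* k)

/-- **(W7)** -/
theorem w7Stmt (h : DvdStmt p k red) : W7Stmt p k red := by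
  intro G _ _ B D β a hB hD hab hβ hβB hex hfac
  have hDp : IsPGroup p D := isPGroup_of_defect (p := p) hB hD
  obtain ⟨-, hnd⟩ := numWeights_le red hB hD hab hβ hβB
  have hTN : inertialGroup D β ≤ normalizer (D : Set G) := fun n hn => hn.1
  refine h a G B D β hB hD hab hβ hβB hex fun F hFT hCF M hMD hM1 hMa hFM hFC => ?_
  have hFD : ∀ t ∈ F, ∀ d ∈ D, t * d * t⁻¹ ∈ D := fun t ht d hd =>
    (mem_normalizer_iff.1 (hTN (hFT ht)) d).1 hd
  have hi : ¬ p ∣ (centralizer (D : Set G)).relIndex F := fun hh =>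
    hnd (hh.trans (relIndex_dvd' hTN hFT))
  obtain ⟨h1, h2⟩ := fitting hDp hab hFD hi
  rw [comm_eq_focal]
  refine hfac (focal D F) ⟨focal_le hFD, fixD D F, inf_le_left, h1, h2⟩ ?_
  refine focal_pow hab hFD fun t ht d hd => ?_
  have h3 := mem_centralizer_iff.1 (hFM ht) _ (hMa d hd)
  rw [← h3, mul_inv_cancel_right]

end

end P179H450
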