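import Vale.Agent.P179.R2.H351.Ind9
import Vale.Agent.P179.R2.H351.Ind5
import Vale.Agent.P179.R2.H450.W7
import Vale.Agent.P179.R2.H450.Ab2
import Vale.Agent.P179.R2.H666.Upto
import Vale.Agent.P179.R2.H12.RegH
import Vale.Agent.P179.R2.H450.GrowDef

/-!
# The class of the groups with growing cyclic factors, with abelian groups of automorphisms
-/

namespace P179H450

open Subgroup P179H524 P179R P179Y MonoidAlgebra P179H292 P179H351 P179H666

open P179B (inertialIndex inertialGroup regularElements hyperfocal GrowBy facA facB)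

open P179H12 (HasRegCosetH)

open scoped Classical

universe u

section Grow

variable {G X : Type*} [Group G] [Group X] {n : ℕ → ℕ}

/-- isomorphic groups -/
theorem growBy_equiv {K : Subgroup G} {D : Subgroup X} (e : K ≃* D) {p : ℕ}
    (h : GrowBy n p K) : GrowBy n p D := by
  intro i hi
  rw [← card_equiv e p, ← card_omP_equiv e p]
  exact h i hi

/-- direct factors -/
theorem growBy_factor [Finite G] {D K : Subgroup G} (hab : ∀ a ∈ D, ∀ b ∈ D, a * b = b * a)
    {p : ℕ} (hD : GrowBy n p D) (h : IsFactor D K) : GrowBy n p K := by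
  obtain ⟨C, hC⟩ := dec_of_isFactor h
  intro i hi
  have h1 := hD i hi
  rw [card_omP_swap] at h1 ⊢
  exact hC.small hab h1

/-- the largest cyclic factor -/
theorem exists_pow_of_growBy [Finite G] {D : Subgroup G} {p : ℕ} [hp : Fact p.Prime] {r : ℕ}
    (hr1 : 1 ≤ r) (hr : Nat.card {x : G // x ∈ D ∧ x ^ p = 1} = p ^ r) (h : GrowBy n p D) :
    ∃ x ∈ D, x ^ p ^ (n r - 1) ≠ 1 := by
  by_contra hcon
  push Not at hcon
  have h1 := h r hr1
  rw [hr, omP_eq_one hcon, mul_one] at h1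
  have h2 : p ^ (r - 1) < p ^ r := Nat.pow_lt_pow_right hp.out.one_lt (by omega)
  omega

theorem rankTwo_of_growBy [Finite G] {D : Subgroup G} {p : ℕ} [hp : Fact p.Prime]
    (hn2 : 2 ≤ n 2) (hr : Nat.card {x : G // x ∈ D ∧ x ^ p = 1} = p ^ 2) (h : GrowBy n p D) :
    P179B.RankTwoNotElem p D := by
  refine ⟨hr, Or.inr ?_⟩
  obtain ⟨x, hx, hx1⟩ := exists_pow_of_growBy (by omega) hr h
  refine ⟨x, hx, fun h1 => hx1 ?_⟩
  obtain ⟨c, hc⟩ : ∃ c, n 2 - 1 = c + 1 := ⟨n 2 - 2, by omega⟩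
  rw [hc, pow_succ', pow_mul, h1, one_pow]

end Grow

/-- `T` normalises `D` and induces an abelian group of automorphisms on `D` -/
def ActAb {X : Type*} [Group X] (D T : Subgroup X) : Prop :=
  T ≤ normalizer (D : Set X) ∧ ∀ s ∈ T, ∀ t ∈ T, s * t * s⁻¹ * t⁻¹ ∈ centralizer (D : Set X)

theorem ActAb.mono {X : Type*} [Group X] {D T K T' : Subgroup X} (h : ActAb D T) (hK : K ≤ D)
    (hT : T' ≤ T) (hN : T' ≤ normalizer (K : Set X)) : ActAb K T' :=
  ⟨hN, fun s hs t ht => centralizer_le (fun _ hx => hK hx) (h.2 s (hT hs) t (hT ht))⟩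

theorem ActAb.act {X Y : Type*} [Group X] [Group Y] {K T : Subgroup X} {D' T' : Subgroup Y}
    (h : ActSub K T D' T') (hK : ActAb K T) : ActAb D' T' := by
  obtain ⟨e, he⟩ := h
  obtain ⟨hN, hab⟩ := hK
  -- the action of `t'` on `D'`
  have key : ∀ t' ∈ T', ∃ t ∈ T, ∀ x : K, ∃ y : K, (y : X) = t * x * t⁻¹ ∧
      (e y : Y) = t' * (e x : Y) * t'⁻¹ := by
    intro t' ht'
    obtain ⟨t, ht, h1⟩ := he t' ht'
    refine ⟨t, ht, fun x => ?_⟩
    have hy : (t : X) * x * t⁻¹ ∈ K := (mem_normalizer_iff.1 (hN ht) x).1 x.2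
    exact ⟨⟨t * x * t⁻¹, hy⟩, rfl, h1 x ⟨t * x * t⁻¹, hy⟩ rfl⟩
  have hconj : ∀ t' ∈ T', ∀ d ∈ D', t' * d * t'⁻¹ ∈ D' := by
    intro t' ht' d hd
    obtain ⟨t, ht, h1⟩ := key t' ht'
    obtain ⟨y, -, h2⟩ := h1 (e.symm ⟨d, hd⟩)
    rw [e.apply_symm_apply] at h2
    rw [← h2]
    exact (e y).2
  have hN' : T' ≤ normalizer (D' : Set Y) := by
    intro t ht
    rw [mem_normalizer_iff]
    intro x
    refine ⟨fun hx => hconj t ht x hx, fun hx => ?_⟩
    have h1 := hconj t⁻¹ (inv_mem ht) _ hx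
    have e : t⁻¹ * (t * x * t⁻¹) * t⁻¹⁻¹ = x := by group
    rwa [e] at h1
  refine ⟨hN', fun s' hs' t' ht' => ?_⟩
  obtain ⟨s, hs, hsx⟩ := key s' hs'
  obtain ⟨t, ht, htx⟩ := key t' ht'
  -- `s' t'` and `t' s'` act in the same way
  have hsame : ∀ d ∈ D', (s' * t') * d * (s' * t')⁻¹ = (t' * s') * d * (t' * s')⁻¹ := by
    intro d hd
    set x := e.symm ⟨d, hd⟩ with hx
    have hxd : (e x : Y) = d := by rw [hx, e.apply_symm_apply]
    obtain ⟨y, hy, hy'⟩ := htx x
    obtain ⟨z, hz, hz'⟩ := hsx y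
    obtain ⟨y2, hy2, hy2'⟩ := hsx x
    obtain ⟨z2, hz2, hz2'⟩ := htx y2
    have h1 : z = z2 := by
      apply Subtype.ext
      have hc := mem_centralizer_iff.1 (hab s hs t ht) z2 z2.2
      rw [hz, hy]
      rw [hz2, hy2] at hc ⊢
      calc s * (t * x * t⁻¹) * s⁻¹ =
            (s * t * s⁻¹ * t⁻¹) * (t * (s * x * s⁻¹) * t⁻¹) * (s * t * s⁻¹ * t⁻¹)⁻¹ := by group
        _ = _ := by rw [← hc]; group
    have e1 : (s' * t') * d * (s' * t')⁻¹ = (e z : Y) := by
      rw [hz', hy', hxd]; group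
    have e2 : (t' * s') * d * (t' * s')⁻¹ = (e z2 : Y) := by
      rw [hz2', hy2', hxd]; group
    rw [e1, e2, h1]
  rw [mem_centralizer_iff]
  intro d hd
  have hd' : (t' * s')⁻¹ * d * (t' * s') ∈ D' := by
    have h1 := (mem_normalizer_iff.1 (hN' (inv_mem (mul_mem ht' hs'))) d).1 hd
    rwa [inv_inv] at h1
  have h2 := hsame _ hd'
  have h3 : (t' * s') * ((t' * s')⁻¹ * d * (t' * s')) * (t' * s')⁻¹ = d := by group
  rw [h3] at h2
  have h4 : (s' * t' * s'⁻¹ * t'⁻¹) * d * (s' * t' * s'⁻¹ * t'⁻¹)⁻¹ = d := by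
    rw [← h2]
    simp only [h2]
    calc _ = (s' * t') * ((t' * s')⁻¹ * d * (t' * s')) * (s' * t')⁻¹ := by group
      _ = d := h2
  calc d * (s' * t' * s'⁻¹ * t'⁻¹) =
        ((s' * t' * s'⁻¹ * t'⁻¹) * d * (s' * t' * s'⁻¹ * t'⁻¹)⁻¹) * (s' * t' * s'⁻¹ * t'⁻¹) := by
        rw [h4]
    _ = (s' * t' * s'⁻¹ * t'⁻¹) * d := by group

/-- `D` has growing cyclic factors with respect to `nA`, or `T` induces an abelian group of
automorphisms on `D` and `D` has growing cyclic factors with respect to `nB` -/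
def ClGen (nA nB : ℕ → ℕ) (p : ℕ) {X : Type*} [Group X] (D T : Subgroup X) : Prop :=
  GrowBy nA p D ∨ (ActAb D T ∧ GrowBy nB p D)

/-- the data of the height-refined bound, for all inertial groups -/
def RegHAll (n : ℕ → ℕ) (p : ℕ) : Prop :=
  ∀ (X : Type) [Group X] [Finite X] (D T : Subgroup X) (r : ℕ), GrowBy n p D →
    (∀ x ∈ D, ∀ y ∈ D, x * y = y * x) → IsPGroup p D → T ≤ normalizer (D : Set X) →
    ¬ p ∣ (centralizer (D : Set X)).relIndex T →
    Nat.card {x : X // x ∈ D ∧ x ^ p = 1} = p ^ r → 3 ≤ r → HasRegCosetH p D T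

/-- `[F, D]` is a direct factor of `D` -/
theorem isFactor_comm {G : Type*} [Group G] [Finite G] {p : ℕ} [hp : Fact p.Prime]
    {D T F : Subgroup G} (hD : IsPGroup p D) (hab : ∀ a ∈ D, ∀ b ∈ D, a * b = b * a)
    (hTN : T ≤ normalizer (D : Set G)) (hT : ¬ p ∣ (centralizer (D : Set G)).relIndex T)
    (hFT : F ≤ T) : IsFactor D (⁅F, D⁆ : Subgroup G) := by
  have hFD : ∀ t ∈ F, ∀ d ∈ D, t * d * t⁻¹ ∈ D := fun t ht d hd =>
    (mem_normalizer_iff.1 (hTN (hFT ht)) d).1 hd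
  have hi : ¬ p ∣ (centralizer (D : Set G)).relIndex F := fun hh =>
    hT (hh.trans (relIndex_dvd' hTN hFT))
  obtain ⟨h1, h2⟩ := fitting hD hab hFD hi
  rw [comm_eq_focal]
  exact ⟨focal_le hFD, fixD D F, inf_le_left, h1, h2⟩

section

variable {p : ℕ} [hp : Fact p.Prime] {k : Type u} [Field k] [IsAlgClosed k] [CharP k p]
  (red : integralClosure ℤ ℂ →+* k)

/-- **the class satisfies the hypotheses of the induction** -/
theorem solvClassN_gen (hp2 : p ≠ 2) {nA nB : ℕ → ℕ} (hA2 : 2 ≤ nA 2) (hB2 : 2 ≤ nB 2)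
    (hB : ∀ r, 3 ≤ r → r + (r - 3) * ((r - 1) / 2) + 1 ≤ nB r) (hA : RegHAll nA p) :
    SolvClassN p red (fun (X : Type) [Group X] (D T : Subgroup X) => ClGen nA nB p D T) := by
  constructor
  · rintro X Y _ _ K T D' T' h (hK | ⟨hK1, hK2⟩)
    · obtain ⟨e, -⟩ := h
      exact Or.inl (growBy_equiv e hK)
    · refine Or.inr ⟨hK1.act h, ?_⟩
      obtain ⟨e, -⟩ := h
      exact growBy_equiv e hK2
  · intro X _ _ D T h hab hD hTN hCT hT
    obtain ⟨r, hr⟩ := exists_rank hab hD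
    have hEq : EqFor p red D → EqForAct p red D T := fun h Y _ _ B D' β hB hD' _ _ _ hact =>
      h Y B D' hB hD' ⟨hact.choose⟩
    rcases Nat.lt_or_ge r 3 with h3 | h3
    · left
      rcases Nat.lt_or_ge r 2 with h2 | h2
      · exact hEq (eqFor_largeRank red hp2 hab (largeRank_of_le_one (by omega) hr))
      · have h4 : r = 2 := by omega
        subst h4
        have h5 : P179B.RankTwoNotElem p D := by
          rcases h with h | ⟨-, h⟩
          · exact rankTwo_of_growBy hA2 hr h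
          · exact rankTwo_of_growBy hB2 hr h
        exact hEq (eqFor_rankTwo red (P179H443.bdSq red hp2) hp2 hab h5)
    · right
      have hreg : HasRegCosetH p D T := by
        rcases h with h | ⟨hact, h⟩
        · exact hA X D T r h hab hD hTN hT hr h3
        · obtain ⟨x, hx, hx1⟩ := exists_pow_of_growBy (by omega) hr h
          refine hasRegSeq_ab hD hab hTN hT hact.2 h3 hr rfl ⟨x, hx, fun h1 => hx1 ?_⟩
          obtain ⟨c, hc⟩ := Nat.exists_eq_add_of_le (hB r h3)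
          have e : nB r - 1 = r + (r - 3) * ((r - 1) / 2) + c := by omega
          rw [e, pow_add, pow_mul, h1, one_pow]
      obtain ⟨a, j₀, J, o, w, hex, hjJ, hw, ho, hrg, hii, hcd, he⟩ := hreg
      refine ⟨a, hex, he, boundHere_of_regH (P179H12.m7hStmt red hp2) hab hjJ hw ho hrg hii hcd, ?_⟩
      intro F hFT hCF M hMD hM1 hMa hFM hFC
      have hfac := isFactor_comm hD hab hTN hT hFT
      rcases h with h | ⟨hact, h⟩
      · exact Or.inl (growBy_factor hab h hfac)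
      · exact Or.inr ⟨hact.mono hfac.1 inf_le_left inf_le_right, growBy_factor hab h hfac⟩

end

end P179H450
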