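import Vale.Agent.P179.R2.H450.Ab2
import Vale.Agent.P179.R2.H450.GrowDef

/-!
# The height-refined bound for arbitrary inertial quotients: the numbers
-/

namespace P179H450

open Subgroup P179H292 P179H92 P179H351

open P179B (facB)

theorem facB_eq {r : ℕ} (hr3 : 3 ≤ r) :
    facB r = 1 + max (1 + (r - 1) ^ 2) (3 + (r - 3) * ((r * (r + 1) + 3) / 4)) := by
  rw [facB, if_neg (by omega)]

/-- the level of the condition on the index is at least `r - 1` and at most `facB r` -/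
theorem level_le {r : ℕ} (hr3 : 3 ≤ r) :
    r - 1 ≤ (r * (r + 1) + 3) / 4 ∧ (r * (r + 1) + 3) / 4 ≤ facB r := by
  obtain ⟨s, rfl⟩ : ∃ s, r = s + 3 := ⟨r - 3, by omega⟩
  rw [facB_eq hr3]
  constructor
  · rw [Nat.le_div_iff_mul_le (by norm_num)]
    have : s + 3 - 1 = s + 2 := rfl
    rw [this]
    nlinarith
  · have h1 : ((s + 3) * (s + 3 + 1) + 3) / 4 ≤ 1 + (1 + (s + 3 - 1) ^ 2) := by
      have : s + 3 - 1 = s + 2 := rfl
      rw [this]
      refine Nat.div_le_of_le_mul ?_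
      nlinarith
    exact h1.trans (Nat.add_le_add_left (le_max_left _ _) 1)

/-- the two terms of the bound -/
theorem sum_leB {p r : ℕ} (hp : 2 < p) (hr3 : 3 ≤ r) :
    p ^ (1 + (r - 1) ^ 2) + ∑ h ∈ Finset.Ico (r - 1) ((r * (r + 1) + 3) / 4),
      p ^ (r + (r - 3) * h) ≤ p ^ facB r := by
  set J := (r * (r + 1) + 3) / 4 with hJ
  set A := 1 + (r - 1) ^ 2 with hA
  set C := 3 + (r - 3) * J with hC
  have hJr := (level_le hr3).1
  have h1 : ∑ h ∈ Finset.Ico (r - 1) J, p ^ (r + (r - 3) * h) ≤ 2 * p ^ C := by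
    rcases Nat.eq_zero_or_pos (r - 3) with h0 | h0
    · have hr : r = 3 := by omega
      subst hr
      have hJ3 : J = 3 := rfl
      rw [hC, hJ3]
      simp
      omega
    · obtain ⟨H, hH⟩ : ∃ H, J = H + 1 := ⟨J - 1, by omega⟩
      have h2 := sum_geom_le (r := r) (c := r - 3) (p := p) (by omega) H (Or.inl h0)
      have h3 : ∑ h ∈ Finset.Ico (r - 1) J, p ^ (r + (r - 3) * h) ≤
          ∑ h ∈ Finset.Ico 1 (H + 1), p ^ (r + (r - 3) * h) := by
        refine Finset.sum_le_sum_of_subset ?_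
        rw [hH]
        exact Finset.Ico_subset_Ico_left (by omega)
      have h4 : r + (r - 3) * H = C := by
        rw [hC, hH]
        obtain ⟨s, rfl⟩ : ∃ s, r = s + 3 := ⟨r - 3, by omega⟩
        rw [Nat.add_sub_cancel]
        ring
      rw [h4] at h2
      omega
  have h5 : p ^ A ≤ p ^ max A C := Nat.pow_le_pow_right (by omega) (le_max_left _ _)
  have h6 : p ^ C ≤ p ^ max A C := Nat.pow_le_pow_right (by omega) (le_max_right _ _)
  rw [facB_eq hr3, ← hA, ← hJ, ← hC, add_comm 1, pow_succ]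
  calc p ^ A + ∑ h ∈ Finset.Ico (r - 1) J, p ^ (r + (r - 3) * h) ≤ p ^ max A C * 3 := by omega
    _ ≤ p ^ max A C * p := Nat.mul_le_mul_left _ hp

section

variable {G : Type*} [Group G] [Finite G] {D : Subgroup G} {p : ℕ}

/-- **the bound for arbitrary inertial quotients**: `j₀ = r - 1` and `J = ⌈r (r + 1) / 4⌉` -/
theorem bound_sumB (hp2 : 2 < p) (hab : ∀ a ∈ D, ∀ b ∈ D, a * b = b * a) {r : ℕ} (hr3 : 3 ≤ r)
    (hr : Nat.card {x : G // x ∈ D ∧ x ^ p = 1} = p ^ r) {o : ℕ → ℕ}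
    (ho : ∀ j, j ≤ facB r → o j = p ^ j) :
    Nat.card D * p / (Nat.card {y : G // ∃ d ∈ D, d ^ p ^ (r - 1) = y} * o (r - 1)) +
      ∑ h ∈ Finset.Ico (r - 1) ((r * (r + 1) + 3) / 4), Nat.card D * p /
        (p ^ (2 * h) * (Nat.card {y : G // ∃ d ∈ D, d ^ p ^ (h + 1) = y} * o (h + 1))) ≤
      p ^ facB r := by
  obtain ⟨hJ1, hJ2⟩ := level_le hr3
  refine (Nat.add_le_add ?_ (Finset.sum_le_sum fun h hh => ?_)).trans (sum_leB hp2 hr3)
  · rw [ho (r - 1) (hJ1.trans hJ2)]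
    refine Nat.div_le_of_le_mul ?_
    have h2 := card_eq_Y hab hr (r - 1)
    obtain ⟨s, rfl⟩ : ∃ s, r = s + 1 := ⟨r - 1, by omega⟩
    rw [Nat.add_sub_cancel] at h2 ⊢
    calc Nat.card D * p ≤
          Nat.card {y : G // ∃ d ∈ D, d ^ p ^ s = y} * p ^ ((s + 1) * s) * p :=
          Nat.mul_le_mul_right _ h2
      _ = _ := by ring
  · rw [Finset.mem_Ico] at hh
    rw [ho (h + 1) (by omega)]
    refine Nat.div_le_of_le_mul ?_
    have h3 := card_eq_Y hab hr (h + 1)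
    obtain ⟨s, rfl⟩ : ∃ s, r = s + 3 := ⟨r - 3, by omega⟩
    rw [Nat.add_sub_cancel]
    calc Nat.card D * p ≤
          Nat.card {y : G // ∃ d ∈ D, d ^ p ^ (h + 1) = y} * p ^ ((s + 3) * (h + 1)) * p :=
          Nat.mul_le_mul_right _ h3
      _ = _ := by ring

end

/-- the index is at most `p ^ facB r` -/
theorem half_le_facB {r : ℕ} (hr3 : 3 ≤ r) : r * (r + 1) ≤ 2 * facB r := by
  rw [facB_eq hr3]
  obtain ⟨s, rfl⟩ : ∃ s, r = s + 3 := ⟨r - 3, by omega⟩
  have : s + 3 - 1 = s + 2 := rfl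
  rw [this]
  have h1 := le_max_left (1 + (s + 2) ^ 2) (3 + (s + 3 - 3) * (((s + 3) * (s + 3 + 1) + 3) / 4))
  nlinarith

end P179H450
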