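import Vale.Agent.P179.R2.H450.Ab4
import Vale.Agent.P179.R2.H450.NumB
import Vale.Agent.P179.R2.H12.Reg1
import Vale.Agent.P179.R2.H46.RegB3

/-!
# The data of the height-refined bound for the thresholds `facB`
-/

namespace P179H450

open Subgroup P179H292 P179H92 P179H351 P179H666

open P179B (GrowBy facB)

open P179H12 (HasRegCosetH exists_fix stC)

section Full

variable {G : Type*} [Group G] [Finite G] {D T : Subgroup G} {p : ℕ} [hp : Fact p.Prime]

/-- **full order**, for regular cosets of the `p ^ j`-th powers -/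
theorem exists_full_gen (hD : IsPGroup p D) (hab : ∀ a ∈ D, ∀ b ∈ D, a * b = b * a)
    (hTN : T ≤ normalizer (D : Set G)) (hT : ¬ p ∣ (centralizer (D : Set G)).relIndex T)
    {m j : ℕ} (hj : 1 ≤ j)
    (hexp : ∀ x ∈ D, x ^ p ^ (m + 1) = 1) (hm : ∃ x ∈ D, x ^ p ^ m ≠ 1) {w : G} (hw : w ∈ D)
    (hreg : ∀ n ∈ T, (∃ d ∈ D, n * w * n⁻¹ * w⁻¹ = d ^ p ^ j) → n ∈ centralizer (D : Set G)) :
    ∃ w' ∈ D, w' ^ p ^ m ≠ 1 ∧
      ∀ n ∈ T, (∃ d ∈ D, n * w' * n⁻¹ * w'⁻¹ = d ^ p ^ j) → n ∈ centralizer (D : Set G) := by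
  by_cases hwm : w ^ p ^ m = 1
  swap
  · exact ⟨w, hw, hwm, hreg⟩
  obtain ⟨x, hx, hxm⟩ := hm
  have hTD : ∀ t ∈ T, ∀ d ∈ D, t * d * t⁻¹ ∈ D := fun t ht d hd =>
    (mem_normalizer_iff.1 (hTN ht) d).1 hd
  have hPD : omS hab (p ^ m) ≤ D := fun y hy => hy.1
  have hP : ∀ s ∈ T, ∀ y ∈ omS hab (p ^ m), s * y * s⁻¹ ∈ omS hab (p ^ m) := by
    rintro s hs y ⟨hy, hy1⟩
    refine ⟨hTD s hs y hy, ?_⟩
    rw [conj_pow, hy1]
    group
  set S := stC hP x with hS
  have hST : S ≤ T := fun s hs => hs.1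
  obtain ⟨y, hy, hyx, hfix⟩ := exists_fix (S := S) hD hab (fun s hs => hTD s (hST hs))
    (fun h => hT (h.trans (relIndex_dvd hTN hST))) hPD (fun s hs => hP s (hST hs)) hx
    (fun s hs => hs.2)
  have hyP : y = x * (x⁻¹ * y) := by group
  refine ⟨w * y, mul_mem hw hy, ?_, ?_⟩
  · have hc : Commute w y := hab w hw y hy
    have hc2 : Commute x (x⁻¹ * y) := hab x hx _ (hPD hyx)
    rw [hc.mul_pow, hwm, one_mul, hyP, hc2.mul_pow, hyx.2, mul_one]
    exact hxm
  · rintro n hn ⟨d, hd, e⟩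
    have hwn : n * w * n⁻¹ ∈ D := hTD n hn w hw
    have hyn : n * y * n⁻¹ ∈ D := hTD n hn y hy
    have e1 : (n * w * n⁻¹ * w⁻¹) * (n * y * n⁻¹ * y⁻¹) = d ^ p ^ j := by
      rw [← e]
      have h1 : n * (w * y) * n⁻¹ * (w * y)⁻¹ = (n * w * n⁻¹) * ((n * y * n⁻¹ * y⁻¹) * w⁻¹) := by
        group
      rw [h1, hab (n * y * n⁻¹ * y⁻¹) (mul_mem hyn (inv_mem hy)) w⁻¹ (inv_mem hw)]
      group
    -- `n` fixes the coset of `y`
    have hdP : d ^ p ^ j ∈ omS hab (p ^ m) := by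
      refine ⟨pow_mem hd _, ?_⟩
      obtain ⟨c, rfl⟩ := Nat.exists_eq_add_of_le hj
      rw [← pow_mul, ← pow_add]
      have e2 : 1 + c + m = (m + 1) + c := by omega
      rw [e2, pow_add, pow_mul, hexp d hd, one_pow]
    have hwP : w ∈ omS hab (p ^ m) := ⟨hw, hwm⟩
    have hnw : n * w * n⁻¹ * w⁻¹ ∈ omS hab (p ^ m) := mul_mem (hP n hn w hwP) (inv_mem hwP)
    have hny : n * y * n⁻¹ * y⁻¹ ∈ omS hab (p ^ m) := by
      have h1 : n * y * n⁻¹ * y⁻¹ = (n * w * n⁻¹ * w⁻¹)⁻¹ * d ^ p ^ j := by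
        rw [← e1]
        group
      rw [h1]
      exact mul_mem (inv_mem hnw) hdP
    have hnS : n ∈ S := by
      refine ⟨hn, ?_⟩
      have h1 : x = y * (x⁻¹ * y)⁻¹ := by group
      have h2 : n * x * n⁻¹ * x⁻¹ = (n * y * n⁻¹) * ((n * (x⁻¹ * y) * n⁻¹)⁻¹ * (x⁻¹ * y)) * y⁻¹ := by
        conv_lhs => rw [h1]
        group
      have h3 : (n * (x⁻¹ * y) * n⁻¹)⁻¹ * (x⁻¹ * y) ∈ omS hab (p ^ m) :=
        mul_mem (inv_mem (hP n hn _ hyx)) hyx
      rw [h2, hab (n * y * n⁻¹) hyn _ (hPD h3), mul_assoc]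
      exact mul_mem h3 hny
    have h4 : n * y * n⁻¹ * y⁻¹ = 1 := by
      rw [hfix n hnS, mul_inv_cancel]
    rw [h4, mul_one] at e1
    exact hreg n hn ⟨d, hd, e1⟩

end Full

section Num

theorem le_facB (q : ℕ) : q ≤ facB q := by
  rcases Nat.lt_or_ge q 3 with h | h
  · rw [facB, if_pos (by omega)]
  · have h1 := half_le_facB h
    nlinarith

theorem half_lt_facB {r : ℕ} (hr4 : 4 ≤ r) : r * (r + 1) + 2 ≤ 2 * facB r := by
  rw [facB_eq (by omega)]
  obtain ⟨s, rfl⟩ : ∃ s, r = s + 4 := ⟨r - 4, by omega⟩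
  have : s + 4 - 1 = s + 3 := rfl
  rw [this]
  have h1 := le_max_left (1 + (s + 3) ^ 2) (3 + (s + 4 - 3) * (((s + 4) * (s + 4 + 1) + 3) / 4))
  nlinarith

variable {G : Type*} [Group G] [Finite G] {D : Subgroup G} {p : ℕ}

/-- the bound for rank three with `J = 4` -/
theorem bound_sum3 (hp2 : 2 < p) (hab : ∀ a ∈ D, ∀ b ∈ D, a * b = b * a)
    (hr : Nat.card {x : G // x ∈ D ∧ x ^ p = 1} = p ^ 3) {o : ℕ → ℕ}
    (ho : ∀ j, j ≤ facB 3 → o j = p ^ j) :
    Nat.card D * p / (Nat.card {y : G // ∃ d ∈ D, d ^ p ^ 2 = y} * o 2) +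
      ∑ h ∈ Finset.Ico 2 4, Nat.card D * p /
        (p ^ (2 * h) * (Nat.card {y : G // ∃ d ∈ D, d ^ p ^ (h + 1) = y} * o (h + 1))) ≤
      p ^ facB 3 := by
  have h6 : facB 3 = 6 := rfl
  rw [h6] at ho ⊢
  have hsum : p ^ 5 + ∑ h ∈ Finset.Ico 2 4, p ^ 3 ≤ p ^ 6 := by
    rw [Finset.sum_const]
    have h1 : (Finset.Ico 2 4).card = 2 := rfl
    rw [h1, smul_eq_mul]
    have h2 : p ^ 3 ≤ p ^ 5 := Nat.pow_le_pow_right (by omega) (by omega)
    calc p ^ 5 + 2 * p ^ 3 ≤ p ^ 5 * 3 := by omega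
      _ ≤ p ^ 5 * p := Nat.mul_le_mul_left _ hp2
      _ = p ^ 6 := by ring
  refine (Nat.add_le_add ?_ (Finset.sum_le_sum fun h hh => ?_)).trans hsum
  · rw [ho 2 (by omega)]
    refine Nat.div_le_of_le_mul ?_
    have h2 := card_eq_Y hab hr 2
    calc Nat.card D * p ≤
          Nat.card {y : G // ∃ d ∈ D, d ^ p ^ 2 = y} * p ^ (3 * 2) * p :=
          Nat.mul_le_mul_right _ h2
      _ = _ := by ring
  · rw [Finset.mem_Ico] at hh
    rw [ho (h + 1) (by omega)]
    refine Nat.div_le_of_le_mul ?_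
    have h3 := card_eq_Y hab hr (h + 1)
    calc Nat.card D * p ≤
          Nat.card {y : G // ∃ d ∈ D, d ^ p ^ (h + 1) = y} * p ^ (3 * (h + 1)) * p :=
          Nat.mul_le_mul_right _ h3
      _ = _ := by ring

end Num

section Main

variable {G : Type*} [Group G] [Finite G] {D T : Subgroup G} {p : ℕ} [hp : Fact p.Prime]

/-- the data, from a regular coset of full order and the condition on the index -/
theorem data_of_reg (hp2 : 2 < p) (hab : ∀ a ∈ D, ∀ b ∈ D, a * b = b * a) {r m J : ℕ}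
    (hr3 : 3 ≤ r) (hr : Nat.card {x : G // x ∈ D ∧ x ^ p = 1} = p ^ r)
    (hexp : ∀ x ∈ D, x ^ p ^ (m + 1) = 1) (hfm : facB r ≤ m + 1)
    (hJ : J = (r * (r + 1) + 3) / 4 ∨ (r = 3 ∧ J = 4)) {w : G} (hw : w ∈ D)
    (hwm : w ^ p ^ m ≠ 1)
    (hreg : ∀ n ∈ T, (∃ d ∈ D, n * w * n⁻¹ * w⁻¹ = d ^ p ^ (r - 1)) →
      n ∈ centralizer (D : Set G))
    (hii : (centralizer (D : Set G)).relIndex T * Nat.card D < p ^ (2 * J) *
      Nat.card {u : G // u ∈ D ∧ ∀ n ∈ T, n * u * n⁻¹ = u → n ∈ centralizer (D : Set G)})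
    (he : (centralizer (D : Set G)).relIndex T ≤ p ^ facB r) : HasRegCosetH p D T := by
  obtain ⟨hJ1, hJ2⟩ := level_le hr3
  have hfr := le_facB r
  have hf1 : facB r - 1 + 1 = facB r := by omega
  refine ⟨facB r - 1, r - 1, J, fun j => p ^ min j (facB r), w, ⟨w, hw, fun h => hwm ?_⟩, ?_, hw,
    ?_, hreg, hii, ?_, ?_⟩
  · obtain ⟨c, hc⟩ := Nat.exists_eq_add_of_le (show facB r - 1 ≤ m by omega)
    rw [hc, pow_add, pow_mul, h, one_pow]
  · rcases hJ with hJ | ⟨h3, hJ⟩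
    · rw [hJ]; exact hJ1
    · omega
  · rintro j - i ⟨d, hd, e⟩
    change p ^ min j (facB r) ∣ i
    rcases le_total j (facB r) with hj | hj
    · rw [min_eq_left hj]
      exact dvd_of_max (hj.trans hfm) hexp hw hwm ⟨d, hd, e⟩
    · rw [min_eq_right hj]
      refine dvd_of_max hfm hexp hw hwm ⟨d ^ p ^ (j - facB r), pow_mem hd _, ?_⟩
      rw [e, ← pow_mul, ← pow_add, Nat.sub_add_cancel hj]
  · rw [hf1]
    rcases hJ with hJ | ⟨h3, hJ⟩
    · subst hJ
      exact bound_sumB hp2 hab hr3 hr (o := fun j => p ^ min j (facB r))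
        (fun j hj => by simp only [min_eq_left hj])
    · subst h3
      subst hJ
      exact bound_sum3 hp2 hab hr (o := fun j => p ^ min j (facB 3))
        (fun j hj => by simp only [min_eq_left hj])
  · rw [hf1]
    exact he

/-- **the data of the height-refined bound for the thresholds `facB`** -/
theorem hasRegCosetH_of_growB (hp2 : 2 < p) {r : ℕ} (hG : GrowBy facB p D)
    (hab : ∀ a ∈ D, ∀ b ∈ D, a * b = b * a) (hD : IsPGroup p D)
    (hTN : T ≤ normalizer (D : Set G)) (hT : ¬ p ∣ (centralizer (D : Set G)).relIndex T)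
    (hr : Nat.card {x : G // x ∈ D ∧ x ^ p = 1} = p ^ r) (hr3 : 3 ≤ r) : HasRegCosetH p D T := by
  obtain ⟨d, hd, hanti, -, -⟩ := exists_ranks hD hab
  have hd0 : d 0 = r := by
    have h1 := hd 0
    have h2 : Nat.card {x // (∃ y ∈ D, y ^ p ^ 0 = x) ∧ x ^ p = 1} =
        Nat.card {x : G // x ∈ D ∧ x ^ p = 1} := by
      refine Nat.card_congr (Equiv.subtypeEquivRight fun x => and_congr_left fun _ => ?_)
      constructor
      · rintro ⟨y, hy, rfl⟩
        exact pow_mem hy _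
      · intro hx
        exact ⟨x, hx, by rw [pow_zero, pow_one]⟩
    rw [h2, hr] at h1
    exact (Nat.pow_right_injective hp.out.two_le h1).symm
  -- the largest exponent
  obtain ⟨m, hfm', hexp, x, hx, hxm⟩ := exists_exp hD (exists_pow_of_growBy (by omega) hr hG)
  have hfr := le_facB r
  have hfm : facB r ≤ m + 1 := by omega
  have hdm1 : d (m + 1) = 0 := by
    have h1 := hd (m + 1)
    rw [omP_eq_one hexp] at h1
    exact (Nat.pow_right_injective hp.out.two_le (by simpa using h1)).symm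
  have hdm : 1 ≤ d m := by
    by_contra hcon
    have h0 : d m = 0 := by omega
    have h1 := hd m
    rw [h0, pow_zero, Nat.card_eq_one_iff_unique] at h1
    obtain ⟨h2, -⟩ := h1
    have h3 := h2.allEq ⟨x ^ p ^ m, ⟨x, hx, rfl⟩, by rw [← pow_mul, ← pow_succ]; exact hexp x hx⟩
      ⟨1, ⟨1, one_mem _, one_pow _⟩, one_pow _⟩
    exact hxm (congrArg Subtype.val h3)
  -- the class
  have hcls : ∀ i, 1 ≤ i → r ≤ i - 1 + d (facB i - 1) := by
    intro i hi
    have h1 := hG i hi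
    rw [hr, hd, ← pow_add] at h1
    exact (Nat.pow_le_pow_iff_right hp.out.one_lt).1 h1
  have hri : ∀ i < m + 1, d i ≤ d (i + 1) + (i + 1) := by
    intro i _
    by_contra hcon
    push Not at hcon
    have h1 := hanti 0 i (by omega)
    rw [hd0] at h1
    obtain ⟨q, hq⟩ : ∃ q, r = q + d (i + 1) := ⟨r - d (i + 1), by omega⟩
    have hq1 : 1 ≤ q := by omega
    have h2 := hcls q hq1
    have h3 := le_facB q
    by_cases h5 : facB q ≤ i + 1
    · omega
    · have h6 := hanti (i + 1) (facB q - 1) (by omega)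
      omega
  obtain ⟨hJ1, hJ2⟩ := level_le hr3
  set J := (r * (r + 1) + 3) / 4 with hJ
  have h4 : r * (r + 1) ≤ 4 * J := by omega
  set e := (centralizer (D : Set G)).relIndex T with he
  have hE0 := P179H843.relIndex_le_prod hD hab hTN hT hr
  obtain ⟨c, hc1, hc2, hc3⟩ := prod_le p r (by omega)
  have hE : e ≤ p ^ facB r := by
    refine hE0.trans (hc3.trans ?_)
    have h5 := half_le_facB hr3
    calc (p - 1) * p ^ (c - 1) ≤ p * p ^ (c - 1) := Nat.mul_le_mul_right _ (Nat.sub_le _ _)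
      _ = p ^ (c - 1 + 1) := by rw [pow_succ']
      _ ≤ p ^ facB r := Nat.pow_le_pow_right hp.out.pos (by omega)
  rcases Nat.lt_or_ge (d m) r with hs | hs
  · -- mixed orders
    have hrj : ∀ i < m + 1, d i ≤ d (i + 1) + (r - 1) := by
      intro i hi
      have h1 := hanti 0 i (by omega)
      rcases Nat.lt_or_ge i m with h5 | h5
      · have h6 := hanti (i + 1) m (by omega)
        omega
      · have h6 : i = m := by omega
        rw [h6]
        omega
    have hcount := card_reg_ge hD hab hTN hT hd hdm1 hdm (by omega : 1 ≤ r - 1) (by omega) hri hrj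
    rw [hd0] at hcount
    set A := Nat.card {w : G // w ∈ D ∧ (∀ i : ℕ, (∃ d ∈ D, w ^ i = d ^ p ^ (r - 1)) →
      p ^ (r - 1) ∣ i) ∧ (∀ t ∈ T, (∃ d ∈ D, t * w * t⁻¹ * w⁻¹ = d ^ p ^ (r - 1)) →
        t ∈ centralizer (D : Set G))} with hA
    have hD0 : 0 < Nat.card D := Nat.card_pos
    have hp1 : 0 < (p - 1) ^ r := pow_pos (by omega) _
    have hA0 : 0 < A := by
      by_contra hcon
      have h1 : A = 0 := by omega
      rw [h1, mul_zero] at hcount
      have := Nat.mul_pos hp1 hD0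
      omega
    obtain ⟨⟨w, hw, -, hreg⟩⟩ := (Nat.card_pos_iff.1 hA0).1
    obtain ⟨w', hw', hwm', hreg'⟩ := exists_full_gen hD hab hTN hT (by omega) hexp ⟨x, hx, hxm⟩
      hw hreg
    refine data_of_reg hp2 hab hr3 hr hexp hfm (Or.inl hJ) hw' hwm' hreg' ?_ hE
    have hE2 := relIndex_le_two hD hab hTN hT hr (hd m)
    have h1 := P179H666.lemma_CQ hp2 hdm hs h4 hE2
    have h2 : e * Nat.card D * (p - 1) ^ r < p ^ (2 * J) * A * (p - 1) ^ r := by
      calc e * Nat.card D * (p - 1) ^ r = e * ((p - 1) ^ r * Nat.card D) := by ring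
        _ ≤ e * (p ^ r * A) := Nat.mul_le_mul_left _ hcount
        _ = e * p ^ r * A := by ring
        _ < p ^ (2 * J) * (p - 1) ^ r * A := Nat.mul_lt_mul_of_pos_right h1 hA0
        _ = p ^ (2 * J) * A * (p - 1) ^ r := by ring
    have h3 := Nat.lt_of_mul_lt_mul_right h2
    exact h3.trans_le (Nat.mul_le_mul_left _ card_good_le)
  · -- homocyclic
    have hs' : d m = r := le_antisymm (hd0 ▸ hanti 0 m (Nat.zero_le m)) hs
    have hdiv : ∀ x ∈ D, x ^ p = 1 → ∃ y ∈ D, y ^ p ^ m = x := by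
      have h1 : {x : G | (∃ y ∈ D, y ^ p ^ m = x) ∧ x ^ p = 1} = {x : G | x ∈ D ∧ x ^ p = 1} := by
        refine Set.eq_of_subset_of_ncard_le ?_ ?_ (Set.toFinite _)
        · rintro x ⟨⟨y, hy, rfl⟩, hx⟩
          exact ⟨pow_mem hy _, hx⟩
        · have h2 := hd m
          rw [hs', ← hr] at h2
          exact h2.ge
      intro x hx hx1
      have h2 : x ∈ {x : G | (∃ y ∈ D, y ^ p ^ m = x) ∧ x ^ p = 1} := by
        rw [h1]
        exact ⟨hx, hx1⟩
      exact h2.1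
    obtain ⟨w, hw, hwm, hreg⟩ := P179H46.Base.exists_reg_homB hD hab hTN hT hr3 hr hdiv hexp
      (by omega)
    have hem := hE0.trans hc3
    rcases Nat.lt_or_ge r 4 with h5 | h5
    · have h6 : r = 3 := by omega
      refine data_of_reg (J := 4) hp2 hab hr3 hr hexp hfm (Or.inr ⟨h6, rfl⟩) hw hwm hreg ?_ hE
      refine regular_count (n := m + 1) hD hab hTN hT (pow_pos hp.out.pos _)
        (by rw [Nat.add_sub_cancel]; exact hdiv) ?_
      have h7 : facB 3 = 6 := rfl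
      rw [h6, h7] at hfm
      rw [h6] at hc2
      rw [add_comm (p ^ (m + 1)), mul_comm (p ^ (m + 1))]
      exact arith_aux hp.out.one_le hc1 hem (by omega) (by omega)
    · refine data_of_reg hp2 hab hr3 hr hexp hfm (Or.inl hJ) hw hwm hreg ?_ hE
      refine regular_count (n := m + 1) hD hab hTN hT (pow_pos hp.out.pos _)
        (by rw [Nat.add_sub_cancel]; exact hdiv) ?_
      have h6 := half_lt_facB h5
      exact arith_aux hp.out.one_le hc1 hem (by omega) (by omega)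

end Main

/-- **the thresholds `facB`** -/
theorem regHAll_facB {p : ℕ} [hp : Fact p.Prime] (hp2 : 2 < p) : RegHAll facB p :=
  fun _ _ _ _ _ _ hG hab hD hTN hT hr hr3 => hasRegCosetH_of_growB hp2 hG hab hD hTN hT hr hr3

end P179H450
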