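import Vale.Agent.P179.R2.H450.DQ2

/-!
# (F4a) defect groups of dominated blocks
-/

namespace P179H450

open P179H524 P179C P179A Finset P179P P179Y Subgroup P179R

open scoped Classical

universe u

section Rel

variable {k : Type u} [Field k] {G : Type} [Group G] [Fintype G]

omit [Fintype G] in
theorem quo_conjBy (R : Subgroup G) [R.Normal] (g : G) (a : MonoidAlgebra k G) :
    quo R (conjBy g a) = conjBy (g : G ⧸ R) (quo R a) := by
  unfold conjBy
  rw [map_mul, map_mul, quo_single, quo_single]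
  rfl

omit [Fintype G] in
theorem conjBy_mul_left' {b : MonoidAlgebra k G}
    (hb : b ∈ Subalgebra.center k (MonoidAlgebra k G)) (g : G) (a : MonoidAlgebra k G) :
    conjBy g (b * a) = b * conjBy g a := by
  rw [P179Y.conjBy_mul, conjBy_central g hb]

omit [Fintype G] in
theorem conjBy_comp (g h : G) (a : MonoidAlgebra k G) :
    conjBy (g * h) a = conjBy g (conjBy h a) := by
  unfold conjBy
  have h1 : (MonoidAlgebra.single (g * h) (1 : k)) =
      MonoidAlgebra.single g 1 * MonoidAlgebra.single h 1 := by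
    rw [MonoidAlgebra.single_mul_single, one_mul]
  have h2 : (MonoidAlgebra.single (g * h)⁻¹ (1 : k)) =
      MonoidAlgebra.single h⁻¹ 1 * MonoidAlgebra.single g⁻¹ 1 := by
    rw [MonoidAlgebra.single_mul_single, one_mul, mul_inv_rev]
  rw [h1, h2]
  simp only [mul_assoc]

/-- (U) the upper bound -/
theorem isRelTrace_quo {D R : Subgroup G} [R.Normal] (hRD : R ≤ D) {B : MonoidAlgebra k G}
    (hB : IsRelTrace B D) {B' : MonoidAlgebra k (G ⧸ R)}
    (hB' : B' ∈ Subalgebra.center k (MonoidAlgebra k (G ⧸ R))) (hdom : B' * quo R B = B') :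
    IsRelTrace B' (D.map (QuotientGroup.mk' R)) := by
  obtain ⟨a, ha, hBa⟩ := hB
  have hf1 := Fintype.ofFinite (G ⧸ D)
  have hf2 := Fintype.ofFinite (G ⧸ R)
  have hf3 := Fintype.ofFinite ((G ⧸ R) ⧸ (D.map (QuotientGroup.mk' R)))
  have hinv : ∀ d ∈ D.map (QuotientGroup.mk' R), conjBy d (B' * quo R a) = B' * quo R a := by
    rintro _ ⟨d, hd, rfl⟩
    rw [conjBy_mul_left' hB']
    have h1 := quo_conjBy R d a
    rw [ha d hd] at h1
    exact congrArg (B' * ·) h1.symm
  refine ⟨B' * quo R a, hinv, ?_⟩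
  rw [finsum_eq_sum_of_fintype]
  have h1 : B' = ∑ c : G ⧸ D, conjBy ((c.out : G) : G ⧸ R) (B' * quo R a) := by
    conv_lhs => rw [← hdom, hBa, finsum_eq_sum_of_fintype, map_sum, Finset.mul_sum]
    refine Finset.sum_congr rfl fun c _ => ?_
    rw [conjBy_mul_left' hB', quo_conjBy]
  have h2 : ∑ c : G ⧸ D, conjBy ((c.out : G) : G ⧸ R) (B' * quo R a) =
      ∑ c : (G ⧸ R) ⧸ (D.map (QuotientGroup.mk' R)), conjBy c.out (B' * quo R a) := by
    refine Fintype.sum_bijective
      (fun c : G ⧸ D => (((c.out : G) : G ⧸ R) : (G ⧸ R) ⧸ (D.map (QuotientGroup.mk' R))))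
      ⟨?_, ?_⟩ _ _ ?_
    · intro c c' h
      have h3 := QuotientGroup.eq.1 h
      obtain ⟨d, hd, hd2⟩ := h3
      have h4 : ((d : G) : G ⧸ R) = (((c.out : G)⁻¹ * c'.out : G) : G ⧸ R) := hd2
      have h5 := QuotientGroup.eq.1 h4
      have h6 : (c.out : G)⁻¹ * c'.out ∈ D := by
        have h7 := mul_mem hd (hRD h5)
        rwa [mul_inv_cancel_left] at h7
      rw [← QuotientGroup.out_eq' c, ← QuotientGroup.out_eq' c']
      exact QuotientGroup.eq.2 h6
    · intro c
      obtain ⟨c, rfl⟩ := QuotientGroup.mk_surjective c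
      obtain ⟨g, rfl⟩ := QuotientGroup.mk_surjective c
      refine ⟨(g : G ⧸ D), ?_⟩
      obtain ⟨d, hd⟩ := QuotientGroup.mk_out_eq_mul D g
      change ((((g : G ⧸ D).out : G) : G ⧸ R) : (G ⧸ R) ⧸ (D.map (QuotientGroup.mk' R))) = _
      rw [hd]
      refine QuotientGroup.eq.2 ?_
      refine ⟨(d : G)⁻¹, inv_mem d.2, ?_⟩
      change (((d : G)⁻¹ : G) : G ⧸ R) = ((g * d : G) : G ⧸ R)⁻¹ * (g : G ⧸ R)
      rw [← QuotientGroup.mk_inv, ← QuotientGroup.mk_mul]
      congr 1
      group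
    · intro c
      obtain ⟨d, hd⟩ := QuotientGroup.mk_out_eq_mul (D.map (QuotientGroup.mk' R))
        ((c.out : G) : G ⧸ R)
      rw [hd, conjBy_comp, hinv d d.2]
  rw [← h2]
  exact h1

end Rel

section Main

variable {p : ℕ} [hp : Fact p.Prime] {k : Type u} [Field k] [IsAlgClosed k] [CharP k p]
  {G : Type} [Group G] [Finite G]

variable (p) in
/-- **(F4a)** the blocks of `G/R` dominated by a block with abelian defect group `D` have the
defect group `D/R` -/
theorem isDefectGroup_quo {B : MonoidAlgebra k G} (hB : P179C.IsBlock B) {D : Subgroup G}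
    (hD : P179C.IsDefectGroup B D) (hab : ∀ a ∈ D, ∀ b ∈ D, a * b = b * a) (R : Subgroup G)
    [R.Normal] (hR : IsPGroup p R) {B' : MonoidAlgebra k (G ⧸ R)} (hB' : P179C.IsBlock B')
    (hdom : B' * quo R B = B') :
    P179C.IsDefectGroup B' (D.map (QuotientGroup.mk' R)) := by
  have := Fintype.ofFinite G
  obtain ⟨hDp, l, hl, hlB⟩ := exists_BP_of_block (p := p) B hB D hD
  have hT := hT_of_block hB hD hDp hab hl hlB
  -- `R ≤ D`
  have hRD : R ≤ D := by
    obtain ⟨R1, l1, hR1, hl1, hl1z, hnrm⟩ := exists_BP_nrm (p := p) (hl.isHomCF' hDp)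
    obtain ⟨g, hg, -⟩ := FDc hl hDp hab hT hl1 hR1 hl1z
    intro r hr
    have h1 : g * r * g⁻¹ ∈ R1 :=
      hnrm R inferInstance hR ((inferInstance : R.Normal).conj_mem r hr g)
    have h2 := (hg _).1 h1
    have h3 : g⁻¹ * (g * r * g⁻¹) * g = r := by group
    rwa [h3] at h2
  have hRab : ∀ a ∈ R, ∀ b ∈ R, a * b = b * a := fun a ha b hb => hab a (hRD ha) b (hRD hb)
  refine ⟨isRelTrace_quo hRD hD.1 hB'.1 hdom, fun Q hQ hQD => ?_⟩
  have h1 := card_le_of_relTrace hl hDp hab hT hR hRab hB hlB hB' hdom hQ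
  have h2 : Nat.card D = Nat.card R * Nat.card (D.map (QuotientGroup.mk' R)) := by
    have h3 : Nat.card (D.map (QuotientGroup.mk' R)) = R.relIndex D := by
      have h4 := Subgroup.relIndex_ker (K := D) (QuotientGroup.mk' R)
      rw [QuotientGroup.ker_mk'] at h4
      exact h4.symm
    rw [h3]
    have h5 := Subgroup.card_mul_index (R.subgroupOf D)
    rw [Nat.card_congr (Subgroup.subgroupOfEquivOfLe hRD).toEquiv] at h5
    exact h5.symm
  rw [h2] at h1
  have h3 := Nat.le_of_mul_le_mul_left h1 Nat.card_pos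
  exact (Subgroup.eq_of_le_of_card_ge hQD h3).ge

end Main

end P179H450
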