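import Vale.Agent.P179.R2.H450.Ab3
import Vale.Agent.P179.R2.H92.RegCls

/-!
# The class of the groups with growing cyclic factors: instances
-/

namespace P179H450

open Subgroup P179H524 P179R P179Y MonoidAlgebra P179H292 P179H351 P179H666

open P179B (inertialIndex inertialGroup regularElements hyperfocal GrowBy facA facB facN
  GrowingFactors)

open P179H12 (HasRegCosetH)

open scoped Classical

universe u

/-- the data at one level give the data at two levels -/
theorem hasRegCosetH_of_reg {p : ℕ} {G : Type*} [Group G] {D T : Subgroup G}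
    (h : HasRegCoset p D T) : HasRegCosetH p D T := by
  obtain ⟨a, j, o, w, hex, hj, hw, ho0, ho, hreg, hii, hcd, he⟩ := h
  refine ⟨a, j, j, fun _ => o, w, hex, le_rfl, hw, ?_, hreg, hii, ?_, he⟩
  · rintro j' hj' i ⟨d, hd, e⟩
    refine ho i ⟨d ^ p ^ (j' - j), pow_mem hd _, ?_⟩
    rw [e, ← pow_mul, ← pow_add, Nat.sub_add_cancel hj']
  · rw [Finset.Ico_self, Finset.sum_empty, add_zero]
    refine Nat.div_le_of_le_mul ?_
    rw [mul_comm _ (p ^ (a + 1))]
    exact hcd

/-- **the thresholds `facN`** -/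
theorem regHAll_facN {p : ℕ} [hp : Fact p.Prime] (hp2 : 2 < p) : RegHAll facN p :=
  fun _ _ _ _ _ _ hG hab hD hTN hT hr hr3 =>
    hasRegCosetH_of_reg (P179H92.hasRegCoset_of_growing hp2 hG hab hD hTN hT hr hr3)

theorem facA_ge {r : ℕ} (hr : 3 ≤ r) : r + (r - 3) * ((r - 1) / 2) + 1 ≤ facA r := by
  rw [facA, if_neg (by omega)]
  omega

section

variable {p : ℕ} [hp : Fact p.Prime] {k : Type u} [Field k] [IsAlgClosed k] [CharP k p]
  (red : integralClosure ℤ ℂ →+* k)

/-- the class for the thresholds `facN` and `facA` -/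
theorem solvClassN_facN (hp2 : p ≠ 2) :
    SolvClassN p red (fun (X : Type) [Group X] (D T : Subgroup X) => ClGen facN facA p D T) :=
  solvClassN_gen red hp2 (by decide) (by decide) (fun _ h => facA_ge h)
    (regHAll_facN (lt_of_le_of_ne hp.out.two_le (Ne.symm hp2)))

/-- the class for any thresholds with the data of the height-refined bound, and `facA` -/
theorem solvClassN_facA (hp2 : p ≠ 2) {n : ℕ → ℕ} (hn2 : 2 ≤ n 2) (hn : RegHAll n p) :
    SolvClassN p red (fun (X : Type) [Group X] (D T : Subgroup X) => ClGen n facA p D T) :=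
  solvClassN_gen red hp2 hn2 (by decide) (fun _ h => facA_ge h) hn

omit hp [IsAlgClosed k] [CharP k p] in
/-- the solved groups may be added to a class -/
theorem SolvClassN.or_eq {Cl : ∀ (X : Type) [Group X], Subgroup X → Subgroup X → Prop}
    (h : SolvClassN p red Cl) : SolvClassN p red
      (fun (X : Type) [Group X] (D T : Subgroup X) => Cl X D T ∨ EqForAct p red D T) := by
  constructor
  · rintro X Y _ _ K T D' T' hact (hK | hK)
    · exact Or.inl (h.act X Y K T D' T' hact hK)
    · exact Or.inr (hK.congr hact)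
  · rintro X _ _ D T (hD | hD) hab hDp hTN hCT hT
    · rcases h.step X D T hD hab hDp hTN hCT hT with h1 | ⟨a, h1, h2, h3, h4⟩
      · exact Or.inl h1
      · exact Or.inr ⟨a, h1, h2, h3, fun F hFT hCF M hMD hM1 hMa hFM hFC =>
          Or.inl (h4 F hFT hCF M hMD hM1 hMa hFM hFC)⟩
    · exact Or.inl hD

omit hp [IsAlgClosed k] [CharP k p] in
/-- two classes may be united -/
theorem SolvClassN.or {Cl Cl' : ∀ (X : Type) [Group X], Subgroup X → Subgroup X → Prop}
    (h : SolvClassN p red Cl) (h' : SolvClassN p red Cl') : SolvClassN p red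
      (fun (X : Type) [Group X] (D T : Subgroup X) => Cl X D T ∨ Cl' X D T) := by
  constructor
  · rintro X Y _ _ K T D' T' hact (hK | hK)
    · exact Or.inl (h.act X Y K T D' T' hact hK)
    · exact Or.inr (h'.act X Y K T D' T' hact hK)
  · rintro X _ _ D T (hD | hD) hab hDp hTN hCT hT
    · rcases h.step X D T hD hab hDp hTN hCT hT with h1 | ⟨a, h1, h2, h3, h4⟩
      · exact Or.inl h1
      · exact Or.inr ⟨a, h1, h2, h3, fun F hFT hCF M hMD hM1 hMa hFM hFC =>
          Or.inl (h4 F hFT hCF M hMD hM1 hMa hFM hFC)⟩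
    · rcases h'.step X D T hD hab hDp hTN hCT hT with h1 | ⟨a, h1, h2, h3, h4⟩
      · exact Or.inl h1
      · exact Or.inr ⟨a, h1, h2, h3, fun F hFT hCF M hMD hM1 hMa hFM hFC =>
          Or.inr (h4 F hFT hCF M hMD hM1 hMa hFM hFC)⟩

/-- **the equality for growing cyclic factors with the thresholds `facA`, for abelian actions** -/
theorem eqForAct_of_growA (hE : P179H443.EqwStmt p k) (hp2 : p ≠ 2) {G : Type} [Group G]
    [Finite G] {K S : Subgroup G} (hS : S ≤ normalizer (K : Set G))
    (hSab : ∀ s ∈ S, ∀ t ∈ S, s * t * s⁻¹ * t⁻¹ ∈ centralizer (K : Set G))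
    (hK : GrowBy facA p K) : EqForAct p red K S :=
  eqForAct_of_classN red hE (solvClassN_facN red hp2) _ G K S rfl (Or.inr ⟨⟨hS, hSab⟩, hK⟩)

/-- **the equality for growing cyclic factors, for any thresholds with the data of the
height-refined bound** -/
theorem eqForAct_of_growBy (hE : P179H443.EqwStmt p k) (hp2 : p ≠ 2) {n : ℕ → ℕ}
    (hn2 : 2 ≤ n 2) (hn : RegHAll n p) {G : Type} [Group G]
    [Finite G] {K S : Subgroup G} (hK : GrowBy n p K) : EqForAct p red K S :=
  eqForAct_of_classN red hE (solvClassN_facA red hp2 hn2 hn) _ G K S rfl (Or.inl hK)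

/-- **the equality for growing cyclic factors with the thresholds `facN`** -/
theorem eqForAct_of_growN (hE : P179H443.EqwStmt p k) (hp2 : p ≠ 2) {G : Type} [Group G]
    [Finite G] {K S : Subgroup G} (hK : GrowingFactors p K) : EqForAct p red K S :=
  eqForAct_of_growBy red hE hp2 (n := facN) (by decide)
    (regHAll_facN (lt_of_le_of_ne hp.out.two_le (Ne.symm hp2))) hK

end

end P179H450
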