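import Vale.Agent.P179.R2.H450.Ab5
import Vale.Agent.P179.R2.H46.Three
import Vale.Agent.P179.R2.H725.Num2

/-!
# Theorem M and Theorem M2

The equality for `e + 1 < p` and all cyclic factors at least `p ^ 3`, and for `e + 2 ≤ p`,
`e ≤ (p - 2 - e) ^ 2` and all cyclic factors at least `p ^ 2`.
-/

namespace P179H450

open Subgroup P179H524 P179R P179Y MonoidAlgebra P179H292 P179H92 P179H351 P179H666

open P179B (inertialGroup inertialIndex regularElements GrowBy)

universe u

theorem massNum_three {p : ℕ} (hp : 3 ≤ p) : MassNum p 3 fun _ => True :=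
  fun _ _ _ _ h1 he _ hq hw h3 hl => P179H46.arith_three hp h1 he hq hw h3 hl

theorem massNum_two {p : ℕ} : MassNum p 2 fun e => e ≤ (p - 2 - e) ^ 2 := by
  intro e q w l h1 he hP hq hw h3 hl
  have h3' : (p : ℤ) ^ 2 * ((q : ℤ) - w) ≤ ((e : ℤ) - 1) * q := by
    have h2 : ((p ^ 2 * (q - w) : ℕ) : ℤ) ≤ (((e - 1) * q : ℕ) : ℤ) := by exact_mod_cast h3
    push_cast [Nat.cast_sub hw, Nat.cast_sub h1] at h2
    exact h2
  have h4 := P179H725.mass_ge (m := 2) le_rfl (P := (p : ℤ)) (E := (e : ℤ)) (Q := (q : ℤ))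
    (W := (w : ℤ)) (by exact_mod_cast h1) (by omega) (by exact_mod_cast hq) h3'
  have h5 : (0 : ℤ) ≤ (q : ℤ) * (p - 2 - e) := mul_nonneg (by positivity) (by omega)
  have h6 : (q : ℤ) * e < ((p : ℤ) - 1) * w := by linarith
  have hp1 : 1 ≤ p := by omega
  have hp2 : 2 ≤ p := by omega
  have h7 : q * e < (p - 1) * w := by
    zify [hp1]
    exact h6
  have h8 := hl (by rw [mul_comm]; exact h7)
  refine P179H725.mass_two h1 he hP hq hw h3 ?_
  have h9 : ((l * ((p - 1) * w - q * e) ^ 2 : ℕ) : ℤ) ≤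
      (((p - 2) ^ 2 * (q * e * w) : ℕ) : ℤ) := by exact_mod_cast h8
  push_cast [Nat.cast_sub h7.le, Nat.cast_sub hp1, Nat.cast_sub hp2] at h9
  exact h9

section

variable {p : ℕ} [hp : Fact p.Prime] {k : Type u} [Field k] [IsAlgClosed k] [CharP k p]
  (red : integralClosure ℤ ℂ →+* k)

/-- **Theorem M**: the equality for `e + 1 < p`, if all cyclic factors are at least `p ^ 3` -/
theorem eqForAct_of_three (hE : P179H443.EqwStmt p k) (hp2 : 2 < p) {G : Type} [Group G]
    [Finite G] {K S : Subgroup G} (hS : S ≤ normalizer (K : Set G))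
    (he : (centralizer (K : Set G)).relIndex S + 1 < p) (hK : GrowBy (fun _ => 3) p K) :
    EqForAct p red K S :=
  eqForAct_of_mass red hE hp2 (m := 3) (by norm_num) (P := fun _ => True)
    (fun _ _ _ _ => trivial) (massNum_three hp2) hS he trivial hK

/-- **Theorem M2**: the equality for `e + 1 < p`, `e ≤ (p - 2 - e) ^ 2`, if all cyclic factors are
at least `p ^ 2` -/
theorem eqForAct_of_two (hE : P179H443.EqwStmt p k) (hp2 : 2 < p) {G : Type} [Group G]
    [Finite G] {K S : Subgroup G} (hS : S ≤ normalizer (K : Set G))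
    (he : (centralizer (K : Set G)).relIndex S + 1 < p)
    (he2 : (centralizer (K : Set G)).relIndex S ≤
      (p - 2 - (centralizer (K : Set G)).relIndex S) ^ 2) (hK : GrowBy (fun _ => 2) p K) :
    EqForAct p red K S := by
  refine eqForAct_of_mass red hE hp2 (m := 2) (by norm_num) (P := fun e => e ≤ (p - 2 - e) ^ 2)
    (fun e e' h1 h2 => ?_) massNum_two hS he he2 hK
  exact h1.trans (h2.trans (Nat.pow_le_pow_left (by omega) 2))

end

end P179H450
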