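import Vale.Agent.P179.R2.H450.Flag

/-!
# Abelian groups of rank two: orders of `Ω_i(D)` and `D ^ q`
-/

namespace P179H450

open Subgroup P179H292

section Pw

variable {G : Type*} [Group G] {D : Subgroup G} (hab : ∀ a ∈ D, ∀ b ∈ D, a * b = b * a)

/-- the subgroup `D ^ q` -/
def pw (q : ℕ) : Subgroup G where
  carrier := {x | ∃ d ∈ D, d ^ q = x}
  one_mem' := ⟨1, one_mem _, one_pow _⟩
  mul_mem' := by
    rintro x y ⟨a, ha, rfl⟩ ⟨b, hb, rfl⟩
    have h : Commute a b := hab a ha b hb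
    exact ⟨a * b, mul_mem ha hb, h.mul_pow q⟩
  inv_mem' := by
    rintro x ⟨a, ha, rfl⟩
    exact ⟨a⁻¹, inv_mem ha, inv_pow a q⟩

theorem mem_pw {q : ℕ} {x : G} : x ∈ pw hab q ↔ ∃ d ∈ D, d ^ q = x := Iff.rfl

theorem pw_le (q : ℕ) : pw hab q ≤ D := by
  rintro x ⟨d, hd, rfl⟩
  exact pow_mem hd q

theorem omS_le (q : ℕ) : omS hab q ≤ D := fun _ h => h.1

/-- the power map -/
def powH (q : ℕ) : D →* G where
  toFun x := (x : G) ^ q
  map_one' := one_pow _
  map_mul' x y := by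
    have h : Commute (x : G) y := hab _ x.2 _ y.2
    exact h.mul_pow q

theorem card_pw [Finite G] (q : ℕ) :
    Nat.card (omS hab q) * Nat.card (pw hab q) = Nat.card D := by
  have h1 : Nat.card D = Nat.card (powH hab q).range * Nat.card (powH hab q).ker := by
    rw [← Nat.card_congr (QuotientGroup.quotientKerEquivRange (powH hab q)).toEquiv,
      ← Subgroup.card_eq_card_quotient_mul_card_subgroup]
  have h2 : (powH hab q).range = pw hab q := by
    ext x
    constructor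
    · rintro ⟨d, rfl⟩
      exact ⟨d, d.2, rfl⟩
    · rintro ⟨d, hd, rfl⟩
      exact ⟨⟨d, hd⟩, rfl⟩
  have h3 : Nat.card (powH hab q).ker = Nat.card (omS hab q) := by
    refine Nat.card_congr ⟨fun x => ⟨x.1.1, x.1.2, x.2⟩, fun x => ⟨⟨x.1, x.2.1⟩, x.2.2⟩, ?_, ?_⟩
    · intro x
      rfl
    · intro x
      rfl
  rw [h1, h2, h3, mul_comm]

/-- `Ω_(i+1)` is large if the elements of order `p` are `p ^ i`-th powers -/
theorem card_omS_ge [Finite G] (p i : ℕ) (h : ∀ x ∈ D, x ^ p = 1 → ∃ y ∈ D, y ^ p ^ i = x) :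
    Nat.card (omS hab (p ^ i)) * Nat.card (omS hab p) ≤ Nat.card (omS hab (p ^ (i + 1))) := by
  have habO : ∀ a ∈ omS hab (p ^ (i + 1)), ∀ b ∈ omS hab (p ^ (i + 1)), a * b = b * a :=
    fun a ha b hb => hab a ha.1 b hb.1
  have h1 := card_pw habO (p ^ i)
  rw [← h1]
  refine Nat.mul_le_mul ?_ ?_
  · refine Subgroup.card_le_of_le ?_
    rintro x ⟨hx, hx'⟩
    exact ⟨⟨hx, by rw [pow_succ, pow_mul, hx', one_pow]⟩, hx'⟩
  · refine Subgroup.card_le_of_le ?_
    rintro x ⟨hx, hx'⟩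
    obtain ⟨y, hy, rfl⟩ := h x hx hx'
    exact ⟨y, ⟨hy, by rw [pow_succ, pow_mul, hx']⟩, rfl⟩

theorem card_omS_ge_pow [Finite G] (p N : ℕ) (h : ∀ x ∈ D, x ^ p = 1 → ∃ y ∈ D, y ^ p ^ N = x)
    (i : ℕ) (hi : i ≤ N + 1) : Nat.card (omS hab p) ^ i ≤ Nat.card (omS hab (p ^ i)) := by
  induction i with
  | zero =>
    rw [pow_zero]
    exact Nat.card_pos
  | succ i ih =>
    have h1 := card_omS_ge hab p i fun x hx hx' => by
      obtain ⟨y, hy, hyx⟩ := h x hx hx'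
      refine ⟨y ^ p ^ (N - i), pow_mem hy _, ?_⟩
      rw [← pow_mul, ← pow_add]
      rwa [show N - i + i = N by omega]
    refine le_trans ?_ h1
    rw [pow_succ]
    exact Nat.mul_le_mul_right _ (ih (by omega))

include hab in
/-- elements of small order are `p`-th powers -/
theorem omS_le_pw {p : ℕ} {N : ℕ} (h : ∀ x ∈ D, x ^ p = 1 → ∃ y ∈ D, y ^ p ^ N = x)
    (i : ℕ) (hi : i ≤ N) : ∀ x ∈ D, x ^ p ^ i = 1 → ∃ y ∈ D, y ^ p ^ (N + 1 - i) = x := by
  induction i with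
  | zero =>
    intro x _ hx
    rw [pow_zero, pow_one] at hx
    exact ⟨1, one_mem _, by rw [one_pow, hx]⟩
  | succ i ih =>
    intro x hx hxi
    obtain ⟨y, hy, hyx⟩ := h (x ^ p ^ i) (pow_mem hx _) (by rw [← pow_mul, ← pow_succ]; exact hxi)
    have h1 : (y ^ p ^ (N - i)) ^ p ^ i = x ^ p ^ i := by
      rw [← pow_mul, ← pow_add, show N - i + i = N by omega, hyx]
    set v := y ^ p ^ (N - i) with hv
    have hvD : v ∈ D := pow_mem hy _
    have h2 : (x * v⁻¹) ^ p ^ i = 1 := by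
      have h : Commute x v⁻¹ := hab x hx _ (inv_mem hvD)
      rw [h.mul_pow, inv_pow, h1, mul_inv_cancel]
    obtain ⟨z, hz, hzx⟩ := ih (by omega) (x * v⁻¹) (mul_mem hx (inv_mem hvD)) h2
    refine ⟨z ^ p * y, mul_mem (pow_mem hz _) hy, ?_⟩
    have h : Commute (z ^ p) y := hab _ (pow_mem hz _) _ hy
    rw [h.mul_pow, ← pow_mul, ← pow_succ', show N + 1 - (i + 1) + 1 = N + 1 - i by omega, hzx,
      show N + 1 - (i + 1) = N - i by omega, ← hv]
    group

end Pw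

section Cyc

variable {p : ℕ} {G : Type*} [Group G] [Finite G] {K : Subgroup G}
  (hab : ∀ a ∈ K, ∀ b ∈ K, a * b = b * a)

/-- an abelian `p`-group with at most `p` elements of order dividing `p` -/
theorem card_le_exp (h1 : Nat.card (omS hab p) ≤ p) {t : ℕ} (ht : ∀ x ∈ K, x ^ p ^ t = 1) :
    Nat.card K ≤ p ^ t := by
  have h2 : K ≤ omS hab (p ^ t) := fun x hx => ⟨hx, ht x hx⟩
  exact (Subgroup.card_le_of_le h2).trans ((card_omS_le hab p t).trans
    (Nat.pow_le_pow_left h1 t))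

end Cyc

end P179H450
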