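import Vale.Agent.P179.R2.H666.Thr3
import Vale.Agent.P179.R2.H351.Foc
import Vale.Agent.P179.R2.H725.Ind

/-!
# Regular elements for abelian `p'`-groups of automorphisms

`D` is an abelian `p`-subgroup of the finite group `G`, and `T` normalises `D` and induces an
abelian `p'`-group of automorphisms on `D`. Then some element of `D` of maximal order is regular
modulo the `p`-th powers.
-/

namespace P179H450

open Subgroup P179H292 P179H92 P179H351

section Abs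

variable {A : Type*} [CommGroup A]

/-- if `x ^ N` and `x ^ p` are in `P` with `N` and `p` coprime then `x` is in `P` -/
theorem mem_of_coprime {P : Subgroup A} {x : A} {N p : ℕ} (h : Nat.Coprime N p)
    (h1 : x ^ N ∈ P) (h2 : x ^ p ∈ P) : x ∈ P := by
  have e : x ^ (N.gcdA p * N + N.gcdB p * p : ℤ) = x := by
    have h3 : (N.gcdA p * N + N.gcdB p * p : ℤ) = 1 := by
      have h4 := Nat.gcd_eq_gcd_ab N p
      rw [h] at h4
      push_cast at h4
      linarith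
    rw [h3, zpow_one]
  rw [← e, zpow_add, zpow_mul', zpow_mul', zpow_natCast, zpow_natCast]
  exact mul_mem (zpow_mem h1 _) (zpow_mem h2 _)

/-- the norm map of an automorphism -/
def nu (N : ℕ) (α : MulAut A) : A →* A :=
  ∏ i ∈ Finset.range N, (α ^ i : MulAut A).toMonoidHom

theorem nu_apply (N : ℕ) (α : MulAut A) (x : A) :
    nu N α x = ∏ i ∈ Finset.range N, (α ^ i : MulAut A) x := by
  rw [nu, MonoidHom.finsetProd_apply]
  rfl

theorem nu_comm {N : ℕ} {α β : MulAut A} (h : β * α = α * β) (x : A) :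
    nu N α (β x) = β (nu N α x) := by
  rw [nu_apply, nu_apply, map_prod]
  refine Finset.prod_congr rfl fun i _ => ?_
  have h1 : α ^ i * β = β * α ^ i := by
    have h2 : Commute β α := h
    exact ((h2.pow_right i).eq).symm
  exact congrArg (fun f : MulAut A => f x) h1

theorem nu_comm_eq_one {N : ℕ} {α : MulAut A} (h : α ^ N = 1) (y : A) :
    nu N α (α y * y⁻¹) = 1 := by
  rw [map_mul, map_inv, mul_inv_eq_one, nu_apply, nu_apply]
  have h1 : ∀ i : ℕ, (α ^ i : MulAut A) (α y) = (α ^ (i + 1) : MulAut A) y := by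
    intro i
    rw [pow_succ]
    rfl
  rw [Finset.prod_congr rfl fun i _ => h1 i]
  have h2 := Finset.prod_range_succ' (fun i => (α ^ i : MulAut A) y) N
  have h3 := Finset.prod_range_succ (fun i => (α ^ i : MulAut A) y) N
  rw [h3, h] at h2
  exact (mul_right_cancel h2).symm

theorem nu_mod {N : ℕ} {α : MulAut A} {P : Subgroup A} (hP : ∀ x ∈ P, α x ∈ P) {w : A}
    (hw : α w * w⁻¹ ∈ P) : nu N α w * (w ^ N)⁻¹ ∈ P := by
  have h1 : ∀ i : ℕ, (α ^ i : MulAut A) w * w⁻¹ ∈ P := by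
    intro i
    induction i with
    | zero =>
      have e : (α ^ 0 : MulAut A) w * w⁻¹ = 1 := by rw [pow_zero]; exact mul_inv_cancel w
      rw [e]
      exact one_mem _
    | succ i ih =>
      have e : (α ^ (i + 1) : MulAut A) w * w⁻¹ =
          α ((α ^ i : MulAut A) w * w⁻¹) * (α w * w⁻¹) := by
        rw [map_mul, map_inv, pow_succ']
        change α ((α ^ i) w) * w⁻¹ = _
        group
      rw [e]
      exact mul_mem (hP _ ih) hw
  rw [nu_apply]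
  have e : (∏ i ∈ Finset.range N, (α ^ i : MulAut A) w) * (w ^ N)⁻¹ =
      ∏ i ∈ Finset.range N, ((α ^ i : MulAut A) w * w⁻¹) := by
    rw [Finset.prod_mul_distrib, Finset.prod_const, Finset.card_range, inv_pow]
  rw [e]
  exact prod_mem fun i _ => h1 i

/-- **the abstract regular element** -/
theorem exists_reg_abs [Finite A] {p q : ℕ} (hp : p.Prime) (M : Subgroup (MulAut A))
    (hM : ∀ α ∈ M, ∀ β ∈ M, α * β = β * α) (hN : ¬ p ∣ Nat.card M)
    (hexp : ∀ x : A, x ^ (p * q) = 1) (hq : ∃ x : A, x ^ q ≠ 1)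
    (hf : ∀ α ∈ M, (∀ x : A, ∃ d : A, α x * x⁻¹ = d ^ p) → α = 1) :
    ∃ w : A, w ^ q ≠ 1 ∧ ∀ α ∈ M, (∃ d : A, α w * w⁻¹ = d ^ p) → α = 1 := by
  classical
  set N := Nat.card M with hNdef
  have hcop : Nat.Coprime N p := (Nat.Coprime.symm ((Nat.Prime.coprime_iff_not_dvd hp).2 hN))
  set P : Subgroup A := (powMonoidHom p : A →* A).range with hPdef
  have memP : ∀ {x : A}, x ∈ P ↔ ∃ d : A, x = d ^ p := by
    intro x
    constructor
    · rintro ⟨d, rfl⟩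
      exact ⟨d, rfl⟩
    · rintro ⟨d, rfl⟩
      exact ⟨d, rfl⟩
  have hPα : ∀ (α : MulAut A) (x : A), x ∈ P → α x ∈ P := by
    intro α x hx
    obtain ⟨d, rfl⟩ := memP.1 hx
    exact memP.2 ⟨α d, map_pow α d p⟩
  have hPν : ∀ (α : MulAut A) (x : A), x ∈ P → nu N α x ∈ P := by
    intro α x hx
    obtain ⟨d, rfl⟩ := memP.1 hx
    exact memP.2 ⟨nu N α d, map_pow (nu N α) d p⟩
  have hPq : ∀ x ∈ P, x ^ q = 1 := by
    intro x hx
    obtain ⟨d, rfl⟩ := memP.1 hx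
    rw [← pow_mul, hexp]
  have hpow : ∀ α ∈ M, α ^ N = 1 := by
    intro α hα
    have h1 : (⟨α, hα⟩ : M) ^ Nat.card M = 1 := pow_card_eq_one'
    exact congrArg Subtype.val h1
  -- the stabilisers
  let S : A → Set (MulAut A) := fun w => {α | α ∈ M ∧ α w * w⁻¹ ∈ P}
  have hfin : Finite (MulAut A) := by
    refine Finite.of_injective (fun α : MulAut A => (α : A → A)) fun α β h => ?_
    exact DFunLike.coe_injective h
  obtain ⟨w, hw, hmin⟩ := Set.exists_min_image {w : A | w ^ q ≠ 1} (fun w => (S w).ncard)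
    (Set.toFinite _) hq
  refine ⟨w, hw, ?_⟩
  intro α hα hαw
  by_contra hne
  have hαw' : α w * w⁻¹ ∈ P := memP.2 hαw
  have hy : ∃ y : A, α y * y⁻¹ ∉ P := by
    by_contra hcon
    push Not at hcon
    exact hne (hf α hα fun x => memP.1 (hcon x))
  obtain ⟨y, hy⟩ := hy
  set u : A := α y * y⁻¹ with hu
  have hνu : nu N α u = 1 := nu_comm_eq_one (hpow α hα) y
  have hνw : nu N α w * (w ^ N)⁻¹ ∈ P := nu_mod (hPα α) hαw'
  have hνwu : nu N α (w * u) = nu N α w := by rw [map_mul, hνu, mul_one]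
  -- the order of `w u`
  have hwu : (w * u) ^ q ≠ 1 := by
    intro h
    have h1 : nu N α w ^ q = 1 := by
      rw [← hνwu, ← map_pow, h, map_one]
    have h2 : (w ^ q) ^ N = 1 := by
      have h3 := hPq _ hνw
      rw [mul_pow, h1, one_mul, inv_pow, inv_eq_one, ← pow_mul] at h3
      rw [← pow_mul, mul_comm]
      exact h3
    have h4 : (w ^ q) ^ p = 1 := by rw [← pow_mul, mul_comm]; exact hexp w
    have h5 : w ^ q ∈ (⊥ : Subgroup A) :=
      mem_of_coprime hcop (by rw [h2]; exact one_mem _) (by rw [h4]; exact one_mem _)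
    exact hw (Subgroup.mem_bot.1 h5)
  have hsub : S (w * u) ⊆ S w := by
    rintro β ⟨hβ, hβw⟩
    refine ⟨hβ, ?_⟩
    have h1 := hPν α _ hβw
    rw [map_mul, map_inv, nu_comm (hM β hβ α hα), hνwu] at h1
    have h2 : (β w * w⁻¹) ^ N ∈ P := by
      have e : (β w * w⁻¹) ^ N = (β (nu N α w) * (nu N α w)⁻¹) *
          (β (nu N α w * (w ^ N)⁻¹))⁻¹ * (nu N α w * (w ^ N)⁻¹) := by
        rw [map_mul, map_inv, map_pow, mul_pow, inv_pow]
        generalize β (nu N α w) = a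
        generalize nu N α w = b
        generalize β w ^ N = c
        generalize w ^ N = d
        rw [mul_inv, inv_inv]
        calc c * d⁻¹ = (a * a⁻¹) * (b⁻¹ * b) * (c * d⁻¹) := by
              rw [mul_inv_cancel, inv_mul_cancel, one_mul, one_mul]
          _ = a * b⁻¹ * (a⁻¹ * c) * (b * d⁻¹) := by
              simp only [mul_assoc, mul_left_comm, mul_comm]
      rw [e]
      exact mul_mem (mul_mem h1 (inv_mem (hPα β _ hνw))) hνw
    exact mem_of_coprime hcop h2 (memP.2 ⟨_, rfl⟩)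
  have hnot : α ∉ S (w * u) := by
    rintro ⟨-, h⟩
    have h1 : α u * u⁻¹ ∈ P := by
      have e : α u * u⁻¹ = (α (w * u) * (w * u)⁻¹) * (α w * w⁻¹)⁻¹ := by
        rw [map_mul α w u, mul_inv w u, mul_inv (α w) w⁻¹, inv_inv]
        generalize α w = a
        generalize α u = b
        calc b * u⁻¹ = (a * a⁻¹) * (w⁻¹ * w) * (b * u⁻¹) := by
              rw [mul_inv_cancel, inv_mul_cancel, one_mul, one_mul]
          _ = a * b * (w⁻¹ * u⁻¹) * (a⁻¹ * w) := by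
              simp only [mul_assoc, mul_left_comm, mul_comm]
      rw [e]
      exact mul_mem h (inv_mem hαw')
    have h2 := nu_mod (N := N) (hPα α) h1
    rw [hνu, one_mul] at h2
    have h3 : u ^ N ∈ P := by
      have := inv_mem h2
      rwa [inv_inv] at this
    exact hy (mem_of_coprime hcop h3 (memP.2 ⟨_, rfl⟩))
  have hlt : (S (w * u)).ncard < (S w).ncard := by
    refine Set.ncard_lt_ncard ⟨hsub, fun h => hnot (h ⟨hα, hαw'⟩)⟩ (Set.toFinite _)
  exact absurd (hmin (w * u) hwu) (not_le.2 hlt)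

end Abs

section Trans

variable {G : Type*} [Group G] [Finite G] {D T : Subgroup G} {p : ℕ} [hp : Fact p.Prime]

/-- **regular elements of maximal order for abelian `T / C_T(D)`** -/
theorem exists_regAb (hD : IsPGroup p D) (hab : ∀ a ∈ D, ∀ b ∈ D, a * b = b * a)
    (hTN : T ≤ normalizer (D : Set G)) (hT : ¬ p ∣ (centralizer (D : Set G)).relIndex T)
    (hTab : ∀ s ∈ T, ∀ t ∈ T, s * t * s⁻¹ * t⁻¹ ∈ centralizer (D : Set G)) {q : ℕ}
    (hexp : ∀ x ∈ D, x ^ (p * q) = 1) (hq : ∃ x ∈ D, x ^ q ≠ 1) :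
    ∃ w ∈ D, w ^ q ≠ 1 ∧ ∀ n ∈ T, (∃ d ∈ D, n * w * n⁻¹ * w⁻¹ = d ^ p) →
      n ∈ centralizer (D : Set G) := by
  have hTD : ∀ t ∈ T, ∀ d ∈ D, t * d * t⁻¹ ∈ D := fun t ht d hd =>
    (mem_normalizer_iff.1 (hTN ht) d).1 hd
  let _ : CommGroup D := { (inferInstance : Group D) with
    mul_comm := fun a b => Subtype.ext (hab a a.2 b b.2) }
  have hone : ∀ t : T, actD D T hTD t = 1 ↔ (t : G) ∈ centralizer (D : Set G) := by
    intro t
    rw [mem_centralizer_iff]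
    constructor
    · intro h d hd
      have h2 : actD D T hTD t ⟨d, hd⟩ = ⟨d, hd⟩ := by rw [h]; rfl
      have h3 : (t : G) * d * (t : G)⁻¹ = d := congrArg Subtype.val h2
      calc d * (t : G) = (t : G) * d * (t : G)⁻¹ * t := by rw [h3]
        _ = t * d := by group
    · intro h
      refine MulEquiv.ext fun d => Subtype.ext ?_
      change (t : G) * d * (t : G)⁻¹ = d
      rw [← h d d.2, mul_inv_cancel_right]
  have hM : ∀ α ∈ (actD D T hTD).range, ∀ β ∈ (actD D T hTD).range, α * β = β * α := by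
    rintro _ ⟨s, rfl⟩ _ ⟨t, rfl⟩
    have h1 : actD D T hTD (s * t * s⁻¹ * t⁻¹) = 1 := (hone _).2 (hTab s s.2 t t.2)
    rw [map_mul, map_mul, map_mul, map_inv, map_inv] at h1
    have h2 := mul_inv_eq_one.1 h1
    exact mul_inv_eq_iff_eq_mul.1 h2
  have hN : ¬ p ∣ Nat.card (actD D T hTD).range := by rw [card_range_actD]; exact hT
  have hf : ∀ α ∈ (actD D T hTD).range, (∀ x : D, ∃ d : D, α x * x⁻¹ = d ^ p) → α = 1 := by
    rintro _ ⟨t, rfl⟩ h
    refine (hone t).2 (centralises_of_frattini hD hab hTN hT t.2 fun x hx => ?_)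
    obtain ⟨d, hd⟩ := h ⟨x, hx⟩
    exact ⟨d, d.2, (congrArg Subtype.val hd).symm⟩
  obtain ⟨x, hxD, hx⟩ := hq
  obtain ⟨w, hw, hreg⟩ := exists_reg_abs hp.out (actD D T hTD).range hM hN
    (fun x : D => Subtype.ext (hexp x x.2)) (q := q)
    ⟨⟨x, hxD⟩, fun h => hx (congrArg Subtype.val h)⟩ hf
  refine ⟨w, w.2, fun h => hw (Subtype.ext h), ?_⟩
  rintro n hn ⟨d, hd, e⟩
  exact (hone ⟨n, hn⟩).1 (hreg _ ⟨⟨n, hn⟩, rfl⟩ ⟨⟨d, hd⟩, Subtype.ext e⟩)

omit [Finite G] in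
/-- the order of an element of maximal order modulo the `p ^ j`-th powers -/
theorem dvd_of_max {m j i : ℕ} (hj : j ≤ m + 1) (hexp : ∀ x ∈ D, x ^ p ^ (m + 1) = 1) {w : G}
    (hw : w ∈ D) (hwm : w ^ p ^ m ≠ 1) (h : ∃ d ∈ D, w ^ i = d ^ p ^ j) : p ^ j ∣ i := by
  obtain ⟨d, hd, e⟩ := h
  have h1 : orderOf w = p ^ (m + 1) := orderOf_eq_prime_pow hwm (hexp w hw)
  obtain ⟨c, hc⟩ := Nat.exists_eq_add_of_le hj
  have h2 : w ^ (i * p ^ c) = 1 := by
    rw [pow_mul, e, ← pow_mul, ← pow_add, ← hc]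
    exact hexp d hd
  have h3 := orderOf_dvd_of_pow_eq_one h2
  rw [h1, hc, pow_add] at h3
  exact Nat.dvd_of_mul_dvd_mul_right (pow_pos hp.out.pos c) h3

/-- the exponent of a nontrivial abelian `p`-group -/
theorem exists_exp (hD : IsPGroup p D) {a : ℕ} (h : ∃ d ∈ D, d ^ p ^ a ≠ 1) :
    ∃ m, a ≤ m ∧ (∀ x ∈ D, x ^ p ^ (m + 1) = 1) ∧ ∃ x ∈ D, x ^ p ^ m ≠ 1 := by
  classical
  obtain ⟨M, hM⟩ := IsPGroup.iff_card.1 hD
  have h1 : ∃ M, ∀ x ∈ D, x ^ p ^ M = 1 := by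
    refine ⟨M, fun x hx => ?_⟩
    have h2 : (⟨x, hx⟩ : D) ^ Nat.card D = 1 := pow_card_eq_one'
    rw [hM] at h2
    exact congrArg Subtype.val h2
  have hmono : ∀ {i j : ℕ}, i ≤ j → ∀ x : G, x ^ p ^ i = 1 → x ^ p ^ j = 1 := by
    intro i j hij x hx
    obtain ⟨c, rfl⟩ := Nat.exists_eq_add_of_le hij
    rw [pow_add, pow_mul, hx, one_pow]
  have ha : a < Nat.find h1 := by
    by_contra hcon
    obtain ⟨d, hd, hda⟩ := h
    exact hda (hmono (not_lt.1 hcon) d (Nat.find_spec h1 d hd))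
  refine ⟨Nat.find h1 - 1, by omega, ?_, ?_⟩
  · rw [Nat.sub_add_cancel (by omega)]
    exact Nat.find_spec h1
  · have h2 := Nat.find_min h1 (m := Nat.find h1 - 1) (by omega)
    push Not at h2
    exact h2

/-- **(a)** regular elements of maximal order modulo the `p ^ j`-th powers, for all `j` -/
theorem exists_regAb' (hD : IsPGroup p D) (hab : ∀ a ∈ D, ∀ b ∈ D, a * b = b * a)
    (hTN : T ≤ normalizer (D : Set G)) (hT : ¬ p ∣ (centralizer (D : Set G)).relIndex T)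
    (hTab : ∀ s ∈ T, ∀ t ∈ T, s * t * s⁻¹ * t⁻¹ ∈ centralizer (D : Set G)) {a : ℕ}
    (ha : ∃ x ∈ D, x ^ p ^ a ≠ 1) :
    ∃ w ∈ D, (∀ n ∈ T, (∃ d ∈ D, n * w * n⁻¹ * w⁻¹ = d ^ p) → n ∈ centralizer (D : Set G)) ∧
      ∀ j ≤ a + 1, ∀ i : ℕ, (∃ d ∈ D, w ^ i = d ^ p ^ j) → p ^ j ∣ i := by
  obtain ⟨m, ham, hexp, hm⟩ := exists_exp hD ha
  obtain ⟨w, hw, hwm, hreg⟩ := exists_regAb hD hab hTN hT hTab (q := p ^ m)
    (fun x hx => by rw [← pow_succ']; exact hexp x hx) hm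
  exact ⟨w, hw, hreg, fun j hj i hi => dvd_of_max (by omega) hexp hw hwm hi⟩

omit hp in
/-- **(b)** the number of regular elements -/
theorem relIndex_mul_le (hab : ∀ a ∈ D, ∀ b ∈ D, a * b = b * a)
    (hTN : T ≤ normalizer (D : Set G)) {r : ℕ}
    (hr : Nat.card {x : G // x ∈ D ∧ x ^ p = 1} = p ^ r) {w : G} (hw : w ∈ D)
    (hreg : ∀ n ∈ T, (∃ d ∈ D, n * w * n⁻¹ * w⁻¹ = d ^ p) → n ∈ centralizer (D : Set G)) :
    (centralizer (D : Set G)).relIndex T * Nat.card D ≤ p ^ r *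
      Nat.card {u : G // u ∈ D ∧ ∀ n ∈ T, n * u * n⁻¹ = u → n ∈ centralizer (D : Set G)} := by
  have h1 := P179H666.orbit_count hab hTN hw hreg
  have h2 : Nat.card D = Nat.card {y : G // ∃ d ∈ D, d ^ p = y} * p ^ r := by
    have h3 := card_eq_mul hab p
    have h4 : Nat.card (omS hab p) = Nat.card {x : G // x ∈ D ∧ x ^ p = 1} := rfl
    rw [h4, hr] at h3
    exact h3
  rw [h2, ← mul_assoc, mul_comm (p ^ r)]
  exact Nat.mul_le_mul_right _ h1

omit hp in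
/-- **(b)** `|T / C_T(D)| ≤ p ^ r` -/
theorem relIndex_le (hab : ∀ a ∈ D, ∀ b ∈ D, a * b = b * a)
    (hTN : T ≤ normalizer (D : Set G)) {r : ℕ}
    (hr : Nat.card {x : G // x ∈ D ∧ x ^ p = 1} = p ^ r) {w : G} (hw : w ∈ D)
    (hreg : ∀ n ∈ T, (∃ d ∈ D, n * w * n⁻¹ * w⁻¹ = d ^ p) → n ∈ centralizer (D : Set G)) :
    (centralizer (D : Set G)).relIndex T ≤ p ^ r := by
  have h1 := relIndex_mul_le hab hTN hr hw hreg
  have h2 : Nat.card {u : G // u ∈ D ∧ ∀ n ∈ T, n * u * n⁻¹ = u →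
      n ∈ centralizer (D : Set G)} ≤ Nat.card D :=
    Nat.card_le_card_of_injective (fun u => (⟨u.1, u.2.1⟩ : D))
      fun u v h => Subtype.ext (congrArg (fun x : D => (x : G)) h)
  exact Nat.le_of_mul_le_mul_right (h1.trans (Nat.mul_le_mul_left _ h2)) Nat.card_pos

end Trans

section Strict

variable {G : Type*} [Group G] [Finite G] {D T : Subgroup G} {p : ℕ} [hp : Fact p.Prime]

omit hp in
/-- the orbit of an element which is regular modulo the `q`-th powers, in the strict form -/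
theorem orbit_count_lt (hab : ∀ a ∈ D, ∀ b ∈ D, a * b = b * a)
    (hS : T ≤ normalizer (D : Set G)) {q M : ℕ} {w : G} (hw : w ∈ D)
    (hreg : ∀ t ∈ T, (∃ d ∈ D, t * w * t⁻¹ * w⁻¹ = d ^ q) → t ∈ centralizer (D : Set G))
    (hexp : ∀ x ∈ D, x ^ (q * M) = 1) (hwM : w ^ M ≠ 1) {w' : G} (hw' : w' ∈ D)
    (hreg' : ∀ t ∈ T, t * w' * t⁻¹ = w' → t ∈ centralizer (D : Set G)) (hwM' : w' ^ M = 1) :
    (centralizer (D : Set G)).relIndex T * Nat.card {y : G // ∃ d ∈ D, d ^ q = y} <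
      Nat.card {x : G // x ∈ D ∧ ∀ t ∈ T, t * x * t⁻¹ = x → t ∈ centralizer (D : Set G)} := by
  set C : Subgroup G := centralizer (D : Set G) with hC
  have hnC : ∀ t ∈ T, ∀ c ∈ C, t * c * t⁻¹ ∈ C := fun t ht c hc =>
    P179B.conj_mem_centralizer_of_mem_normalizer (hS ht) hc
  have hSD : ∀ t ∈ T, ∀ d ∈ D, t * d * t⁻¹ ∈ D := fun t ht d hd =>
    (mem_normalizer_iff.1 (hS ht) d).1 hd
  have key : ∀ s ∈ T, ∀ t ∈ T, (∃ d ∈ D, s * w * s⁻¹ * (t * w * t⁻¹)⁻¹ = d ^ q) → t⁻¹ * s ∈ C := by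
    rintro s hs t ht ⟨d, hd, e⟩
    refine hreg (t⁻¹ * s) (mul_mem (inv_mem ht) hs) ⟨t⁻¹ * d * t⁻¹⁻¹, hSD _ (inv_mem ht) d hd, ?_⟩
    rw [conj_pow, ← e]
    group
  have hcard : C.relIndex T * Nat.card {y : G // ∃ d ∈ D, d ^ q = y} =
      Nat.card ((T ⧸ C.subgroupOf T) × {y : G // ∃ d ∈ D, d ^ q = y}) := by
    rw [Nat.card_prod]
    rfl
  rw [hcard]
  have hlt : Nat.card {x : G // (x ∈ D ∧ ∀ t ∈ T, t * x * t⁻¹ = x → t ∈ C) ∧ x ^ M ≠ 1} <
      Nat.card {x : G // x ∈ D ∧ ∀ t ∈ T, t * x * t⁻¹ = x → t ∈ C} := by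
    have h1 : {x : G | (x ∈ D ∧ ∀ t ∈ T, t * x * t⁻¹ = x → t ∈ C) ∧ x ^ M ≠ 1} ⊂
        {x : G | x ∈ D ∧ ∀ t ∈ T, t * x * t⁻¹ = x → t ∈ C} :=
      ⟨fun x hx => hx.1, fun h => (h ⟨hw', hreg'⟩ : _ ∧ _).2 hwM'⟩
    exact Set.ncard_lt_ncard h1 (Set.toFinite _)
  refine lt_of_le_of_lt ?_ hlt
  refine Nat.card_le_card_of_injective (fun z : (T ⧸ C.subgroupOf T) × {y : G // ∃ d ∈ D, d ^ q = y} =>
    (⟨(z.1.out : G) * w * (z.1.out : G)⁻¹ * z.2.1, ⟨?_, ?_⟩, ?_⟩ :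
      {x : G // (x ∈ D ∧ ∀ t ∈ T, t * x * t⁻¹ = x → t ∈ C) ∧ x ^ M ≠ 1})) ?_
  · obtain ⟨d, hd, e⟩ := z.2.2
    rw [← e]
    exact mul_mem (hSD _ z.1.out.2 w hw) (pow_mem hd q)
  · intro t ht htx
    obtain ⟨d, hd, e⟩ := z.2.2
    set c : G := (z.1.out : G) with hc
    have hcS : c ∈ T := z.1.out.2
    have h1 : c⁻¹ * (t * c) ∈ C := by
      refine key (t * c) (mul_mem ht hcS) c hcS
        ⟨d * (t * d * t⁻¹)⁻¹, mul_mem hd (inv_mem (hSD t ht d hd)), ?_⟩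
      rw [← e] at htx
      have h2 : Commute d (t * d * t⁻¹)⁻¹ := hab _ hd _ (inv_mem (hSD t ht d hd))
      rw [h2.mul_pow, inv_pow, conj_pow]
      have h3 : t * c * w * (t * c)⁻¹ = c * w * c⁻¹ * d ^ q * (t * d ^ q * t⁻¹)⁻¹ := by
        rw [← htx]
        group
      rw [h3]
      have h4 : c * w * c⁻¹ ∈ D := hSD c hcS w hw
      have h5 : d ^ q * (t * d ^ q * t⁻¹)⁻¹ ∈ D :=
        mul_mem (pow_mem hd q) (inv_mem (hSD t ht _ (pow_mem hd q)))
      calc c * w * c⁻¹ * d ^ q * (t * d ^ q * t⁻¹)⁻¹ * (c * w * c⁻¹)⁻¹ =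
          (c * w * c⁻¹) * (d ^ q * (t * d ^ q * t⁻¹)⁻¹) * (c * w * c⁻¹)⁻¹ := by group
        _ = (d ^ q * (t * d ^ q * t⁻¹)⁻¹) * (c * w * c⁻¹) * (c * w * c⁻¹)⁻¹ := by
          rw [hab _ h4 _ h5]
        _ = _ := by group
    have h2 := hnC c hcS _ h1
    have h3 : c * (c⁻¹ * (t * c)) * c⁻¹ = t := by group
    rwa [h3] at h2
  · intro h
    obtain ⟨d, hd, e⟩ := z.2.2
    set c : G := (z.1.out : G) with hc
    have hcS : c ∈ T := z.1.out.2
    rw [← e] at h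
    have h4 : c * w * c⁻¹ ∈ D := hSD c hcS w hw
    have h5 : Commute (c * w * c⁻¹) (d ^ q) := hab _ h4 _ (pow_mem hd q)
    rw [h5.mul_pow, ← pow_mul, hexp d hd, mul_one, conj_pow] at h
    refine hwM ?_
    calc w ^ M = c⁻¹ * (c * w ^ M * c⁻¹) * c := by group
      _ = 1 := by rw [h]; group
  · intro z z' hzz
    have e := congrArg (fun x : {x : G // (x ∈ D ∧ ∀ t ∈ T, t * x * t⁻¹ = x → t ∈ C) ∧
      x ^ M ≠ 1} => x.1) hzz
    obtain ⟨d, hd, ed⟩ := z.2.2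
    obtain ⟨d', hd', ed'⟩ := z'.2.2
    have e1 : (z.1.out : G) * w * (z.1.out : G)⁻¹ * z.2.1 =
        (z'.1.out : G) * w * (z'.1.out : G)⁻¹ * z'.2.1 := e
    have h1 : ((z'.1.out : G))⁻¹ * (z.1.out : G) ∈ C := by
      refine key _ z.1.out.2 _ z'.1.out.2 ⟨d' * d⁻¹, mul_mem hd' (inv_mem hd), ?_⟩
      have h2 : Commute d' d⁻¹ := hab _ hd' _ (inv_mem hd)
      rw [h2.mul_pow, inv_pow, ed, ed']
      have h3 : (z.1.out : G) * w * (z.1.out : G)⁻¹ =
          (z'.1.out : G) * w * (z'.1.out : G)⁻¹ * z'.2.1 * z.2.1⁻¹ := by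
        rw [← e1]; group
      rw [h3]
      have h4 : (z'.1.out : G) * w * (z'.1.out : G)⁻¹ ∈ D := hSD _ z'.1.out.2 w hw
      have h5 : z'.2.1 * z.2.1⁻¹ ∈ D := by
        rw [← ed, ← ed']
        exact mul_mem (pow_mem hd' q) (inv_mem (pow_mem hd q))
      calc (z'.1.out : G) * w * (z'.1.out : G)⁻¹ * z'.2.1 * z.2.1⁻¹ *
            ((z'.1.out : G) * w * (z'.1.out : G)⁻¹)⁻¹ =
          ((z'.1.out : G) * w * (z'.1.out : G)⁻¹) * (z'.2.1 * z.2.1⁻¹) *
            ((z'.1.out : G) * w * (z'.1.out : G)⁻¹)⁻¹ := by group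
        _ = (z'.2.1 * z.2.1⁻¹) * ((z'.1.out : G) * w * (z'.1.out : G)⁻¹) *
            ((z'.1.out : G) * w * (z'.1.out : G)⁻¹)⁻¹ := by rw [hab _ h4 _ h5]
        _ = _ := by group
    have h2 : z.1 = z'.1 := by
      rw [← QuotientGroup.out_eq' z.1, ← QuotientGroup.out_eq' z'.1]
      symm
      rw [QuotientGroup.eq, mem_subgroupOf]
      exact h1
    refine Prod.ext h2 (Subtype.ext ?_)
    rw [h2] at e1
    exact mul_left_cancel e1

/-- an element which is regular in the ordinary sense and not of maximal order -/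
theorem exists_reg_low (hD : IsPGroup p D) (hab : ∀ a ∈ D, ∀ b ∈ D, a * b = b * a)
    (hTN : T ≤ normalizer (D : Set G)) (hT : ¬ p ∣ (centralizer (D : Set G)).relIndex T)
    (hTab : ∀ s ∈ T, ∀ t ∈ T, s * t * s⁻¹ * t⁻¹ ∈ centralizer (D : Set G)) {m : ℕ} (hm : 1 ≤ m)
    (hq : ∃ x ∈ D, x ^ p ^ m ≠ 1) :
    ∃ w ∈ D, w ^ p ^ m = 1 ∧ ∀ n ∈ T, n * w * n⁻¹ = w → n ∈ centralizer (D : Set G) := by
  set O : Subgroup G := omS hab (p ^ m) with hO
  have hOD : O ≤ D := fun x hx => hx.1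
  have hCC : centralizer (D : Set G) ≤ centralizer (O : Set G) :=
    centralizer_le (fun x hx => hOD hx)
  have hOp : IsPGroup p O := hD.to_le hOD
  have habO : ∀ a ∈ O, ∀ b ∈ O, a * b = b * a := fun a ha b hb => hab a (hOD ha) b (hOD hb)
  have hconj : ∀ t ∈ T, ∀ x ∈ O, t * x * t⁻¹ ∈ O := by
    rintro t ht x ⟨hx, hx1⟩
    refine ⟨(mem_normalizer_iff.1 (hTN ht) x).1 hx, ?_⟩
    rw [conj_pow, hx1]
    group
  have hTO : T ≤ normalizer (O : Set G) := by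
    intro t ht
    rw [mem_normalizer_iff]
    intro x
    refine ⟨fun hx => hconj t ht x hx, fun hx => ?_⟩
    have h1 := hconj t⁻¹ (inv_mem ht) _ hx
    have e : t⁻¹ * (t * x * t⁻¹) * t⁻¹⁻¹ = x := by group
    rwa [e] at h1
  have hT' : ¬ p ∣ (centralizer (O : Set G)).relIndex T := fun h =>
    hT (h.trans (Subgroup.relIndex_dvd_of_le_left T hCC))
  obtain ⟨m', rfl⟩ : ∃ m', m = m' + 1 := ⟨m - 1, by omega⟩
  obtain ⟨M, hm'M, hexpD, x, hx, hxm⟩ := exists_exp hD hq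
  have hq' : ∃ y ∈ O, y ^ p ^ m' ≠ 1 := by
    obtain ⟨c, hc⟩ := Nat.exists_eq_add_of_le hm'M
    refine ⟨x ^ p ^ (c + 1), ⟨pow_mem hx _, ?_⟩, ?_⟩
    · rw [← pow_mul, ← pow_add]
      have e : c + 1 + (m' + 1) = M + 1 := by omega
      rw [e]
      exact hexpD x hx
    · rw [← pow_mul, ← pow_add]
      have e : c + 1 + m' = M := by omega
      rw [e]
      exact hxm
  obtain ⟨w, hw, -, hreg⟩ := exists_regAb (q := p ^ m') hOp habO hTO hT'
    (fun s hs t ht => hCC (hTab s hs t ht))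
    (fun y hy => by rw [← pow_succ']; exact hy.2) hq'
  refine ⟨w, hw.1, hw.2, fun n hn hnw => ?_⟩
  have h1 : n ∈ centralizer (O : Set G) := by
    refine hreg n hn ⟨1, one_mem _, ?_⟩
    rw [hnw, mul_inv_cancel, one_pow]
  refine centralises_of_omega hab hD (hTN hn) hT
    (P179H725.pow_relIndex_mem (P179H725.subgroupOf_centralizer_normal hTN) hn) fun y hy => ?_
  have h2 := mem_centralizer_iff.1 h1 y ⟨hy.1, by
    rw [pow_succ', pow_mul, hy.2, one_pow]⟩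
  rw [← h2, mul_inv_cancel_right]

/-- **(b)** the number of regular elements, in the strict form -/
theorem relIndex_mul_lt (hD : IsPGroup p D) (hab : ∀ a ∈ D, ∀ b ∈ D, a * b = b * a)
    (hTN : T ≤ normalizer (D : Set G)) (hT : ¬ p ∣ (centralizer (D : Set G)).relIndex T)
    (hTab : ∀ s ∈ T, ∀ t ∈ T, s * t * s⁻¹ * t⁻¹ ∈ centralizer (D : Set G)) {r : ℕ}
    (hr : Nat.card {x : G // x ∈ D ∧ x ^ p = 1} = p ^ r) (hx : ∃ x ∈ D, x ^ p ≠ 1) :
    (centralizer (D : Set G)).relIndex T * Nat.card D < p ^ r *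
      Nat.card {u : G // u ∈ D ∧ ∀ n ∈ T, n * u * n⁻¹ = u → n ∈ centralizer (D : Set G)} := by
  obtain ⟨m, hm1, hexp, hm⟩ := exists_exp (a := 1) hD (by simpa only [pow_one] using hx)
  obtain ⟨w, hw, hwm, hreg⟩ := exists_regAb hD hab hTN hT hTab (q := p ^ m)
    (fun x hx => by rw [← pow_succ']; exact hexp x hx) hm
  obtain ⟨w', hw', hwm', hreg'⟩ := exists_reg_low hD hab hTN hT hTab hm1 hm
  have h1 := orbit_count_lt hab hTN hw hreg (M := p ^ m)
    (fun x hx => by rw [← pow_succ']; exact hexp x hx) hwm hw' hreg' hwm'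
  have h2 : Nat.card D = Nat.card {y : G // ∃ d ∈ D, d ^ p = y} * p ^ r := by
    have h3 := card_eq_mul hab p
    have h4 : Nat.card (omS hab p) = Nat.card {x : G // x ∈ D ∧ x ^ p = 1} := rfl
    rw [h4, hr] at h3
    exact h3
  rw [h2, ← mul_assoc, mul_comm (p ^ r)]
  exact Nat.mul_lt_mul_of_pos_right h1 (pow_pos hp.out.pos r)

end Strict

end P179H450
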