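import Vale.Agent.P179.R2.H12.Small
import Vale.Agent.P179.R2.H292.Mass2
import Vale.Agent.P179.R2.H843.NonReg

/-!
# The equality for `e + 1 < p`, if all cyclic factors are large enough

The bound for the number of simple modules from all regular elements, and the class of the groups
with large cyclic factors and small groups of automorphisms.
-/

namespace P179H450

open Subgroup P179H524 P179R P179Y MonoidAlgebra P179H292 P179H92 P179H351 P179H666

open P179B (inertialGroup inertialIndex regularElements GrowBy)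

open scoped Classical

universe u

/-- the bound from all regular elements is at most `p ^ m` -/
def MassNum (p m : ℕ) (P : ℕ → Prop) : Prop :=
  ∀ e q w l : ℕ, 1 ≤ e → e + 1 < p → P e → 0 < q → w ≤ q → p ^ m * (q - w) ≤ (e - 1) * q →
    (e * q < (p - 1) * w → l * ((p - 1) * w - q * e) ^ 2 ≤ (p - 2) ^ 2 * (q * e * w)) → l ≤ p ^ m

/-- `T` induces a group of automorphisms of order `e < p - 1` on `D`, and all cyclic factors of
`D` are at least `p ^ m` -/
def ClMass (p m : ℕ) (P : ℕ → Prop) {X : Type*} [Group X] (D T : Subgroup X) : Prop :=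
  T ≤ normalizer (D : Set X) ∧ (centralizer (D : Set X)).relIndex T ≠ 0 ∧
    (centralizer (D : Set X)).relIndex T + 1 < p ∧ P ((centralizer (D : Set X)).relIndex T) ∧
    GrowBy (fun _ => m) p D

section

variable {p : ℕ} [hp : Fact p.Prime] {k : Type u} [Field k] [IsAlgClosed k] [CharP k p]
  (red : integralClosure ℤ ℂ →+* k)

include red in
/-- the bound from all regular elements -/
theorem boundHere_mass (hp2 : p ≠ 2) {G : Type} [Group G] [Finite G] {D T : Subgroup G}
    (hab : ∀ x ∈ D, ∀ y ∈ D, x * y = y * x) (hD : IsPGroup p D)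
    (hTN : T ≤ normalizer (D : Set G)) (hT : ¬ p ∣ (centralizer (D : Set G)).relIndex T) {m : ℕ}
    {P : ℕ → Prop} (hnum : MassNum p m P) (hP : P ((centralizer (D : Set G)).relIndex T))
    (he2 : 2 ≤ (centralizer (D : Set G)).relIndex T)
    (he : (centralizer (D : Set G)).relIndex T + 1 < p) (hG : GrowBy (fun _ => m) p D) :
    BoundHere k D T (p ^ m) := by
  intro B β hB hDB hβ hβB hTT
  have h1 := P179H843.nonreg_card hD hab hTN hT hG
  set e := (centralizer (D : Set G)).relIndex T with hedef
  have hE : inertialIndex D β = e := by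
    rw [hedef, ← hTT]
    rfl
  have hset : {u : G | u ∈ regularElements D β ∧ u ≠ 1} =
      {u : G | u ∈ D ∧ ∀ n ∈ T, n * u * n⁻¹ = u → n ∈ centralizer (D : Set G)} := by
    rw [← hTT]
    ext u
    constructor
    · rintro ⟨hu, -⟩
      exact hu
    · intro hu
      refine ⟨hu, ?_⟩
      rintro rfl
      have h2 : T ≤ centralizer (D : Set G) := by
        intro n hn
        refine hu.2 n (by rw [hTT]; exact hn) ?_
        rw [mul_one, mul_inv_cancel]
      have h3 := relIndex_eq_one.2 h2
      omega
  have hreg : Nat.card {u : G // u ∈ regularElements D β ∧ u ≠ 1} =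
      Nat.card {u : G // u ∈ D ∧ ∀ n ∈ T, n * u * n⁻¹ = u → n ∈ centralizer (D : Set G)} := by
    change Nat.card ({u : G | u ∈ regularElements D β ∧ u ≠ 1} : Set G) = _
    rw [hset]
    rfl
  have h2 := bound_mass red hB hDB hab hβ hβB hp2 (by rw [hE]; exact he)
  rw [hE, hreg] at h2
  refine hnum e (Nat.card D) _ _ (by omega) he hP Nat.card_pos
    (Nat.card_mono (Set.toFinite (D : Set G)) fun u hu => hu.1) h1 fun h => h2 ?_
  rw [mul_comm]
  exact h

/-- trivial action -/
theorem eqForAct_of_relIndex_one (hp2 : 2 < p) {G : Type} [Group G] {D T : Subgroup G}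
    (hTN : T ≤ normalizer (D : Set G)) (h : (centralizer (D : Set G)).relIndex T = 1) :
    EqForAct p red D T := by
  intro X _ _ B D' β hB hD' hab hβ hβB hact
  have := Fintype.ofFinite X
  have hK : ∀ t ∈ T, ∀ x ∈ D, t * x * t⁻¹ ∈ D := fun t ht x hx =>
    (mem_normalizer_iff.1 (hTN ht) x).1 hx
  have h1 := (P179H12.relIndex_act' hK hact (by rw [h]; exact one_ne_zero)).2
  rw [h] at h1
  have h2 : 2 * inertialIndex D' β ≤ p := by
    have h3 : inertialIndex D' β ≤ 1 := h1
    omega
  exact P179I.equality_half red hB hD' hab hβ hβB h2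

/-- **the class satisfies the hypotheses of the induction** -/
theorem solvClassN_mass (hp2 : 2 < p) {m : ℕ} (hm : 1 ≤ m) {P : ℕ → Prop}
    (hPm : ∀ e e' : ℕ, e' ≤ e → P e → P e') (hnum : MassNum p m P) :
    SolvClassN p red (fun (X : Type) [Group X] (D T : Subgroup X) => ClMass p m P D T) := by
  have hp2' : p ≠ 2 := by omega
  constructor
  · rintro X Y _ _ K T D' T' h ⟨hN, h0, he, hPe, hG⟩
    have hK : ∀ t ∈ T, ∀ x ∈ K, t * x * t⁻¹ ∈ K := fun t ht x hx =>
      (mem_normalizer_iff.1 (hN ht) x).1 hx
    obtain ⟨h1, h2⟩ := P179H12.relIndex_act' hK h h0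
    refine ⟨?_, h1, (Nat.add_le_add_right h2 1).trans_lt he, hPm _ _ h2 hPe, ?_⟩
    · obtain ⟨e, hact⟩ := h
      have hconj : ∀ t' ∈ T', ∀ d ∈ D', t' * d * t'⁻¹ ∈ D' := by
        intro t' ht' d hd
        obtain ⟨t, ht, h3⟩ := hact t' ht'
        have h4 := h3 (e.symm ⟨d, hd⟩) ⟨t * (e.symm ⟨d, hd⟩ : K) * t⁻¹, hK t ht _
          (e.symm ⟨d, hd⟩).2⟩ rfl
        rw [e.apply_symm_apply] at h4
        rw [← h4]
        exact (e _).2
      intro t ht
      rw [mem_normalizer_iff]
      intro x
      refine ⟨fun hx => hconj t ht x hx, fun hx => ?_⟩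
      have h3 := hconj t⁻¹ (inv_mem ht) _ hx
      have e1 : t⁻¹ * (t * x * t⁻¹) * t⁻¹⁻¹ = x := by group
      rwa [e1] at h3
    · obtain ⟨e, -⟩ := h
      exact growBy_equiv e hG
  · rintro X _ _ D T ⟨hN, h0, he, hPe, hG⟩ hab hD hTN hCT hT
    obtain ⟨r, hr⟩ := exists_rank hab hD
    have hEq : EqFor p red D → EqForAct p red D T := fun h Y _ _ B D' β hB hD' _ _ _ hact =>
      h Y B D' hB hD' ⟨hact.choose⟩
    rcases Nat.lt_or_ge r 1 with h1 | h1
    · left
      exact hEq (eqFor_largeRank red hp2' hab (largeRank_of_le_one (by omega) hr))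
    · by_cases he1 : (centralizer (D : Set X)).relIndex T = 1
      · exact Or.inl (eqForAct_of_relIndex_one red hp2 hTN he1)
      · right
        have hm' : m - 1 + 1 = m := by omega
        refine ⟨m - 1, exists_pow_of_growBy h1 hr hG, ?_, ?_, ?_⟩
        · rw [hm']
          calc (centralizer (D : Set X)).relIndex T ≤ p := by omega
            _ = p ^ 1 := (pow_one p).symm
            _ ≤ p ^ m := Nat.pow_le_pow_right hp.out.pos hm
        · rw [hm']
          exact boundHere_mass red hp2' hab hD hTN hT hnum hPe (by omega) he hG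
        · intro F hFT hCF M hMD hM1 hMa hFM hFC
          have hfac := isFactor_comm hD hab hTN hT hFT
          have hle : centralizer (D : Set X) ≤ centralizer ((⁅F, D⁆ : Subgroup X) : Set X) :=
            centralizer_le fun x hx => hfac.1 hx
          have h2 : (centralizer (D : Set X)).relIndex
              (T ⊓ normalizer ((⁅F, D⁆ : Subgroup X) : Set X)) ≤
              (centralizer (D : Set X)).relIndex T :=
            Nat.le_of_dvd (Nat.pos_of_ne_zero h0) (relIndex_dvd' hTN inf_le_left)
          have h3 : (centralizer (D : Set X)).relIndex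
              (T ⊓ normalizer ((⁅F, D⁆ : Subgroup X) : Set X)) ≠ 0 := P179H12.rel_ne_zero _ _
          have h4 := relIndex_le_of_le_left hle h3
          exact ⟨inf_le_right, (P179H12.rel_ne_zero _ _),
            (Nat.add_le_add_right (h4.trans h2) 1).trans_lt he, hPm _ _ (h4.trans h2) hPe,
            growBy_factor hab hG hfac⟩

/-- **the equality for `e + 1 < p` and large cyclic factors** -/
theorem eqForAct_of_mass (hE : P179H443.EqwStmt p k) (hp2 : 2 < p) {m : ℕ} (hm : 1 ≤ m)
    {P : ℕ → Prop} (hPm : ∀ e e' : ℕ, e' ≤ e → P e → P e') (hnum : MassNum p m P) {G : Type}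
    [Group G] [Finite G] {K S : Subgroup G} (hS : S ≤ normalizer (K : Set G))
    (he : (centralizer (K : Set G)).relIndex S + 1 < p)
    (hP : P ((centralizer (K : Set G)).relIndex S)) (hK : GrowBy (fun _ => m) p K) :
    EqForAct p red K S :=
  eqForAct_of_classN red hE (solvClassN_mass red hp2 hm hPm hnum) _ G K S rfl
    ⟨hS, (P179H12.rel_ne_zero _ _), he, hP, hK⟩

end

end P179H450
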