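import Mathlib

/-!
# Integer coherence
-/

namespace P179H450

open Finset

open scoped Classical

section Coh1

variable {X ι : Type*} [Fintype X] [Fintype ι]

/-- integer vectors of norm two -/
theorem norm_two {d : X → ℤ} (h : ∑ x, d x ^ 2 = 2) :
    (∀ x, d x ≠ 0 → d x = 1 ∨ d x = -1) ∧ (univ.filter fun x => d x ≠ 0).card = 2 := by
  have h1 : ∀ x, d x ^ 2 ≤ 2 := fun x => by
    rw [← h]
    exact Finset.single_le_sum (f := fun x => d x ^ 2) (fun _ _ => sq_nonneg _) (mem_univ x)
  have h2 : ∀ x, d x ≠ 0 → d x = 1 ∨ d x = -1 := by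
    intro x hx
    have h3 := h1 x
    have h4 : d x < 2 := by nlinarith
    have h5 : -2 < d x := by nlinarith
    omega
  refine ⟨h2, ?_⟩
  have h3 : ∑ x, d x ^ 2 = ∑ x, if d x ≠ 0 then (1 : ℤ) else 0 := by
    refine Finset.sum_congr rfl fun x _ => ?_
    split_ifs with hx
    · rcases h2 x hx with h | h <;> rw [h] <;> norm_num
    · rw [not_not.1 hx]; norm_num
  rw [h3, ← Finset.sum_filter, Finset.sum_const, nsmul_eq_mul, mul_one] at h
  exact_mod_cast h

theorem coherence (s : ℕ) (c : ι → X → ℤ)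
    (hG : ∀ i j, ∑ x, c i x * c j x = (if i = j then 1 else 0) + s)
    (hm : s + 2 ≤ Fintype.card ι) (h3 : 3 ≤ Fintype.card ι) (g : X → ℝ) (hg : ∀ x, 0 < g x)
    (hgc : ∀ i, ∑ x, (c i x : ℝ) * g x = 0) :
    ∃ (e : ℤ) (χ : ι → X) (Ψ : X → ℤ), (e = 1 ∨ e = -1) ∧ Function.Injective χ ∧
      (∀ i x, c i x = (if x = χ i then e else 0) - Ψ x) ∧ (∀ i, Ψ (χ i) = 0) ∧
      ∑ x, Ψ x ^ 2 = s := by
  -- differences
  have hd : ∀ i j, i ≠ j → ∑ x, (c i x - c j x) ^ 2 = 2 := by
    intro i j hij
    have e1 : ∑ x, (c i x - c j x) ^ 2 = ∑ x, c i x * c i x - 2 * ∑ x, c i x * c j x +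
        ∑ x, c j x * c j x := by
      rw [Finset.mul_sum, ← Finset.sum_sub_distrib, ← Finset.sum_add_distrib]
      exact Finset.sum_congr rfl fun x _ => by ring
    rw [e1, hG, hG, hG, if_pos rfl, if_neg hij, if_pos rfl]
    ring
  have hd2 : ∀ i j k, i ≠ j → i ≠ k → j ≠ k → ∑ x, (c i x - c j x) * (c i x - c k x) = 1 := by
    intro i j k hij hik hjk
    have e1 : ∑ x, (c i x - c j x) * (c i x - c k x) = ∑ x, c i x * c i x -
        ∑ x, c i x * c k x - ∑ x, c i x * c j x + ∑ x, c j x * c k x := by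
      rw [← Finset.sum_sub_distrib, ← Finset.sum_sub_distrib, ← Finset.sum_add_distrib]
      exact Finset.sum_congr rfl fun x _ => by ring
    rw [e1, hG, hG, hG, hG, if_pos rfl, if_neg hij, if_neg hik, if_neg hjk]
    ring
  set N : ι → ι → Finset X := fun i j => univ.filter fun x => c i x ≠ c j x with hN
  have hmemN : ∀ i j x, x ∈ N i j ↔ c i x ≠ c j x := fun i j x => by
    simp [hN]
  have hcard : ∀ i j, i ≠ j → (N i j).card = 2 := by
    intro i j hij
    have h1 := (norm_two (hd i j hij)).2
    have e1 : N i j = univ.filter fun x => c i x - c j x ≠ 0 := by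
      ext x
      rw [hmemN, mem_filter, sub_ne_zero]
      exact (and_iff_right (mem_univ _)).symm
    rw [e1]; exact h1
  have hval : ∀ i j, i ≠ j → ∀ x, c i x ≠ c j x → c i x - c j x = 1 ∨ c i x - c j x = -1 :=
    fun i j hij x hx => (norm_two (hd i j hij)).1 x (sub_ne_zero.2 hx)
  -- intersections
  have hint : ∀ i j k, i ≠ j → i ≠ k → j ≠ k → ∃ a, N i j ∩ N i k = {a} ∧ c j a = c k a := by
    intro i j k hij hik hjk
    have h1 := hd2 i j k hij hik hjk
    have e1 : ∑ x, (c i x - c j x) * (c i x - c k x) =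
        ∑ x ∈ N i j ∩ N i k, (c i x - c j x) * (c i x - c k x) := by
      symm
      refine Finset.sum_subset (subset_univ _) fun x _ hx => ?_
      rw [mem_inter, hmemN, hmemN, not_and_or, not_not, not_not] at hx
      rcases hx with hx | hx
      · rw [hx, sub_self, zero_mul]
      · rw [hx, sub_self, mul_zero]
    rw [e1] at h1
    have hle : (N i j ∩ N i k).card ≤ 2 := (card_le_card inter_subset_left).trans (hcard i j hij).le
    have hpm : ∀ x ∈ N i j ∩ N i k, (c i x - c j x) * (c i x - c k x) = 1 ∨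
        (c i x - c j x) * (c i x - c k x) = -1 := by
      intro x hx
      rw [mem_inter, hmemN, hmemN] at hx
      rcases hval i j hij x hx.1 with h | h <;> rcases hval i k hik x hx.2 with h' | h' <;>
        rw [h, h'] <;> norm_num
    have h2 : (N i j ∩ N i k).card = 1 := by
      rcases Nat.lt_or_ge (N i j ∩ N i k).card 1 with h | h
      · have h4 : N i j ∩ N i k = ∅ := card_eq_zero.1 (by omega)
        rw [h4, sum_empty] at h1
        omega
      · by_contra hne
        have h4 : (N i j ∩ N i k).card = 2 := by omega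
        obtain ⟨a, b, hab, h5⟩ := card_eq_two.1 h4
        rw [h5, sum_pair hab] at h1
        have ha := hpm a (by rw [h5]; simp)
        have hb := hpm b (by rw [h5]; simp)
        omega
    obtain ⟨a, ha⟩ := card_eq_one.1 h2
    refine ⟨a, ha, ?_⟩
    rw [ha, sum_singleton] at h1
    have h4 : a ∈ N i j ∩ N i k := by rw [ha]; exact mem_singleton_self a
    rw [mem_inter, hmemN, hmemN] at h4
    rcases hval i j hij a h4.1 with h | h <;> rcases hval i k hik a h4.2 with h' | h' <;>
      rw [h, h'] at h1 <;> omega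
  have hcomm : ∀ i j, N i j = N j i := fun i j => by
    ext x; rw [hmemN, hmemN]; exact ne_comm
  -- the sum with `c i`
  have hci : ∀ i j, i ≠ j → ∑ x ∈ N i j, c i x * (c i x - c j x) = 1 := by
    intro i j hij
    have e1 : ∑ x ∈ N i j, c i x * (c i x - c j x) = ∑ x, c i x * (c i x - c j x) := by
      refine Finset.sum_subset (subset_univ _) fun x _ hx => ?_
      rw [hmemN, not_not] at hx
      rw [hx, sub_self, mul_zero]
    rw [e1]
    simp only [mul_sub, Finset.sum_sub_distrib, hG, if_neg hij, if_true]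
    ring
  -- the sunflower
  have hsun : ∀ i j k l, i ≠ j → i ≠ k → i ≠ l → j ≠ k → j ≠ l → k ≠ l → ∀ a, a ∈ N i j →
      a ∈ N i k → a ∈ N i l := by
    intro i j k l hij hik hil hjk hjl hkl a haj hak
    by_contra hal
    obtain ⟨a', ha', haeq⟩ := hint i j k hij hik hjk
    have haa : a = a' := by
      have : a ∈ N i j ∩ N i k := mem_inter.2 ⟨haj, hak⟩
      rw [ha'] at this
      exact mem_singleton.1 this
    subst haa
    obtain ⟨b, hb, hbeq⟩ := hint i j l hij hil hjl
    obtain ⟨d, hdd, hdeq⟩ := hint i k l hik hil hkl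
    have hb1 : b ∈ N i j ∧ b ∈ N i l := mem_inter.1 (by rw [hb]; exact mem_singleton_self b)
    have hd1 : d ∈ N i k ∧ d ∈ N i l := mem_inter.1 (by rw [hdd]; exact mem_singleton_self d)
    have hab : a ≠ b := fun h => hal (h ▸ hb1.2)
    have had : a ≠ d := fun h => hal (h ▸ hd1.2)
    have hbd : b ≠ d := by
      intro h
      have : b ∈ N i j ∩ N i k := mem_inter.2 ⟨hb1.1, h ▸ hd1.1⟩
      rw [ha'] at this
      exact hab (mem_singleton.1 this).symm
    have e1 : N i j = {a, b} := by
      refine (eq_of_subset_of_card_le ?_ ?_).symm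
      · intro x hx
        rcases mem_insert.1 hx with h | h
        · rw [h]; exact haj
        · rw [mem_singleton.1 h]; exact hb1.1
      · rw [hcard i j hij, card_pair hab]
    have e2 : N i k = {a, d} := by
      refine (eq_of_subset_of_card_le ?_ ?_).symm
      · intro x hx
        rcases mem_insert.1 hx with h | h
        · rw [h]; exact hak
        · rw [mem_singleton.1 h]; exact hd1.1
      · rw [hcard i k hik, card_pair had]
    have e3 : N i l = {b, d} := by
      refine (eq_of_subset_of_card_le ?_ ?_).symm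
      · intro x hx
        rcases mem_insert.1 hx with h | h
        · rw [h]; exact hb1.2
        · rw [mem_singleton.1 h]; exact hd1.2
      · rw [hcard i l hil, card_pair hbd]
    have s1 := hci i j hij
    have s2 := hci i k hik
    have s3 := hci i l hil
    rw [e1, sum_pair hab] at s1
    rw [e2, sum_pair had] at s2
    rw [e3, sum_pair hbd] at s3
    rw [haeq, hbeq] at s1
    rw [hdeq] at s2
    omega
  -- enough indices
  have hex : ∀ i : ι, ∃ j, j ≠ i := by
    intro i
    by_contra hcon
    push Not at hcon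
    have : Fintype.card ι ≤ 1 := Fintype.card_le_one_iff.2 fun a b => (hcon a).trans (hcon b).symm
    omega
  have hex2 : ∀ i j : ι, ∃ k, k ≠ i ∧ k ≠ j := by
    intro i j
    by_contra hcon
    push Not at hcon
    have h1 : (univ : Finset ι) ⊆ {i, j} := by
      intro k _
      by_cases h : k = i
      · rw [h]; exact mem_insert_self _ _
      · rw [hcon k h]; simp
    have h2 := (card_le_card h1).trans card_le_two
    rw [card_univ] at h2
    omega
  have hχ : ∀ i : ι, ∃ a : X, ∀ l, l ≠ i → a ∈ N i l := by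
    intro i
    obtain ⟨j, hj⟩ := hex i
    obtain ⟨k, hki, hkj⟩ := hex2 i j
    obtain ⟨a, ha, -⟩ := hint i j k hj.symm hki.symm hkj.symm
    have ha' : a ∈ N i j ∧ a ∈ N i k := mem_inter.1 (by rw [ha]; exact mem_singleton_self a)
    refine ⟨a, fun l hl => ?_⟩
    by_cases h1 : l = j
    · rw [h1]; exact ha'.1
    by_cases h2 : l = k
    · rw [h2]; exact ha'.2
    exact hsun i j k l hj.symm hki.symm hl.symm hkj.symm (Ne.symm h1) (Ne.symm h2) a ha'.1 ha'.2
  choose χ hχ using hχ
  have hinj : Function.Injective χ := by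
    intro i j hij
    by_contra hne
    obtain ⟨k, hki, hkj⟩ := hex2 i j
    obtain ⟨a, ha, hae⟩ := hint i j k hne hki.symm hkj.symm
    have h1 : χ i ∈ N i j ∩ N i k := mem_inter.2 ⟨hχ i j (Ne.symm hne), hχ i k hki⟩
    rw [ha, mem_singleton] at h1
    have h2 := hχ j k hkj
    rw [hmemN, ← hij, h1] at h2
    exact h2 hae
  have hNij : ∀ i j, i ≠ j → ∀ x, x ≠ χ i → x ≠ χ j → c i x = c j x := by
    intro i j hij x hxi hxj
    by_contra hne
    have h1 : x ∈ N i j := (hmemN i j x).2 hne
    have e1 : N i j = {χ i, χ j} := by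
      refine (eq_of_subset_of_card_le ?_ ?_).symm
      · intro y hy
        rcases mem_insert.1 hy with h | h
        · rw [h]; exact hχ i j (Ne.symm hij)
        · rw [mem_singleton.1 h, hcomm]; exact hχ j i hij
      · rw [hcard i j hij, card_pair (fun h => hij (hinj h))]
    rw [e1] at h1
    rcases mem_insert.1 h1 with h | h
    · exact hxi h
    · exact hxj (mem_singleton.1 h)
  -- the function `Ψ`
  have hj : ∀ x : X, ∃ j : ι, x ≠ χ j := by
    intro x
    by_contra hcon
    push Not at hcon
    obtain ⟨i⟩ : Nonempty ι := Fintype.card_pos_iff.1 (by omega)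
    obtain ⟨j, hji⟩ := hex i
    exact hji (hinj ((hcon j).symm.trans (hcon i)))
  choose J hJ using hj
  set Ψ : X → ℤ := fun x => - c (J x) x with hΨ
  have hcΨ : ∀ i x, x ≠ χ i → c i x = - Ψ x := by
    intro i x hx
    change c i x = - -c (J x) x
    rw [neg_neg]
    by_cases h : i = J x
    · rw [← h]
    · rw [hNij i (J x) h x hx (hJ x)]
  set E : ι → ℤ := fun i => c i (χ i) + Ψ (χ i) with hE
  have hE1 : ∀ i, E i = 1 ∨ E i = -1 := by
    intro i
    have h1 : J (χ i) ≠ i := fun h => hJ (χ i) (by rw [h])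
    have h2 := (hmemN _ _ _).1 (hχ i (J (χ i)) h1)
    have h4 := hval i (J (χ i)) (Ne.symm h1) (χ i) h2
    have e1 : E i = c i (χ i) - c (J (χ i)) (χ i) := by
      simp only [hE, hΨ]; ring
    rw [e1]; exact h4
  have hc : ∀ i x, c i x = (if x = χ i then E i else 0) - Ψ x := by
    intro i x
    split_ifs with h
    · rw [h, hE]; ring
    · rw [hcΨ i x h]; ring
  -- signs
  set t : ℝ := ∑ x, (Ψ x : ℝ) * g x with ht
  have hEt : ∀ i, (E i : ℝ) * g (χ i) = t := by
    intro i
    have h1 := hgc i
    have e1 : ∑ x, (c i x : ℝ) * g x = ∑ x, (if x = χ i then (E i : ℝ) * g x else 0) -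
        ∑ x, (Ψ x : ℝ) * g x := by
      rw [← Finset.sum_sub_distrib]
      refine Finset.sum_congr rfl fun x _ => ?_
      rw [hc i x]
      split_ifs
      · push_cast; ring
      · push_cast; ring
    rw [e1, Finset.sum_ite_eq' univ (χ i), if_pos (mem_univ _)] at h1
    linarith
  have hEE : ∀ i j, E i = E j := by
    intro i j
    have h1 := hEt i
    have h2 := hEt j
    have h4 := hg (χ i)
    have h5 := hg (χ j)
    rcases hE1 i with h | h <;> rcases hE1 j with h' | h'
    · rw [h, h']
    · exfalso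
      rw [h] at h1; rw [h'] at h2
      push_cast at h1 h2
      linarith
    · exfalso
      rw [h] at h1; rw [h'] at h2
      push_cast at h1 h2
      linarith
    · rw [h, h']
  -- the norms
  set W : ℤ := ∑ x, Ψ x ^ 2 with hW
  have hnorm : ∀ i, W = s + 2 * (E i * Ψ (χ i)) := by
    intro i
    have h1 := hG i i
    rw [if_pos rfl] at h1
    have e1 : ∑ x, c i x * c i x = ∑ x, (if x = χ i then E i ^ 2 - 2 * (E i * Ψ x) else 0) +
        ∑ x, Ψ x ^ 2 := by
      rw [← Finset.sum_add_distrib]
      refine Finset.sum_congr rfl fun x _ => ?_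
      rw [hc i x]
      split_ifs
      · ring
      · ring
    rw [e1, Finset.sum_ite_eq' univ (χ i), if_pos (mem_univ _)] at h1
    have h2 : E i ^ 2 = 1 := by rcases hE1 i with h | h <;> rw [h] <;> norm_num
    rw [h2] at h1
    linarith
  obtain ⟨i₀⟩ : Nonempty ι := Fintype.card_pos_iff.1 (by omega)
  set y : ℤ := E i₀ * Ψ (χ i₀) with hy
  have hyi : ∀ i, E i * Ψ (χ i) = y := by
    intro i
    have h1 := hnorm i
    have h2 := hnorm i₀
    rw [← hy] at h2
    linarith
  have hΨ2 : ∀ i, Ψ (χ i) ^ 2 = y ^ 2 := by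
    intro i
    rw [← hyi i, mul_pow]
    have h2 : E i ^ 2 = 1 := by rcases hE1 i with h | h <;> rw [h] <;> norm_num
    rw [h2, one_mul]
  have hWge : (Fintype.card ι : ℤ) * y ^ 2 ≤ W := by
    have e1 : ∑ x ∈ univ.image χ, Ψ x ^ 2 = (Fintype.card ι : ℤ) * y ^ 2 := by
      rw [Finset.sum_image (fun a _ b _ h => hinj h), Finset.sum_congr rfl fun i _ => hΨ2 i,
        Finset.sum_const, nsmul_eq_mul, card_univ]
    rw [← e1]
    exact Finset.sum_le_sum_of_subset_of_nonneg (subset_univ _) fun _ _ _ => sq_nonneg _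
  have hWy : W = s + 2 * y := hnorm i₀
  have hm' : (s : ℤ) + 2 ≤ Fintype.card ι := by exact_mod_cast hm
  have hs0 : (0 : ℤ) ≤ s := Int.natCast_nonneg s
  have hy2 : ((s : ℤ) + 2) * y ^ 2 ≤ s + 2 * y := by
    rw [← hWy]
    exact (mul_le_mul_of_nonneg_right hm' (sq_nonneg y)).trans hWge
  have hy01 : y = 0 ∨ y = 1 := by
    have h1 : 0 ≤ y := by
      by_contra hneg
      push Not at hneg
      have h4 : 1 ≤ y ^ 2 := by nlinarith
      have h5 := mul_le_mul_of_nonneg_left h4 (by linarith : (0 : ℤ) ≤ (s : ℤ) + 2)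
      linarith
    have h2 : y < 2 := by
      by_contra hge
      push Not at hge
      have h4 : 2 * y ≤ y ^ 2 := by nlinarith
      have h5 := mul_le_mul_of_nonneg_left h4 (by linarith : (0 : ℤ) ≤ (s : ℤ) + 2)
      have h6 := mul_le_mul_of_nonneg_left hge hs0
      linarith
    omega
  have hy0 : y = 0 := by
    rcases hy01 with h | h
    · exact h
    exfalso
    rw [h] at hWge hWy
    -- all the mass on the `χ i`
    have hzero : ∀ x, x ∉ univ.image χ → Ψ x = 0 := by
      intro x hx
      have e1 : ∑ x ∈ univ.image χ, Ψ x ^ 2 = (Fintype.card ι : ℤ) * y ^ 2 := by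
        rw [Finset.sum_image (fun a _ b _ h => hinj h), Finset.sum_congr rfl fun i _ => hΨ2 i,
          Finset.sum_const, nsmul_eq_mul, card_univ]
      have e2 : ∑ x ∈ insert x (univ.image χ), Ψ x ^ 2 ≤ W :=
        Finset.sum_le_sum_of_subset_of_nonneg (subset_univ _) fun _ _ _ => sq_nonneg _
      rw [Finset.sum_insert hx, e1, h] at e2
      have h4 : Ψ x ^ 2 ≤ 0 := by linarith
      exact pow_eq_zero_iff (two_ne_zero) |>.1 (le_antisymm h4 (sq_nonneg _))
    have ht2 : t = Fintype.card ι * t := by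
      have e1 : ∑ x ∈ univ.image χ, (Ψ x : ℝ) * g x = t := by
        rw [ht]
        refine Finset.sum_subset (subset_univ _) fun x _ hx => ?_
        rw [hzero x hx, Int.cast_zero, zero_mul]
      have e2 : ∑ x ∈ univ.image χ, (Ψ x : ℝ) * g x = ∑ i : ι, t := by
        rw [Finset.sum_image (fun a _ b _ h => hinj h)]
        refine Finset.sum_congr rfl fun i _ => ?_
        rw [← hEt i]
        congr 1
        have h4 := hyi i
        rw [h] at h4
        rcases hE1 i with h5 | h5
        · rw [h5] at h4 ⊢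
          have : Ψ (χ i) = 1 := by linarith
          rw [this]
        · rw [h5] at h4 ⊢
          have : Ψ (χ i) = -1 := by linarith
          rw [this]
      rw [e2, Finset.sum_const, nsmul_eq_mul, card_univ] at e1
      exact e1.symm
    have ht0 : t = 0 := by
      have h4 : ((Fintype.card ι : ℝ) - 1) * t = 0 := by linarith
      rcases mul_eq_zero.1 h4 with h5 | h5
      · exfalso
        have : (3 : ℝ) ≤ Fintype.card ι := by exact_mod_cast h3
        linarith
      · exact h5
    have h4 := hEt i₀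
    rw [ht0] at h4
    have h5 := hg (χ i₀)
    rcases hE1 i₀ with h6 | h6
    · rw [h6] at h4; push_cast at h4; linarith
    · rw [h6] at h4; push_cast at h4; linarith
  refine ⟨E i₀, χ, Ψ, hE1 i₀, hinj, fun i x => ?_, fun i => ?_, ?_⟩
  · rw [hc i x, hEE i i₀]
  · have h1 := hΨ2 i
    rw [hy0] at h1
    exact pow_eq_zero_iff (two_ne_zero) |>.1 (by rw [h1]; norm_num)
  · rw [← hW, hWy, hy0]; ring

end Coh1

end P179H450
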