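import Vale.Agent.P179.R2.H450.Coh1

/-!
# Coherence through the Fourier transform on `ZMod q`
-/

namespace P179H450

open Finset

open scoped Classical

section Coh2

variable {q : ℕ} [NeZero q]

/-- the standard additive character -/
noncomputable def EE (x : ZMod q) : ℂ := ZMod.stdAddChar x

theorem EE_zero : EE (0 : ZMod q) = 1 := AddChar.map_zero_eq_one _

theorem EE_add (x y : ZMod q) : EE (x + y) = EE x * EE y := AddChar.map_add_eq_mul _ _ _

theorem EE_conj (x : ZMod q) : (starRingEnd ℂ) (EE x) = EE (-x) :=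
  (AddChar.map_neg_eq_conj _ _).symm

theorem EE_sum (b : ZMod q) : ∑ x : ZMod q, EE (x * b) = if b = 0 then (q : ℂ) else 0 := by
  have h := AddChar.sum_mulShift (R := ZMod q) (R' := ℂ) b (ZMod.isPrimitive_stdAddChar q)
  rw [ZMod.card] at h
  refine h.trans ?_
  split_ifs <;> simp

theorem orb_count {Δ : Subgroup (ZMod q)ˣ}
    (hΔ : ∀ δ ∈ Δ, ∀ a : ZMod q, a ≠ 0 → (δ : ZMod q) * a = a → δ = 1) {i : ZMod q} (hi : i ≠ 0)
    (F : ZMod q → ℂ) :
    ∑ j : ZMod q, (if ∃ δ ∈ Δ, (δ : ZMod q) * i = j then F j else 0) =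
      ∑ δ : Δ, F (((δ : (ZMod q)ˣ) : ZMod q) * i) := by
  rw [← Finset.sum_filter]
  symm
  refine Finset.sum_bij (fun δ _ => ((δ : (ZMod q)ˣ) : ZMod q) * i) ?_ ?_ ?_ ?_
  · intro δ _
    exact mem_filter.2 ⟨mem_univ _, δ, δ.2, rfl⟩
  · intro δ _ δ' _ h
    have h1 : (((δ'⁻¹ * δ : Δ) : (ZMod q)ˣ) : ZMod q) * i = i := by
      push_cast
      rw [mul_assoc, h, ← mul_assoc, ← Units.val_mul]
      simp
    have h2 := hΔ _ (δ'⁻¹ * δ).2 i hi h1
    have h3 : δ'⁻¹ * δ = 1 := Subtype.ext h2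
    exact (inv_mul_eq_one.1 h3).symm
  · intro j hj
    obtain ⟨δ, hδ, h⟩ := (mem_filter.1 hj).2
    exact ⟨⟨δ, hδ⟩, mem_univ _, h⟩
  · intro δ _
    rfl

theorem fourier_coh {X : Type*} [Fintype X] (Δ : Subgroup (ZMod q)ˣ)
    (hΔ : ∀ δ ∈ Δ, ∀ a : ZMod q, a ≠ 0 → (δ : ZMod q) * a = a → δ = 1) {s m : ℕ}
    (hs : Nat.card Δ = s) (hq : s * m + 1 = q) (hm : s + 2 ≤ m) (hm3 : 3 ≤ m)
    (A : X → ZMod q → ℂ) (hinv : ∀ ψ, ∀ δ ∈ Δ, ∀ j : ZMod q, A ψ ((δ : ZMod q) * j) = A ψ j)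
    (hgram : ∀ i j : ZMod q, i ≠ 0 → j ≠ 0 → ∑ ψ, A ψ i * (starRingEnd ℂ) (A ψ j) =
      if ∃ δ ∈ Δ, (δ : ZMod q) * i = j then (q : ℂ) else 0)
    (hint : ∀ (a : ZMod q) (ψ : X), ∃ n : ℤ,
      ∑ j ∈ univ.erase (0 : ZMod q), (EE (-(a * j)) - 1) * A ψ j = q * n)
    (g : X → ℝ) (hg : ∀ ψ, 0 < g ψ) (hgA : ∀ j : ZMod q, j ≠ 0 → ∑ ψ, A ψ j * (g ψ : ℂ) = 0) :
    ∃ (e : ℤ) (χ : Fin m → X) (r : X → ℤ), (e = 1 ∨ e = -1) ∧ Function.Injective χ ∧
      (∀ ψ, (∀ i, ψ ≠ χ i) → ∀ j : ZMod q, j ≠ 0 → A ψ j = r ψ) ∧ (∀ i, r (χ i) = 0) ∧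
      ∑ ψ, r ψ ^ 2 = s ∧ (∀ j : ZMod q, j ≠ 0 → (e : ℂ) * ∑ i, A (χ i) j = -1) ∧
      ∀ h : X → ℂ, (∀ j : ZMod q, j ≠ 0 → ∑ ψ, A ψ j * h ψ = 0) → ∀ i,
        (e : ℂ) * h (χ i) = ∑ ψ, (r ψ : ℂ) * h ψ := by
  have hq0 : (q : ℂ) ≠ 0 := by exact_mod_cast NeZero.ne q
  have hs0 : 0 < s := by rw [← hs]; exact Nat.card_pos
  -- orbits
  let R : Setoid {a : ZMod q // a ≠ 0} :=
    { r := fun a b => ∃ δ ∈ Δ, (δ : ZMod q) * a = b
      iseqv :=
        { refl := fun a => ⟨1, Δ.one_mem, by simp⟩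
          symm := by
            rintro a b ⟨δ, hδ, h⟩
            refine ⟨δ⁻¹, Δ.inv_mem hδ, ?_⟩
            rw [← h, ← mul_assoc, ← Units.val_mul]
            simp
          trans := by
            rintro a b c ⟨δ, hδ, h⟩ ⟨δ', hδ', h'⟩
            refine ⟨δ' * δ, Δ.mul_mem hδ' hδ, ?_⟩
            rw [← h', ← h, Units.val_mul, mul_assoc] } }
  let ι := Quotient R
  let rep : ι → ZMod q := fun i => ((i.out : {a : ZMod q // a ≠ 0}) : ZMod q)
  have hrep0 : ∀ i, rep i ≠ 0 := fun i => (i.out : {a : ZMod q // a ≠ 0}).2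
  have hrepeq : ∀ i j, (∃ δ ∈ Δ, (δ : ZMod q) * rep i = rep j) → i = j := by
    intro i j h
    have h1 : R.r i.out j.out := h
    have h2 : (Quotient.mk R i.out : ι) = Quotient.mk R j.out := Quotient.sound h1
    rwa [Quotient.out_eq, Quotient.out_eq] at h2
  have hrepex : ∀ a : ZMod q, a ≠ 0 → ∃ i, ∃ δ ∈ Δ, (δ : ZMod q) * rep i = a := by
    intro a ha
    refine ⟨Quotient.mk R ⟨a, ha⟩, ?_⟩
    have h1 : Quotient.mk R (Quotient.out (Quotient.mk R ⟨a, ha⟩)) = Quotient.mk R ⟨a, ha⟩ :=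
      Quotient.out_eq _
    exact Quotient.exact h1
  -- sums over the nonzero elements
  have hsum : ∀ F : ZMod q → ℂ, ∑ a ∈ univ.erase (0 : ZMod q), F a =
      ∑ i : ι, ∑ δ : Δ, F (((δ : (ZMod q)ˣ) : ZMod q) * rep i) := by
    intro F
    have h1 : ∀ i : ι, ∑ δ : Δ, F (((δ : (ZMod q)ˣ) : ZMod q) * rep i) =
        ∑ a ∈ univ.filter (fun a : ZMod q => ∃ δ ∈ Δ, (δ : ZMod q) * rep i = a), F a := by
      intro i
      rw [← orb_count hΔ (hrep0 i) F, Finset.sum_filter]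
    rw [Finset.sum_congr rfl fun i _ => h1 i, ← Finset.sum_biUnion]
    · refine Finset.sum_congr ?_ fun _ _ => rfl
      ext a
      rw [mem_biUnion, mem_erase]
      constructor
      · rintro ⟨ha, -⟩
        obtain ⟨i, hi⟩ := hrepex a ha
        exact ⟨i, mem_univ _, mem_filter.2 ⟨mem_univ _, hi⟩⟩
      · rintro ⟨i, -, hi⟩
        obtain ⟨δ, -, h⟩ := (mem_filter.1 hi).2
        refine ⟨?_, mem_univ _⟩
        rw [← h]
        exact fun h0 => hrep0 i ((Units.mul_right_eq_zero δ).1 h0)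
    · intro i _ j _ hij
      rw [Function.onFun, Finset.disjoint_left]
      intro a ha hb
      obtain ⟨δ, hδ, h⟩ := (mem_filter.1 ha).2
      obtain ⟨δ', hδ', h'⟩ := (mem_filter.1 hb).2
      apply hij
      refine hrepeq i j ⟨δ'⁻¹ * δ, Δ.mul_mem (Δ.inv_mem hδ') hδ, ?_⟩
      rw [Units.val_mul, mul_assoc, h, ← h', ← mul_assoc, ← Units.val_mul]
      simp
  have hcι : Fintype.card ι = m := by
    have h1 := hsum fun _ => 1
    simp only [sum_const, nsmul_eq_mul, mul_one, card_univ] at h1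
    rw [Finset.card_erase_of_mem (mem_univ _), card_univ, ZMod.card,
      ← Nat.card_eq_fintype_card (α := Δ), hs] at h1
    have h2 : q - 1 = Fintype.card ι * s := by exact_mod_cast h1
    have h4 : m * s = Fintype.card ι * s := by rw [← h2, ← hq]; simp [mul_comm]
    exact (Nat.eq_of_mul_eq_mul_right hs0 h4).symm
  -- the coefficients
  have hfull : ∀ (a : ZMod q) (ψ : X), ∑ j ∈ univ.erase (0 : ZMod q),
      (EE (-(a * j)) - 1) * A ψ j = ∑ j, (EE (-(a * j)) - 1) * A ψ j := by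
    intro a ψ
    rw [← Finset.sum_erase_add univ _ (mem_univ (0 : ZMod q)), mul_zero, neg_zero, EE_zero,
      sub_self, zero_mul, add_zero]
  choose n hn using hint
  have hn' : ∀ (a : ZMod q) (ψ : X), ∑ j, (EE (-(a * j)) - 1) * A ψ j = q * n a ψ :=
    fun a ψ => by rw [← hfull, hn]
  have hn0 : ∀ ψ, n 0 ψ = 0 := by
    intro ψ
    have h1 := hn' 0 ψ
    simp only [zero_mul, neg_zero, EE_zero, sub_self, sum_const_zero] at h1
    rcases mul_eq_zero.1 h1.symm with h | h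
    · exact absurd h hq0
    · exact_mod_cast h
  have hnδ : ∀ δ ∈ Δ, ∀ (a : ZMod q) (ψ : X), n ((δ : ZMod q) * a) ψ = n a ψ := by
    intro δ hδ a ψ
    have h1 := hn' ((δ : ZMod q) * a) ψ
    have h2 : ∑ j, (EE (-((δ : ZMod q) * a * j)) - 1) * A ψ j =
        ∑ j, (EE (-(a * j)) - 1) * A ψ j := by
      refine Fintype.sum_equiv (Units.mulLeft δ) _ _ fun j => ?_
      rw [Units.mulLeft_apply, hinv ψ δ hδ j]
      congr 3
      ring
    rw [h2, hn'] at h1
    have h4 := mul_left_cancel₀ hq0 h1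
    exact_mod_cast h4.symm
  -- the Gram matrix
  have hG : ∀ a b : ZMod q, a ≠ 0 → b ≠ 0 → ∑ ψ, n a ψ * n b ψ =
      ((univ.filter fun δ : Δ => ((δ : (ZMod q)ˣ) : ZMod q) * b = a).card : ℤ) + s := by
    intro a b ha hb
    have h1 : (q : ℂ) ^ 2 * ∑ ψ, (n a ψ : ℂ) * n b ψ = ∑ ψ, (∑ i, (EE (-(a * i)) - 1) * A ψ i) *
        (starRingEnd ℂ) (∑ j, (EE (-(b * j)) - 1) * A ψ j) := by
      rw [Finset.mul_sum]
      refine Finset.sum_congr rfl fun ψ _ => ?_
      rw [hn', hn', map_mul, map_natCast, map_intCast]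
      ring
    have h2 : ∑ ψ, (∑ i, (EE (-(a * i)) - 1) * A ψ i) *
        (starRingEnd ℂ) (∑ j, (EE (-(b * j)) - 1) * A ψ j) =
        ∑ i, (EE (-(a * i)) - 1) * ∑ j, (EE (b * j) - 1) *
          ∑ ψ, A ψ i * (starRingEnd ℂ) (A ψ j) := by
      have e0 : ∀ ψ, (∑ i, (EE (-(a * i)) - 1) * A ψ i) *
          (starRingEnd ℂ) (∑ j, (EE (-(b * j)) - 1) * A ψ j) =
          ∑ i, ∑ j, ((EE (-(a * i)) - 1) * A ψ i) *
            ((EE (b * j) - 1) * (starRingEnd ℂ) (A ψ j)) := by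
        intro ψ
        rw [map_sum, Finset.sum_mul_sum]
        refine Finset.sum_congr rfl fun i _ => Finset.sum_congr rfl fun j _ => ?_
        rw [map_mul, map_sub, map_one, EE_conj, neg_neg]
      rw [Finset.sum_congr rfl fun ψ _ => e0 ψ, Finset.sum_comm]
      refine Finset.sum_congr rfl fun i _ => ?_
      rw [Finset.sum_comm, Finset.mul_sum]
      refine Finset.sum_congr rfl fun j _ => ?_
      rw [Finset.mul_sum, Finset.mul_sum]
      exact Finset.sum_congr rfl fun ψ _ => by ring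
    have h4 : ∀ i : ZMod q, (EE (-(a * i)) - 1) * ∑ j, (EE (b * j) - 1) *
          ∑ ψ, A ψ i * (starRingEnd ℂ) (A ψ j) =
        (q : ℂ) * ∑ δ : Δ, (EE (-(a * i)) - 1) *
          (EE (b * (((δ : (ZMod q)ˣ) : ZMod q) * i)) - 1) := by
      intro i
      by_cases hi : i = 0
      · rw [hi]
        simp [EE_zero]
      · have h5 : ∀ j : ZMod q, (EE (b * j) - 1) * ∑ ψ, A ψ i * (starRingEnd ℂ) (A ψ j) =
            if ∃ δ ∈ Δ, (δ : ZMod q) * i = j then (EE (b * j) - 1) * q else 0 := by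
          intro j
          by_cases hj : j = 0
          · rw [hj]
            simp [EE_zero]
          · rw [hgram i j hi hj]
            split_ifs
            · rfl
            · rw [mul_zero]
        rw [Finset.sum_congr rfl fun j _ => h5 j, orb_count hΔ hi, Finset.mul_sum, Finset.mul_sum]
        exact Finset.sum_congr rfl fun δ _ => by ring
    have h6 : ∀ δ : Δ, ∑ i : ZMod q, (EE (-(a * i)) - 1) *
        (EE (b * (((δ : (ZMod q)ˣ) : ZMod q) * i)) - 1) =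
        (if ((δ : (ZMod q)ˣ) : ZMod q) * b = a then (q : ℂ) else 0) + q := by
      intro δ
      have e1 : ∀ i : ZMod q, (EE (-(a * i)) - 1) *
          (EE (b * (((δ : (ZMod q)ˣ) : ZMod q) * i)) - 1) =
          EE (i * (((δ : (ZMod q)ˣ) : ZMod q) * b - a)) - EE (i * (-a)) -
            EE (i * (((δ : (ZMod q)ˣ) : ZMod q) * b)) + 1 := by
        intro i
        have e2 : i * (((δ : (ZMod q)ˣ) : ZMod q) * b - a) =
          -(a * i) + b * (((δ : (ZMod q)ˣ) : ZMod q) * i) := by ring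
        have e3 : i * (-a) = -(a * i) := by ring
        have e4 : i * (((δ : (ZMod q)ˣ) : ZMod q) * b) = b * (((δ : (ZMod q)ˣ) : ZMod q) * i) := by
          ring
        rw [e2, e3, e4, EE_add]
        ring
      rw [Finset.sum_congr rfl fun i _ => e1 i, Finset.sum_add_distrib, Finset.sum_sub_distrib,
        Finset.sum_sub_distrib, EE_sum, EE_sum, EE_sum]
      have hna : -a ≠ 0 := neg_ne_zero.2 ha
      have hδb : ((δ : (ZMod q)ˣ) : ZMod q) * b ≠ 0 := fun h =>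
        hb ((Units.mul_right_eq_zero _).1 h)
      rw [if_neg hna, if_neg hδb]
      simp only [sub_eq_zero, sum_const, card_univ, ZMod.card, nsmul_eq_mul, mul_one, sub_zero]
    rw [h2, Finset.sum_congr rfl fun i _ => h4 i, ← Finset.mul_sum, Finset.sum_comm,
      Finset.sum_congr rfl fun δ _ => h6 δ, Finset.sum_add_distrib, ← Finset.sum_filter] at h1
    simp only [sum_const, nsmul_eq_mul, card_univ] at h1
    rw [← Nat.card_eq_fintype_card (α := Δ), hs] at h1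
    have h7 : (q : ℂ) ^ 2 * ∑ ψ, (n a ψ : ℂ) * n b ψ = (q : ℂ) ^ 2 *
        (((univ.filter fun δ : Δ => ((δ : (ZMod q)ˣ) : ZMod q) * b = a).card : ℂ) + s) := by
      rw [h1]; ring
    have h8 := mul_left_cancel₀ (pow_ne_zero 2 hq0) h7
    exact_mod_cast h8
  have hGr : ∀ i j : ι, ∑ ψ, n (rep i) ψ * n (rep j) ψ = (if i = j then 1 else 0) + s := by
    intro i j
    rw [hG _ _ (hrep0 i) (hrep0 j)]
    congr 1
    by_cases hij : i = j
    · rw [if_pos hij, ← hij]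
      have e1 : (univ.filter fun δ : Δ => ((δ : (ZMod q)ˣ) : ZMod q) * rep i = rep i) = {1} := by
        ext δ
        rw [mem_filter, mem_singleton]
        constructor
        · rintro ⟨-, h⟩
          exact Subtype.ext (hΔ _ δ.2 _ (hrep0 i) h)
        · rintro rfl
          exact ⟨mem_univ _, by simp⟩
      rw [e1, card_singleton]
      rfl
    · rw [if_neg hij, Finset.filter_false_of_mem, card_empty]
      · rfl
      · intro δ _ h
        exact hij (hrepeq j i ⟨δ, δ.2, h⟩).symm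
  have horth : ∀ (h : X → ℂ), (∀ j : ZMod q, j ≠ 0 → ∑ ψ, A ψ j * h ψ = 0) → ∀ a : ZMod q,
      ∑ ψ, (n a ψ : ℂ) * h ψ = 0 := by
    intro h hh a
    apply mul_left_cancel₀ hq0
    rw [mul_zero, Finset.mul_sum]
    have e1 : ∀ ψ, (q : ℂ) * ((n a ψ : ℂ) * h ψ) = ∑ j, (EE (-(a * j)) - 1) * (A ψ j * h ψ) := by
      intro ψ
      rw [← mul_assoc, ← hn', Finset.sum_mul]
      exact Finset.sum_congr rfl fun j _ => by ring
    rw [Finset.sum_congr rfl fun ψ _ => e1 ψ, Finset.sum_comm]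
    refine Finset.sum_eq_zero fun j _ => ?_
    rw [← Finset.mul_sum]
    by_cases hj : j = 0
    · rw [hj, mul_zero, neg_zero, EE_zero, sub_self, zero_mul]
    · rw [hh j hj, mul_zero]
  obtain ⟨e, χ, Ψ, he, hinj, hc, hΨ0, hΨ2⟩ := coherence s (fun (i : ι) ψ => n (rep i) ψ)
    (fun i j => by convert hGr i j)
    (by rw [hcι]; exact hm) (by rw [hcι]; exact hm3) g hg (fun i => by
      have h1 := horth (fun ψ => (g ψ : ℂ)) hgA (rep i)
      exact_mod_cast h1)
  -- Fourier inversion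
  have hF : ∀ (ψ : X) (j : ZMod q), j ≠ 0 → A ψ j =
      ∑ a ∈ univ.erase (0 : ZMod q), (n a ψ : ℂ) * EE (a * j) := by
    intro ψ j hj
    have h1 : ∑ a ∈ univ.erase (0 : ZMod q), (n a ψ : ℂ) * EE (a * j) =
        ∑ a, (n a ψ : ℂ) * EE (a * j) := by
      rw [← Finset.sum_erase_add univ _ (mem_univ (0 : ZMod q)), hn0, Int.cast_zero, zero_mul,
        add_zero]
    rw [h1]
    apply mul_left_cancel₀ hq0
    rw [Finset.mul_sum]
    have e1 : ∀ a : ZMod q, (q : ℂ) * ((n a ψ : ℂ) * EE (a * j)) =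
        ∑ j', (EE (a * (j - j')) - EE (a * j)) * A ψ j' := by
      intro a
      rw [← mul_assoc, ← hn', Finset.sum_mul]
      refine Finset.sum_congr rfl fun j' _ => ?_
      have e2 : a * (j - j') = -(a * j') + a * j := by ring
      rw [e2, EE_add]
      ring
    rw [Finset.sum_congr rfl fun a _ => e1 a, Finset.sum_comm]
    have e3 : ∀ j' : ZMod q, ∑ a, (EE (a * (j - j')) - EE (a * j)) * A ψ j' =
        if j = j' then (q : ℂ) * A ψ j' else 0 := by
      intro j'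
      rw [← Finset.sum_mul, Finset.sum_sub_distrib, EE_sum, EE_sum, if_neg hj, sub_zero]
      simp only [sub_eq_zero]
      split_ifs
      · rfl
      · rw [zero_mul]
    rw [Finset.sum_congr rfl fun j' _ => e3 j', Finset.sum_ite_eq univ j, if_pos (mem_univ _)]
  have hE1 : ∀ j : ZMod q, j ≠ 0 → ∑ a ∈ univ.erase (0 : ZMod q), EE (a * j) = -1 := by
    intro j hj
    have h1 := Finset.sum_erase_add univ (fun a : ZMod q => EE (a * j)) (mem_univ 0)
    simp only [zero_mul, EE_zero] at h1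
    rw [EE_sum, if_neg hj] at h1
    exact eq_neg_of_add_eq_zero_left h1
  let f : Fin m ≃ ι := (Fintype.equivFinOfCardEq hcι).symm
  refine ⟨e, fun i => χ (f i), Ψ, he, fun i j h => f.injective (hinj h), ?_, fun i => hΨ0 _, hΨ2,
    ?_, ?_⟩
  · intro ψ hψ j hj
    have h1 : ∀ a : ZMod q, a ≠ 0 → n a ψ = -Ψ ψ := by
      intro a ha
      obtain ⟨i, δ, hδ, hi⟩ := hrepex a ha
      rw [← hi, hnδ δ hδ]
      have h2 := hc i ψ
      have h4 : ψ ≠ χ i := by
        have h5 : ψ ≠ χ (f (f.symm i)) := hψ (f.symm i)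
        rwa [Equiv.apply_symm_apply] at h5
      rw [if_neg h4, zero_sub] at h2
      exact h2
    rw [hF ψ j hj]
    have h2 : ∀ a ∈ univ.erase (0 : ZMod q), (n a ψ : ℂ) * EE (a * j) = -(Ψ ψ : ℂ) * EE (a * j) := by
      intro a ha
      rw [h1 a (mem_erase.1 ha).1]
      push_cast
      ring
    rw [Finset.sum_congr rfl h2, ← Finset.mul_sum, hE1 j hj]
    ring
  · intro j hj
    have h1 : ∀ i : ι, A (χ i) j = (e : ℂ) * ∑ δ : Δ, EE (((δ : (ZMod q)ˣ) : ZMod q) * rep i * j) := by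
      intro i
      rw [hF _ j hj, hsum]
      have h2 : ∀ k : ι, ∑ δ : Δ, (n (((δ : (ZMod q)ˣ) : ZMod q) * rep k) (χ i) : ℂ) *
          EE (((δ : (ZMod q)ˣ) : ZMod q) * rep k * j) = if k = i then
            (e : ℂ) * ∑ δ : Δ, EE (((δ : (ZMod q)ˣ) : ZMod q) * rep k * j) else 0 := by
        intro k
        have h4 : n (rep k) (χ i) = if k = i then e else 0 := by
          have h5 := hc k (χ i)
          rw [hΨ0, sub_zero] at h5
          refine h5.trans ?_
          by_cases hki : k = i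
          · rw [if_pos hki, if_pos (by rw [hki])]
          · rw [if_neg hki, if_neg (fun h => hki (hinj h).symm)]
        have h6 : ∀ δ : Δ, (n (((δ : (ZMod q)ˣ) : ZMod q) * rep k) (χ i) : ℂ) *
          EE (((δ : (ZMod q)ˣ) : ZMod q) * rep k * j) = (n (rep k) (χ i) : ℂ) *
          EE (((δ : (ZMod q)ˣ) : ZMod q) * rep k * j) := fun δ => by rw [hnδ _ δ.2]
        rw [Finset.sum_congr rfl fun δ _ => h6 δ, ← Finset.mul_sum, h4]
        split_ifs
        · rfl
        · rw [Int.cast_zero, zero_mul]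
      rw [Finset.sum_congr rfl fun k _ => h2 k, Finset.sum_ite_eq' univ i, if_pos (mem_univ _)]
    have h2 : ∑ i : Fin m, A (χ (f i)) j = ∑ i : ι, A (χ i) j :=
      Fintype.sum_equiv f _ _ fun _ => rfl
    have h4 : ∑ i : ι, ∑ δ : Δ, EE (((δ : (ZMod q)ˣ) : ZMod q) * rep i * j) = -1 := by
      rw [← hE1 j hj, hsum]
    rw [h2, Finset.sum_congr rfl fun i _ => h1 i, ← Finset.mul_sum, h4]
    rcases he with h | h <;> rw [h] <;> norm_num
  · intro h hh i
    have h1 := horth h hh (rep (f i))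
    have h2 : ∑ ψ, (n (rep (f i)) ψ : ℂ) * h ψ = ∑ ψ, (if ψ = χ (f i) then (e : ℂ) * h ψ else 0) -
        ∑ ψ, (Ψ ψ : ℂ) * h ψ := by
      rw [← Finset.sum_sub_distrib]
      refine Finset.sum_congr rfl fun ψ _ => ?_
      rw [hc (f i) ψ]
      split_ifs
      · push_cast; ring
      · push_cast; ring
    rw [h2, Finset.sum_ite_eq' univ (χ (f i)), if_pos (mem_univ _)] at h1
    exact sub_eq_zero.1 h1

end Coh2

end P179H450
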