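import Vale.Agent.P179.R2.H450.Coh2
import Vale.Agent.P179.R2.H854.Cen
import Vale.Agent.P179.R2.H725.Ind

/-!
# Coherence in the centraliser of a non-regular element: group theory
-/

namespace P179H450

open Finset Subgroup

open scoped Classical

section Cyc

variable {G : Type} [Group G]

/-- `D / Z` is cyclic of order `q`, generated by `v`; `Z` is central -/
structure CycQ (D Z : Subgroup G) (v : G) (q : ℕ) : Prop where
  le : Z ≤ D
  mem : v ∈ D
  cen : ∀ z ∈ Z, ∀ x : G, z * x = x * z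
  gen : ∀ u ∈ D, ∃ z ∈ Z, ∃ j : ℕ, u = z * v ^ j
  ord : ∀ j : ℕ, v ^ j ∈ Z ↔ q ∣ j

variable {D Z : Subgroup G} {v : G} {q : ℕ}

/-- the exponent modulo `q` -/
noncomputable def CycQ.pj (h : CycQ D Z v q) (u : G) : ZMod q :=
  if hu : u ∈ D then (((h.gen u hu).choose_spec.2.choose : ℕ) : ZMod q) else 0

theorem CycQ.modEq (h : CycQ D Z v q) {z z' : G} (hz : z ∈ Z) (hz' : z' ∈ Z) {j j' : ℕ}
    (e : z * v ^ j = z' * v ^ j') : j ≡ j' [MOD q] := by
  rcases le_total j j' with hj | hj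
  · refine (Nat.modEq_iff_dvd' hj).2 ((h.ord _).1 ?_)
    have h1 : v ^ (j' - j) = z'⁻¹ * z := by
      have h2 : v ^ j' = v ^ (j' - j) * v ^ j := by rw [← pow_add, Nat.sub_add_cancel hj]
      rw [h2] at e
      have h3 : z = z' * v ^ (j' - j) := by
        apply mul_right_cancel (b := v ^ j)
        rw [e, mul_assoc]
      rw [h3]; group
    rw [h1]
    exact mul_mem (inv_mem hz') hz
  · refine ((Nat.modEq_iff_dvd' hj).2 ((h.ord _).1 ?_)).symm
    have h1 : v ^ (j - j') = z⁻¹ * z' := by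
      have h2 : v ^ j = v ^ (j - j') * v ^ j' := by rw [← pow_add, Nat.sub_add_cancel hj]
      rw [h2] at e
      have h3 : z' = z * v ^ (j - j') := by
        apply mul_right_cancel (b := v ^ j')
        rw [← e, mul_assoc]
      rw [h3]; group
    rw [h1]
    exact mul_mem (inv_mem hz) hz'

theorem CycQ.pj_eq (h : CycQ D Z v q) {z : G} (hz : z ∈ Z) (j : ℕ) :
    h.pj (z * v ^ j) = (j : ZMod q) := by
  have hu : z * v ^ j ∈ D := mul_mem (h.le hz) (pow_mem h.mem j)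
  unfold CycQ.pj
  rw [dif_pos hu]
  obtain ⟨hz', hj'⟩ := (h.gen _ hu).choose_spec
  have e := hj'.choose_spec
  rw [ZMod.natCast_eq_natCast_iff]
  exact (h.modEq hz hz' e).symm

theorem CycQ.pj_pow (h : CycQ D Z v q) (j : ℕ) : h.pj (v ^ j) = (j : ZMod q) := by
  have := h.pj_eq (one_mem Z) j
  rwa [one_mul] at this

theorem CycQ.pj_v (h : CycQ D Z v q) : h.pj v = 1 := by
  have := h.pj_pow 1
  rwa [pow_one, Nat.cast_one] at this

theorem CycQ.pj_z (h : CycQ D Z v q) {z : G} (hz : z ∈ Z) : h.pj z = 0 := by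
  have := h.pj_eq hz 0
  rwa [pow_zero, mul_one, Nat.cast_zero] at this

theorem CycQ.pj_mul (h : CycQ D Z v q) {u u' : G} (hu : u ∈ D) (hu' : u' ∈ D) :
    h.pj (u * u') = h.pj u + h.pj u' := by
  obtain ⟨z, hz, j, rfl⟩ := h.gen u hu
  obtain ⟨z', hz', j', rfl⟩ := h.gen u' hu'
  have e : z * v ^ j * (z' * v ^ j') = (z * z') * v ^ (j + j') := by
    rw [pow_add]
    calc z * v ^ j * (z' * v ^ j') = z * (v ^ j * z') * v ^ j' := by group
      _ = z * (z' * v ^ j) * v ^ j' := by rw [h.cen z' hz']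
      _ = _ := by group
  rw [e, h.pj_eq (mul_mem hz hz'), h.pj_eq hz, h.pj_eq hz']
  push_cast; rfl

theorem CycQ.pj_eq_zero (h : CycQ D Z v q) {u : G} (hu : u ∈ D) : h.pj u = 0 ↔ u ∈ Z := by
  constructor
  · intro h0
    obtain ⟨z, hz, j, rfl⟩ := h.gen u hu
    rw [h.pj_eq hz, ZMod.natCast_eq_zero_iff] at h0
    exact mul_mem hz ((h.ord j).2 h0)
  · exact h.pj_z

theorem CycQ.pj_npow (h : CycQ D Z v q) {u : G} (hu : u ∈ D) (j : ℕ) :
    h.pj (u ^ j) = j * h.pj u := by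
  induction j with
  | zero => rw [pow_zero, h.pj_z (one_mem Z), Nat.cast_zero, zero_mul]
  | succ j ih =>
    rw [pow_succ, h.pj_mul (pow_mem hu j) hu, ih]
    push_cast; ring

theorem CycQ.pj_conj (h : CycQ D Z v q) {t : G} (ht : ∀ x ∈ D, t * x * t⁻¹ ∈ D) {u : G}
    (hu : u ∈ D) : h.pj (t * u * t⁻¹) = h.pj (t * v * t⁻¹) * h.pj u := by
  obtain ⟨z, hz, j, rfl⟩ := h.gen u hu
  have e : t * (z * v ^ j) * t⁻¹ = z * (t * v * t⁻¹) ^ j := by
    rw [conj_pow]
    calc t * (z * v ^ j) * t⁻¹ = (t * z) * v ^ j * t⁻¹ := by group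
      _ = (z * t) * v ^ j * t⁻¹ := by rw [h.cen z hz]
      _ = _ := by group
  rw [e, h.pj_mul (h.le hz) (pow_mem (ht v h.mem) j), h.pj_z hz, zero_add,
    h.pj_npow (ht v h.mem), h.pj_eq hz, mul_comm]

theorem CycQ.pj_inj (h : CycQ D Z v q) {u u' : G} (hu : u ∈ D) (hu' : u' ∈ D)
    (e : h.pj u = h.pj u') : ∃ z ∈ Z, u = z * u' := by
  refine ⟨u * u'⁻¹, ?_, by group⟩
  rw [← h.pj_eq_zero (mul_mem hu (inv_mem hu'))]
  have h1 := h.pj_mul (mul_mem hu (inv_mem hu')) hu'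
  rw [inv_mul_cancel_right, e] at h1
  exact left_eq_add.1 (by rw [add_comm]; exact h1)

/-- the additive homomorphism -/
noncomputable def CycQ.hom (h : CycQ D Z v q) : Additive D →+ ZMod q where
  toFun b := h.pj ((b.toMul : D) : G)
  map_zero' := h.pj_z (one_mem Z)
  map_add' a b := h.pj_mul (a.toMul).2 (b.toMul).2

/-- the parametrisation -/
noncomputable def CycQ.equiv [NeZero q] (h : CycQ D Z v q) : Z × ZMod q ≃ D where
  toFun x := ⟨(x.1 : G) * v ^ x.2.val, mul_mem (h.le x.1.2) (pow_mem h.mem _)⟩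
  invFun u := ⟨⟨(u : G) * (v ^ (h.pj u).val)⁻¹, by
    have hm : (u : G) * (v ^ (h.pj u).val)⁻¹ ∈ D := mul_mem u.2 (inv_mem (pow_mem h.mem _))
    rw [← h.pj_eq_zero hm]
    have h1 := h.pj_mul hm (pow_mem h.mem (h.pj u).val)
    rw [inv_mul_cancel_right, h.pj_pow, ZMod.natCast_zmod_val] at h1
    exact left_eq_add.1 (by rw [add_comm]; exact h1)⟩, h.pj u⟩
  left_inv x := by
    have h1 : h.pj ((x.1 : G) * v ^ x.2.val) = x.2 := by
      rw [h.pj_eq x.1.2, ZMod.natCast_zmod_val]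
    refine Prod.ext (Subtype.ext ?_) h1
    change (x.1 : G) * v ^ x.2.val * (v ^ (h.pj ((x.1 : G) * v ^ x.2.val)).val)⁻¹ = x.1
    rw [h1, mul_inv_cancel_right]
  right_inv u := Subtype.ext (by
    change (u : G) * (v ^ (h.pj u).val)⁻¹ * v ^ (h.pj u).val = u
    rw [inv_mul_cancel_right])

theorem CycQ.card [Finite G] [NeZero q] (h : CycQ D Z v q) : q * Nat.card Z = Nat.card D := by
  rw [← Nat.card_congr h.equiv, Nat.card_prod, Nat.card_zmod, mul_comm]

end Cyc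

section Act

variable {p : ℕ} [hp : Fact p.Prime] {G : Type} [Group G] [Finite G] {D Z T : Subgroup G} {v : G}
  {q : ℕ}

/-- the character of the inertial group on `D / Z` -/
noncomputable def CycQ.kap (h : CycQ D Z v q) (hT : T ≤ normalizer (D : Set G)) :
    T →* (ZMod q)ˣ :=
  MonoidHom.toHomUnits
    { toFun := fun t => h.pj ((t : G) * v * (t : G)⁻¹)
      map_one' := by
        rw [Subgroup.coe_one, one_mul, inv_one, mul_one]
        exact h.pj_v
      map_mul' := fun t t' => by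
        have hc : ∀ t ∈ T, ∀ x ∈ D, t * x * t⁻¹ ∈ D := fun t ht x hx =>
          (mem_normalizer_iff.1 (hT ht) x).1 hx
        have e : ((t * t' : T) : G) * v * ((t * t' : T) : G)⁻¹ =
            (t : G) * ((t' : G) * v * (t' : G)⁻¹) * (t : G)⁻¹ := by
          push_cast; group
        rw [e, h.pj_conj (hc t t.2) (hc t' t'.2 v h.mem)] }

theorem CycQ.kap_coe (h : CycQ D Z v q) (hT : T ≤ normalizer (D : Set G)) (t : T) :
    ((h.kap hT t : (ZMod q)ˣ) : ZMod q) = h.pj ((t : G) * v * (t : G)⁻¹) := rfl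

theorem CycQ.kap_mul (h : CycQ D Z v q) (hT : T ≤ normalizer (D : Set G)) (t : T) {u : G}
    (hu : u ∈ D) : ((h.kap hT t : (ZMod q)ˣ) : ZMod q) * h.pj u =
      h.pj ((t : G) * u * (t : G)⁻¹) := by
  rw [h.kap_coe, ← h.pj_conj (fun x hx => (mem_normalizer_iff.1 (hT t.2) x).1 hx) hu]

include hp in
/-- regular action -/
theorem CycQ.cent (h : CycQ D Z v q) (hD : IsPGroup p D) (hT : T ≤ normalizer (D : Set G))
    (he : ¬ p ∣ (centralizer (D : Set G)).relIndex T)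
    (hreg : ∀ u ∈ D, u ∉ Z → ∀ n ∈ T, n * u * n⁻¹ = u → n ∈ centralizer (D : Set G)) {t u : G}
    (ht : t ∈ T) (hu : u ∈ D) (huZ : u ∉ Z) (e : h.pj (t * u * t⁻¹) = h.pj u) :
    t ∈ centralizer (D : Set G) := by
  have hc : ∀ x ∈ D, t * x * t⁻¹ ∈ D := fun x hx => (mem_normalizer_iff.1 (hT ht) x).1 hx
  obtain ⟨z, hz, hzu⟩ := h.pj_inj (hc u hu) hu e
  have h1 := P179H725.pow_relIndex_mem (P179H725.subgroupOf_centralizer_normal hT) ht
  set n := (centralizer (D : Set G)).relIndex T with hn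
  have h2 : ∀ j : ℕ, t ^ j * u * (t ^ j)⁻¹ = z ^ j * u := by
    intro j
    induction j with
    | zero => simp
    | succ j ih =>
      have e1 : t ^ (j + 1) * u * (t ^ (j + 1))⁻¹ = t * (t ^ j * u * (t ^ j)⁻¹) * t⁻¹ := by
        rw [pow_succ']; group
      rw [e1, ih]
      have hzc := h.cen (z ^ j) (pow_mem hz j) t
      calc t * (z ^ j * u) * t⁻¹ = (t * z ^ j) * u * t⁻¹ := by group
        _ = (z ^ j * t) * u * t⁻¹ := by rw [hzc]
        _ = z ^ j * (t * u * t⁻¹) := by group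
        _ = z ^ (j + 1) * u := by rw [hzu, pow_succ]; group
  have h3 : z ^ n = 1 := by
    have h4 := h2 n
    have h5 : t ^ n * u * (t ^ n)⁻¹ = u := by
      have h6 := mem_centralizer_iff.1 h1 u hu
      rw [← h6, mul_inv_cancel_right]
    rw [h5] at h4
    exact (mul_eq_right (a := z ^ n) (b := u)).1 h4.symm
  have h4 : z = 1 := by
    obtain ⟨j, hj⟩ := hD ⟨z, h.le hz⟩
    have hj' : z ^ p ^ j = 1 := congrArg Subtype.val hj
    have hcop : Nat.Coprime n (p ^ j) :=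
      (Nat.Coprime.pow_left j ((Nat.Prime.coprime_iff_not_dvd hp.out).2 he)).symm
    have h7 : orderOf z ∣ Nat.gcd n (p ^ j) :=
      Nat.dvd_gcd (orderOf_dvd_of_pow_eq_one h3) (orderOf_dvd_of_pow_eq_one hj')
    rw [hcop] at h7
    exact orderOf_eq_one_iff.1 (Nat.dvd_one.1 h7)
  rw [h4, one_mul] at hzu
  exact hreg u hu huZ t ht hzu

include hp in
theorem CycQ.kap_ker (h : CycQ D Z v q) (hD : IsPGroup p D) (hT : T ≤ normalizer (D : Set G))
    (he : ¬ p ∣ (centralizer (D : Set G)).relIndex T) (hvZ : v ∉ Z)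
    (hreg : ∀ u ∈ D, u ∉ Z → ∀ n ∈ T, n * u * n⁻¹ = u → n ∈ centralizer (D : Set G)) :
    (h.kap hT).ker = (centralizer (D : Set G)).subgroupOf T := by
  ext t
  rw [MonoidHom.mem_ker, mem_subgroupOf]
  constructor
  · intro h1
    refine h.cent hD hT he hreg t.2 h.mem hvZ ?_
    rw [← h.kap_coe hT t, h1, h.pj_v, Units.val_one]
  · intro h1
    apply Units.ext
    rw [h.kap_coe hT t, Units.val_one]
    have h6 := mem_centralizer_iff.1 h1 v h.mem
    rw [← h6, mul_inv_cancel_right, h.pj_v]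

include hp in
theorem CycQ.card_range (h : CycQ D Z v q) (hD : IsPGroup p D) (hT : T ≤ normalizer (D : Set G))
    (he : ¬ p ∣ (centralizer (D : Set G)).relIndex T) (hvZ : v ∉ Z)
    (hreg : ∀ u ∈ D, u ∉ Z → ∀ n ∈ T, n * u * n⁻¹ = u → n ∈ centralizer (D : Set G)) :
    Nat.card (h.kap hT).range = (centralizer (D : Set G)).relIndex T := by
  rw [← Subgroup.index_ker, h.kap_ker hD hT he hvZ hreg]
  rfl

include hp in
theorem CycQ.free [NeZero q] (h : CycQ D Z v q) (hD : IsPGroup p D)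
    (hT : T ≤ normalizer (D : Set G)) (he : ¬ p ∣ (centralizer (D : Set G)).relIndex T)
    (hvZ : v ∉ Z)
    (hreg : ∀ u ∈ D, u ∉ Z → ∀ n ∈ T, n * u * n⁻¹ = u → n ∈ centralizer (D : Set G)) :
    ∀ δ ∈ (h.kap hT).range, ∀ a : ZMod q, a ≠ 0 → (δ : ZMod q) * a = a → δ = 1 := by
  rintro _ ⟨t, rfl⟩ a ha hδ
  have hpa : h.pj (v ^ a.val) = a := by rw [h.pj_pow, ZMod.natCast_zmod_val]
  have hu : v ^ a.val ∉ Z := by
    rw [← h.pj_eq_zero (pow_mem h.mem _), hpa]
    exact ha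
  have h1 : (t : G) ∈ centralizer (D : Set G) := by
    refine h.cent hD hT he hreg t.2 (pow_mem h.mem a.val) hu ?_
    rw [← h.kap_mul hT t (pow_mem h.mem a.val), hpa, hδ]
  have h2 : t ∈ (h.kap hT).ker := by
    rw [h.kap_ker hD hT he hvZ hreg]
    exact h1
  exact h2

end Act

end P179H450
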