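import Vale.Agent.P179.R2.H450.Coh3

/-!
# Coherence in the centraliser of a non-regular element: the numbers
-/

namespace P179H450

open Finset P179P P179C P179Y Subgroup P179H524 P179I P179H452

open scoped Classical IsMulCommutative

universe v

section

variable {p : ℕ} [hp : Fact p.Prime] {k : Type v} [Field k] [CharP k p] {red : AA →+* k}
  {G : Type} [Group G] [Fintype G] {D : Subgroup G} {l : (G → k) → k}
  {Φ : ∀ H : Subgroup G, Irr H} {aH bH : Subgroup G → ℕ} {ε : Subgroup G → ℤ} {κ₀ : k}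
  {Z : Subgroup G} {v : G} {q : ℕ}

/-- the numbers at the powers of `v` -/
noncomputable def An (p : ℕ) [Fact p.Prime] {G : Type} [Group G] [Fintype G] (D : Subgroup G)
    (Φ : ∀ H : Subgroup G, Irr H) (ε : Subgroup G → ℤ) (v : G) {q : ℕ} (ψ : Irr G)
    (j : ZMod q) : ℂ :=
  (Ad p D Φ ε (v ^ j.val) ψ : ℂ)

theorem CycQ.pv [NeZero q] (hQ : CycQ D Z v q) (j : ZMod q) : hQ.pj (v ^ j.val) = j := by
  rw [hQ.pj_pow, ZMod.natCast_zmod_val]

theorem CycQ.vj [NeZero q] (hQ : CycQ D Z v q) {j : ZMod q} (hj : j ≠ 0) : v ^ j.val ∉ Z := by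
  rw [← hQ.pj_eq_zero (pow_mem hQ.mem _), hQ.pv]
  exact hj

theorem An_eq [NeZero q] (h : LocR p red D l Φ aH bH ε κ₀)
    (hreg : ∀ u ∈ D, u ∉ Z → RegT D l u) (hQ : CycQ D Z v q) {ψ : Irr G} (hψ : ψ ∈ XZ red l Z)
    {u : G} (hu : u ∈ D) (huZ : u ∉ Z) : (Ad p D Φ ε u ψ : ℂ) = An p D Φ ε v ψ (hQ.pj u) := by
  have hj : hQ.pj u ≠ 0 := fun h0 => huZ ((hQ.pj_eq_zero hu).1 h0)
  obtain ⟨z, hz, hzu⟩ := hQ.pj_inj hu (pow_mem hQ.mem (hQ.pj u).val) (hQ.pv _).symm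
  unfold An
  conv_lhs => rw [hzu]
  rw [P179H854.ad_mul_of_mem_XZ h hQ.cen hQ.le hreg hψ hz (pow_mem hQ.mem _) (hQ.vj hj)]

theorem An_inv [NeZero q] (h : LocR p red D l Φ aH bH ε κ₀) (hl : BP p D l)
    (hreg : ∀ u ∈ D, u ∉ Z → RegT D l u) (hQ : CycQ D Z v q) {ψ : Irr G} (hψ : ψ ∈ XZ red l Z)
    {δ : (ZMod q)ˣ} (hδ : δ ∈ (hQ.kap (stabT_le_norm D l)).range) (j : ZMod q) :
    An p D Φ ε v ψ ((δ : ZMod q) * j) = An p D Φ ε v ψ j := by
  obtain ⟨t, rfl⟩ := hδ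
  by_cases hj : j = 0
  · rw [hj, mul_zero]
  have hTN : stabT D l ≤ normalizer (D : Set G) := stabT_le_norm D l
  have hu : v ^ j.val ∈ D := pow_mem hQ.mem j.val
  have hc : (t : G) * v ^ j.val * (t : G)⁻¹ ∈ D := (mem_normalizer_iff.1 (hTN t.2) _).1 hu
  have hpc : hQ.pj ((t : G) * v ^ j.val * (t : G)⁻¹) =
      ((hQ.kap hTN t : (ZMod q)ˣ) : ZMod q) * j := by
    rw [← hQ.kap_mul hTN t hu, hQ.pv]
  have hcZ : (t : G) * v ^ j.val * (t : G)⁻¹ ∉ Z := by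
    rw [← hQ.pj_eq_zero hc, hpc]
    exact fun h0 => hj ((Units.mul_right_eq_zero _).1 h0)
  have h1 := An_eq h hreg hQ hψ hc hcZ
  rw [hpc] at h1
  rw [← h1, h.ad_conj hl (hreg _ hu (hQ.vj hj))
    (fun h1 => hQ.vj hj (h1 ▸ one_mem Z)) t.2]
  rfl

/-- the number of `z` with `t u t⁻¹ = z b` -/
theorem ite_gram [NeZero q] (hD : IsPGroup p D)
    (hT : ¬ p ∣ (centralizer (D : Set G)).relIndex (stabT D l))
    (hreg : ∀ u ∈ D, u ∉ Z → RegT D l u) (hQ : CycQ D Z v q) {i j : ZMod q} (hi : i ≠ 0) :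
    1 / (Nat.card Z : ℂ) * ∑ z : Z, (if ∃ t ∈ stabT D l, t * v ^ i.val * t⁻¹ =
      (z : G) * v ^ j.val then (Nat.card D : ℂ) else 0) =
      if ∃ δ ∈ (hQ.kap (stabT_le_norm D l)).range, (δ : ZMod q) * i = j then (q : ℂ) else 0 := by
  have hTN : stabT D l ≤ normalizer (D : Set G) := stabT_le_norm D l
  have hui : v ^ i.val ∈ D := pow_mem hQ.mem i.val
  have huj : v ^ j.val ∈ D := pow_mem hQ.mem j.val
  have hcardZ : (Nat.card Z : ℂ) ≠ 0 := by exact_mod_cast Nat.card_pos.ne'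
  have hcard := hQ.card
  have hreg' : ∀ u ∈ D, u ∉ Z → ∀ n ∈ stabT D l, n * u * n⁻¹ = u →
      n ∈ centralizer (D : Set G) := fun u hu huZ n hn hh => (hreg u hu huZ).2 n hn hh
  have hpz : ∀ z : Z, hQ.pj ((z : G) * v ^ j.val) = j := fun z => by
    rw [hQ.pj_mul (hQ.le z.2) huj, hQ.pj_z z.2, zero_add, hQ.pv]
  by_cases hex : ∃ δ ∈ (hQ.kap (stabT_le_norm D l)).range, (δ : ZMod q) * i = j
  · rw [if_pos hex]
    obtain ⟨_, ⟨t₀, rfl⟩, hδ⟩ := hex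
    have hc₀ : (t₀ : G) * v ^ i.val * (t₀ : G)⁻¹ ∈ D := (mem_normalizer_iff.1 (hTN t₀.2) _).1 hui
    have hp₀ : hQ.pj ((t₀ : G) * v ^ i.val * (t₀ : G)⁻¹) = j := by
      rw [← hQ.kap_mul hTN t₀ hui, hQ.pv, hδ]
    obtain ⟨z₀, hz₀, hzeq⟩ := hQ.pj_inj hc₀ huj (hp₀.trans (hQ.pv j).symm)
    have h3 : ∀ z : Z, (if ∃ t ∈ stabT D l, t * v ^ i.val * t⁻¹ = (z : G) * v ^ j.val then
        (Nat.card D : ℂ) else 0) = if z = ⟨z₀, hz₀⟩ then (Nat.card D : ℂ) else 0 := by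
      intro z
      refine if_congr ⟨?_, ?_⟩ rfl rfl
      · rintro ⟨t, ht, htz⟩
        have h4 : (t₀ : G)⁻¹ * t ∈ stabT D l := mul_mem (inv_mem t₀.2) ht
        have h5 : ((t₀ : G)⁻¹ * t) ∈ centralizer (D : Set G) := by
          refine hQ.cent hD hTN hT hreg' h4 hui (hQ.vj hi) ?_
          have h6 : (t₀ : G)⁻¹ * t * v ^ i.val * ((t₀ : G)⁻¹ * t)⁻¹ =
              (t₀ : G)⁻¹ * ((z : G) * v ^ j.val) * ((t₀ : G)⁻¹)⁻¹ := by
            rw [← htz]; group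
          rw [h6]
          have h7 := hQ.kap_mul hTN (t₀⁻¹) (mul_mem (hQ.le z.2) huj)
          rw [Subgroup.coe_inv] at h7
          rw [← h7, hpz, map_inv, hQ.pv]
          conv_lhs => rw [← hδ]
          rw [← mul_assoc, ← Units.val_mul, inv_mul_cancel, Units.val_one, one_mul]
        have h8 := mem_centralizer_iff.1 h5 _ hui
        apply Subtype.ext
        have h9 : t * v ^ i.val * t⁻¹ = (t₀ : G) * v ^ i.val * (t₀ : G)⁻¹ := by
          have h10 : t * v ^ i.val * t⁻¹ = (t₀ : G) * ((t₀ : G)⁻¹ * t * v ^ i.val) * t⁻¹ := by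
            group
          rw [h10, ← h8]; group
        rw [htz, hzeq] at h9
        exact mul_right_cancel h9
      · rintro rfl
        exact ⟨t₀, t₀.2, hzeq⟩
    rw [Finset.sum_congr rfl fun z _ => h3 z, Finset.sum_ite_eq' univ (⟨z₀, hz₀⟩ : Z),
      if_pos (mem_univ _), ← hcard]
    push_cast
    field_simp
  · rw [if_neg hex, Finset.sum_eq_zero, mul_zero]
    intro z _
    rw [if_neg]
    rintro ⟨t, ht, htz⟩
    apply hex
    refine ⟨hQ.kap hTN ⟨t, ht⟩, ⟨⟨t, ht⟩, rfl⟩, ?_⟩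
    have h4 := hQ.kap_mul hTN ⟨t, ht⟩ hui
    rw [hQ.pv] at h4
    rw [h4]
    change hQ.pj (t * v ^ i.val * t⁻¹) = j
    rw [htz, hpz]

include hp in
theorem An_int [NeZero q] [IsAlgClosed k] (h : LocR p red D l Φ aH bH ε κ₀) (hl : BP p D l)
    (hD : IsPGroup p D) (hab : D ≤ centralizer (D : Set G)) (hp2 : p ≠ 2)
    (hT : ¬ p ∣ (centralizer (D : Set G)).relIndex (stabT D l))
    (hreg : ∀ u ∈ D, u ∉ Z → RegT D l u) (hQ : CycQ D Z v q) {ψ : Irr G} (hψ : ψ ∈ XZ red l Z)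
    (a : ZMod q) : ∃ n : ℤ,
      ∑ j ∈ univ.erase (0 : ZMod q), (EE (-(a * j)) - 1) * An p D Φ ε v ψ j = q * n := by
  have hcomm : IsMulCommutative D := ⟨⟨fun a b => Subtype.ext
    (mem_centralizer_iff.1 (hab b.2) a a.2)⟩⟩
  have he : ((centralizer (D : Set G)).relIndex (stabT D l) : k) ≠ 0 := by
    rwa [Ne, CharP.cast_eq_zero_iff k p]
  have hcardZ : (Nat.card Z : ℂ) ≠ 0 := by exact_mod_cast Nat.card_pos.ne'
  have hcard := hQ.card
  let lam : AddChar (Additive D) ℂ :=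
    (AddChar.mulShift (ZMod.stdAddChar (N := q)) a).compAddMonoidHom hQ.hom
  have hlamv : ∀ b : Additive D, lam b = EE (a * hQ.pj ((b.toMul : D) : G)) := fun b => rfl
  obtain ⟨n, hn⟩ := P179H854.sum_lam h hl hD hab hp2 he hreg lam (fun b hb => by
    rw [hlamv, hQ.pj_z hb, mul_zero, EE_zero]) ψ
  refine ⟨n, ?_⟩
  have h1 : ∑ b : Additive D, (if ((b.toMul : D) : G) ∈ Z then 0 else
      (lam (-b) - 1) * (Ad p D Φ ε ((b.toMul : D) : G) ψ : ℂ)) =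
      ∑ x : Z × ZMod q, if x.2 = 0 then 0 else (EE (-(a * x.2)) - 1) * An p D Φ ε v ψ x.2 := by
    refine (Fintype.sum_equiv (hQ.equiv.trans Additive.ofMul) _ _ fun x => ?_).symm
    have hbG : ((((hQ.equiv.trans Additive.ofMul) x).toMul : D) : G) = (x.1 : G) * v ^ x.2.val :=
      rfl
    have hpx : hQ.pj ((x.1 : G) * v ^ x.2.val) = x.2 := by
      rw [hQ.pj_eq x.1.2, ZMod.natCast_zmod_val]
    have hxD : (x.1 : G) * v ^ x.2.val ∈ D := mul_mem (hQ.le x.1.2) (pow_mem hQ.mem _)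
    rw [hbG]
    by_cases hx : x.2 = 0
    · rw [if_pos hx, if_pos]
      rw [← hQ.pj_eq_zero hxD, hpx, hx]
    · have hxZ : (x.1 : G) * v ^ x.2.val ∉ Z := by
        rw [← hQ.pj_eq_zero hxD, hpx]
        exact hx
      rw [if_neg hx, if_neg hxZ, An_eq h hreg hQ hψ hxD hxZ, hpx]
      congr 2
      rw [AddChar.map_neg_eq_conj, hlamv, hbG, hpx, EE_conj]
  rw [h1, Fintype.sum_prod_type] at hn
  have h2 : ∀ z : Z, ∑ j : ZMod q, (if j = 0 then 0 else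
      (EE (-(a * j)) - 1) * An p D Φ ε v ψ j) =
      ∑ j ∈ univ.erase (0 : ZMod q), (EE (-(a * j)) - 1) * An p D Φ ε v ψ j := by
    intro z
    rw [← Finset.sum_erase_add univ _ (mem_univ (0 : ZMod q)), if_pos rfl, add_zero]
    exact Finset.sum_congr rfl fun j hj => if_neg (mem_erase.1 hj).1
  simp only at hn
  rw [Finset.sum_congr rfl fun z _ => h2 z, Finset.sum_const, card_univ, nsmul_eq_mul,
    ← Nat.card_eq_fintype_card, ← hcard] at hn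
  apply mul_left_cancel₀ hcardZ
  rw [hn]
  push_cast
  ring

end

end P179H450
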