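import Vale.Agent.P179.R2.H452.MDef

/-!
# Integer coherence: definitions
-/

namespace P179H450

open Finset P179P P179C P179Y Subgroup P179H524 P179I P179H452

open scoped Classical IsMulCommutative

universe v

/-- the characters of the block with the central subgroup `Z` in the kernel -/
noncomputable def XZ {k : Type v} [Field k] (red : AA →+* k) {G : Type} [Group G] [Fintype G]
    (l : (G → k) → k) (Z : Subgroup G) : Finset (Irr G) :=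
  univ.filter fun ψ => InL red l ψ.1 ∧ ∀ z ∈ Z, ∀ x, ψ.1 (z * x) = ψ.1 x

theorem mem_XZ {k : Type v} [Field k] {red : AA →+* k} {G : Type} [Group G] [Fintype G]
    {l : (G → k) → k} {Z : Subgroup G} {ψ : Irr G} :
    ψ ∈ XZ red l Z ↔ InL red l ψ.1 ∧ ∀ z ∈ Z, ∀ x, ψ.1 (z * x) = ψ.1 x := by
  unfold XZ
  rw [mem_filter]
  exact and_iff_right (mem_univ _)

/-- the output of the coherence argument: `X = {χ i} ⊔ S`, the numbers at `u ∈ D \ Z` are constant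
on `S` -/
structure Coh (p : ℕ) [Fact p.Prime] {k : Type v} [Field k] (red : AA →+* k) {G : Type} [Group G]
    [Fintype G] (D : Subgroup G) (l : (G → k) → k) (Φ : ∀ H : Subgroup G, Irr H)
    (ε : Subgroup G → ℤ) (Z : Subgroup G) (s m : ℕ) (e : ℤ) (χ : Fin m → Irr G)
    (r : Irr G → ℤ) : Prop where
  he : e = 1 ∨ e = -1
  inj : Function.Injective χ
  mem : ∀ i, χ i ∈ XZ red l Z
  ne : ∀ ψ ∈ XZ red l Z, (∀ i, ψ ≠ χ i) → r ψ ≠ 0
  val : ∀ ψ ∈ XZ red l Z, (∀ i, ψ ≠ χ i) → ∀ u ∈ D, u ∉ Z → Ad p D Φ ε u ψ = (r ψ : AA)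
  sq : ∑ ψ ∈ (XZ red l Z).filter (fun ψ => ∀ i, ψ ≠ χ i), (r ψ) ^ 2 = s
  sum : ∀ u ∈ D, u ∉ Z → (e : AA) * ∑ i, Ad p D Φ ε u (χ i) = -1
  card : (s * m + 1) * Nat.card Z = Nat.card D
  reg : ∀ i, ∀ g : G, ¬ p ∣ orderOf g → (e : ℂ) * (χ i).1 g =
    ∑ ψ ∈ (XZ red l Z).filter (fun ψ => ∀ i, ψ ≠ χ i), (r ψ : ℂ) * ψ.1 g

end P179H450
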