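import Vale.Agent.P179.R2.H450.LW2
import Vale.Agent.P179.H166.Osima

/-!
# Defect groups of blocks and of blocks of normal subgroups: the lower bound
-/

namespace P179H450

open P179H524 P179C P179A Finset P179P P179Y Subgroup P179R

open scoped Classical

universe u

section Fun

variable {k : Type u} [Field k] [IsAlgClosed k] {N : Type} [Group N] [Fintype N]

/-- the functional of a homomorphism of the centre -/
theorem exists_fun (L : Subalgebra.center k (MonoidAlgebra k N) →ₐ[k] k) :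
    ∃ μ : (N → k) → k, IsHomCF μ ∧ ∀ (z : N → k) (hz : IsCF z), μ z = L ⟨mkF z, mkF_mem hz⟩ := by
  obtain ⟨b, hb, hLb⟩ := homBlockStmt L
  obtain ⟨μ, hμ, hμz⟩ := exists_hom_of_block hb
  exact ⟨μ, hμ, fun z hz => by rw [hμz z hz, hLb]⟩

variable {p : ℕ} [hp : Fact p.Prime] [CharP k p]

/-- Brauer pairs with their defect classes -/
theorem exists_BP_cls {μ : (N → k) → k} (hμ : IsHomCF μ) :
    ∃ (x : N) (R : Subgroup N) (l : (N → k) → k), ¬ p ∣ orderOf x ∧ μ (cls k x) ≠ 0 ∧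
      SylCent p x R ∧ BP p R l ∧ ∀ z, IsCF z → l z = μ z := by
  obtain ⟨B, hB, hlB⟩ := exists_prim hμ.toAlgHom
  have hb : IsCF (fun g => B.1.coeff g) := (P179C.mem_center_iff _).1 B.2
  have hBb : (⟨mkF (fun g => B.1.coeff g), mkF_mem hb⟩ :
      Subalgebra.center k (MonoidAlgebra k N)) = B := Subtype.ext (mkF_coeff _)
  have hμb : μ (fun g => B.1.coeff g) = 1 := hlB
  obtain ⟨x, hx, hμx⟩ := exists_cls_ne hμ hb (by rw [hμb]; exact one_ne_zero)
  obtain ⟨R, hR⟩ := exists_sylCent p x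
  obtain ⟨l, hl, hlz⟩ := exists_BP_aux hμ hb (by rw [hBb]; exact hB) hμb hx hμx hR
  refine ⟨x, R, l, ?_, hμx, hR, hl, hlz⟩
  intro hd
  exact hx (osima_g p B.1 B.2 (congrArg Subtype.val hB.1) x hd)

end Fun

section Low

variable {p : ℕ} [hp : Fact p.Prime] {k : Type u} [Field k] [CharP k p]
  {K : Type} [Group K] [Fintype K] (C : Subgroup K) [C.Normal]

omit [C.Normal] in
/-- (L2) -/
theorem conj_of_coeff_ne {e w : MonoidAlgebra k K}
    (he : e ∈ Subalgebra.center k (MonoidAlgebra k K)) (hw : w ∈ AA' k C) {Q : Subgroup K}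
    (hQ : IsRelTrace e Q) {x : K} (hx : (e * w).coeff x ≠ 0) {P : Subgroup K}
    (hP : IsPGroup p P) (hPC : P ≤ C) (hPx : P ≤ centralizer {x}) :
    ∃ c : K, ∀ y ∈ P, c⁻¹ * y * c ∈ Q := by
  obtain ⟨h, hfix, hne⟩ : ∃ h : K, (∀ g : P, conjPerm P g h = h) ∧
      e.coeff h * w.coeff (h⁻¹ * x) ≠ 0 := by
    by_contra hcon
    push Not at hcon
    apply hx
    rw [P179C.coeff_mul_eq_conv]
    unfold conv
    have hfin : Finite P := inferInstance
    refine sum_eq_zero_of_perm p hP (conjPerm P) _ ?_ (fun h hh => hcon h hh)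
    intro d h
    rw [conjPerm_apply]
    have h1 : e.coeff ((d : K) * h * (d : K)⁻¹) = e.coeff h :=
      (P179C.mem_center_iff _).1 he (d : K) h
    have hdx : (d : K) * x = x * d := mem_centralizer_singleton_iff.1 (hPx d.2)
    have h2 : ((d : K) * h * (d : K)⁻¹)⁻¹ * x = (d : K) * (h⁻¹ * x) * (d : K)⁻¹ := by
      have h3 : (d : K)⁻¹ * x = x * (d : K)⁻¹ := by
        rw [inv_mul_eq_iff_eq_mul, ← mul_assoc, hdx, mul_inv_cancel_right]
      calc ((d : K) * h * (d : K)⁻¹)⁻¹ * x = (d : K) * h⁻¹ * ((d : K)⁻¹ * x) := by group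
        _ = _ := by rw [h3]; group
    change e.coeff ((d : K) * h * (d : K)⁻¹) * w.coeff (((d : K) * h * (d : K)⁻¹)⁻¹ * x) =
      e.coeff h * w.coeff (h⁻¹ * x)
    rw [h1, h2, (mem_AA' C).1 hw d (hPC d.2)]
  refine zab_of_relTrace p e Q hQ h (left_ne_zero_of_mul hne) P hP ?_
  intro d hd
  have h1 := hfix ⟨d, hd⟩
  rw [conjPerm_apply] at h1
  rw [mem_centralizer_singleton_iff]
  exact mul_inv_eq_iff_eq_mul.1 h1

/-- (L3) the defect groups of the block of `C` below `e` are not larger than `Q` -/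
theorem exists_below [IsAlgClosed k] {e : MonoidAlgebra k K} (he : IsBlock e) {Q : Subgroup K}
    (hQ : IsRelTrace e Q) :
    ∃ (ν : Subalgebra.center k (MonoidAlgebra k C) →ₐ[k] k) (x : C) (R : Subgroup C),
      ¬ p ∣ orderOf x ∧ ν ⟨mkF (cls k x), mkF_mem (isCF_cls x)⟩ ≠ 0 ∧ SylCent p x R ∧
      Nat.card R ≤ Nat.card Q ∧
      ∀ (z : MonoidAlgebra k K) (hz : z ∈ Subalgebra.center k (MonoidAlgebra k K)),
        (∀ g, g ∉ C → z.coeff g = 0) →
        ν ⟨P179C.trunc C z, trunc_mem_of C (center_le_AA' C hz)⟩ = centralChar e z := by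
  obtain ⟨w, hw, ν, hν, hνz⟩ := exists_LW C he
  obtain ⟨μ, hμ, hμz⟩ := exists_fun ν
  obtain ⟨x, R, l, hxreg, hμx, hR, hl, hlz⟩ := exists_BP_cls (p := p) hμ
  refine ⟨ν, x, R, hxreg, by rwa [hμz _ (isCF_cls x)] at hμx, hR, ?_, hνz⟩
  have hmem := trunc_mem_of C (mul_mem (center_le_AA' C he.1) hw)
  have hcf : IsCF (fun h : C => (P179C.trunc C (e * w)).coeff h) :=
    (P179C.mem_center_iff _).1 hmem
  have h1 : l (fun h : C => (P179C.trunc C (e * w)).coeff h) ≠ 0 := by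
    rw [hlz _ hcf, hμz _ hcf]
    have h2 : (⟨mkF (fun h : C => (P179C.trunc C (e * w)).coeff h), mkF_mem hcf⟩ :
        Subalgebra.center k (MonoidAlgebra k C)) = ⟨P179C.trunc C (e * w), hmem⟩ :=
      Subtype.ext (mkF_coeff _)
    rw [h2]
    exact hν
  obtain ⟨y, hy, hne⟩ : ∃ y ∈ centralizer (R : Set C), (P179C.trunc C (e * w)).coeff y ≠ 0 := by
    by_contra hcon
    push Not at hcon
    exact h1 (hl.supp _ hcon)
  rw [coeff_trunc] at hne
  obtain ⟨c, hc⟩ := conj_of_coeff_ne (p := p) C he.1 hw hQ hne (P := R.map C.subtype)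
    (hR.pgp.map _) (by rintro _ ⟨r, -, rfl⟩; exact r.2) (by
      rintro _ ⟨r, hr, rfl⟩
      rw [mem_centralizer_singleton_iff]
      exact congrArg Subtype.val (mem_centralizer_iff.1 hy r hr))
  let f : R → Q := fun r => ⟨c⁻¹ * ((r : C) : K) * c, hc _ ⟨r, r.2, rfl⟩⟩
  refine Nat.card_le_card_of_injective f fun a b hab => ?_
  have h3 : c⁻¹ * ((a : C) : K) * c = c⁻¹ * ((b : C) : K) * c := congrArg Subtype.val hab
  exact Subtype.ext (Subtype.ext (mul_left_cancel (mul_right_cancel h3)))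

end Low

end P179H450
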