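import Vale.Agent.P179.R2.H450.DQ1

/-!
# Defect groups of dominated blocks: the lower bound
-/

namespace P179H450

open P179H524 P179C P179A Finset P179P P179Y Subgroup P179R

open P179X (pp)

open scoped Classical

universe u

section Map

variable {k : Type u} [Field k] {H K : Type} [Group H] [Group K] (f : H →* K)

/-- the homomorphism of the group algebras -/
noncomputable def mpA (k : Type u) [Field k] {H K : Type} [Group H] [Group K] (f : H →* K) :
    MonoidAlgebra k H →ₐ[k] MonoidAlgebra k K :=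
  MonoidAlgebra.mapDomainAlgHom k k f

theorem mpA_single (h : H) (r : k) :
    mpA k f (MonoidAlgebra.single h r) = MonoidAlgebra.single (f h) r := by
  simp [mpA]

theorem coeff_mpA [Fintype H] (e : MonoidAlgebra k H) (c : K) :
    (mpA k f e).coeff c = ∑ g : H, if f g = c then e.coeff g else 0 := by
  induction e using MonoidAlgebra.induction_linear with
  | zero => simp
  | add a b ha hb =>
    rw [map_add]
    have h1 : (mpA k f a + mpA k f b).coeff c = (mpA k f a).coeff c + (mpA k f b).coeff c := by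
      simp
    rw [h1, ha, hb, ← Finset.sum_add_distrib]
    refine Finset.sum_congr rfl fun g _ => ?_
    split_ifs
    · simp
    · simp
  | single x a =>
    rw [mpA_single, Finset.sum_eq_single x]
    · by_cases h : f x = c
      · rw [if_pos h, h]
        simp
      · rw [if_neg h]
        simp [h]
    · intro g _ hg
      split_ifs
      · simp [hg.symm]
      · rfl
    · intro h
      exact absurd (mem_univ _) h

theorem mpA_surjective (hf : Function.Surjective f) : Function.Surjective (mpA k f) := by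
  intro x
  induction x using MonoidAlgebra.induction_linear with
  | zero => exact ⟨0, map_zero _⟩
  | add a b ha hb =>
    obtain ⟨a, rfl⟩ := ha
    obtain ⟨b, rfl⟩ := hb
    exact ⟨a + b, map_add _ _ _⟩
  | single c a =>
    obtain ⟨g, rfl⟩ := hf c
    exact ⟨MonoidAlgebra.single g a, mpA_single f g a⟩

theorem mpA_mem (hf : Function.Surjective f) {e : MonoidAlgebra k H}
    (he : e ∈ Subalgebra.center k (MonoidAlgebra k H)) :
    mpA k f e ∈ Subalgebra.center k (MonoidAlgebra k K) := by
  rw [Subalgebra.mem_center_iff] at he ⊢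
  intro x
  obtain ⟨x, rfl⟩ := mpA_surjective f hf x
  rw [← map_mul, ← map_mul, he x]

/-- the homomorphism of the centres -/
noncomputable def mpZ (hf : Function.Surjective f) :
    Subalgebra.center k (MonoidAlgebra k H) →ₐ[k] Subalgebra.center k (MonoidAlgebra k K) :=
  ((mpA k f).comp (Subalgebra.center k (MonoidAlgebra k H)).val).codRestrict _
    fun z => mpA_mem f hf z.2

theorem mpZ_coe (hf : Function.Surjective f) (z : Subalgebra.center k (MonoidAlgebra k H)) :
    (mpZ f hf z : MonoidAlgebra k K) = mpA k f z.1 := rfl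

/-- the order of a subgroup and of its image -/
theorem card_le_map [Finite H] (P : Subgroup H) :
    Nat.card P ≤ Nat.card (P.map f) * Nat.card f.ker := by
  let g : P →* P.map f := f.subgroupMap P
  have h1 : Nat.card P = Nat.card (P ⧸ g.ker) * Nat.card g.ker :=
    card_eq_card_quotient_mul_card_subgroup g.ker
  have h2 : Nat.card (P ⧸ g.ker) = Nat.card (P.map f) :=
    Nat.card_congr (QuotientGroup.quotientKerEquivOfSurjective g
      (f.subgroupMap_surjective P)).toEquiv
  have h3 : Nat.card g.ker ≤ Nat.card f.ker := by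
    let j : g.ker → f.ker := fun x => ⟨((x : P) : H), by
      have h4 : g (x : P) = 1 := x.2
      rw [MonoidHom.mem_ker]
      exact congrArg Subtype.val h4⟩
    refine Nat.card_le_card_of_injective j fun a b hab => ?_
    have h5 : ((a : P) : H) = ((b : P) : H) := congrArg (fun x : f.ker => (x : H)) hab
    exact Subtype.ext (Subtype.ext h5)
  rw [h1, h2]
  exact Nat.mul_le_mul_left _ h3

variable {p : ℕ} [hp : Fact p.Prime] [Fintype H] [Fintype K]

/-- the class of a `p`-regular element is mapped bijectively if the kernel is a central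
`p`-subgroup -/
theorem mpA_cls (hker : IsPGroup p f.ker) (hcen : f.ker ≤ center H)
    {y : H} (hy : ¬ p ∣ orderOf y) (hf : Function.Surjective f) :
    mpA k f (mkF (cls k y)) = mkF (cls k (f y)) := by
  ext c
  rw [coeff_mpA, coeff_mkF]
  simp only [coeff_mkF]
  unfold cls
  by_cases hc : IsConj (f y) c
  · rw [if_pos hc]
    obtain ⟨d, hd⟩ := isConj_iff.1 hc
    obtain ⟨d, rfl⟩ := hf d
    have hyd : IsConj y (d * y * d⁻¹) := isConj_iff.2 ⟨d, rfl⟩
    rw [Finset.sum_eq_single (d * y * d⁻¹)]
    · rw [if_pos (by rw [map_mul, map_mul, map_inv, hd]), if_pos hyd]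
    · intro h _ hne
      by_cases hfh : f h = c
      · rw [if_pos hfh, if_neg]
        intro hyh
        apply hne
        -- `h = r * (d y d⁻¹)` with `r` in the kernel
        have hr : h * (d * y * d⁻¹)⁻¹ ∈ f.ker := by
          rw [MonoidHom.mem_ker, map_mul, map_inv, hfh, map_mul, map_mul, map_inv, hd,
            mul_inv_cancel]
        set r := h * (d * y * d⁻¹)⁻¹ with hrdef
        have hh : h = r * (d * y * d⁻¹) := by rw [hrdef]; group
        have hrp : ∃ n : ℕ, r ^ p ^ n = 1 := by
          obtain ⟨n, hn⟩ := hker ⟨r, hr⟩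
          exact ⟨n, congrArg Subtype.val hn⟩
        have hcomm : r * (d * y * d⁻¹) = d * y * d⁻¹ * r :=
          ((Subgroup.mem_center_iff.1 (hcen hr)) _).symm
        have hreg : ∀ z : H, IsConj y z → ¬ p ∣ orderOf z := by
          intro z hz
          obtain ⟨t, rfl⟩ := isConj_iff.1 hz
          rwa [P179C.orderOf_conj]
        have h1 := pp_eq hcomm hrp (hreg _ hyd)
        rw [← hh, (pp_eq_one_iff (p := p) h).2 (hreg _ hyh)] at h1
        rw [hh, ← h1, one_mul]
      · rw [if_neg hfh]
    · intro h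
      exact absurd (mem_univ _) h
  · rw [if_neg hc]
    refine Finset.sum_eq_zero fun h _ => ?_
    by_cases hfh : f h = c
    · rw [if_pos hfh, if_neg]
      intro hyh
      apply hc
      obtain ⟨t, rfl⟩ := isConj_iff.1 hyh
      rw [← hfh, map_mul, map_mul, map_inv]
      exact isConj_iff.2 ⟨f t, rfl⟩
    · rw [if_neg hfh]

end Map

section Low

variable {p : ℕ} [hp : Fact p.Prime] {k : Type u} [Field k] [IsAlgClosed k] [CharP k p]
  {G : Type} [Group G] [Fintype G]

/-- (L4) the lower bound for the order of a defect group of a dominated block -/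
theorem card_le_of_relTrace {D R : Subgroup G} [R.Normal] {l : (G → k) → k} (hl : BP p D l)
    (hD : IsPGroup p D) (hab : ∀ a ∈ D, ∀ b ∈ D, a * b = b * a)
    (hT : ¬ p ∣ (centralizer (D : Set G)).relIndex (stabT D l)) (hR : IsPGroup p R)
    (hRab : ∀ a ∈ R, ∀ b ∈ R, a * b = b * a)
    {B : MonoidAlgebra k G} (hB : IsBlock B)
    (hlB : ∀ z : G → k, IsCF z → l z = centralChar B (mkF z)) {B' : MonoidAlgebra k (G ⧸ R)}
    (hB' : IsBlock B') (hdom : B' * quo R B = B') {Q : Subgroup (G ⧸ R)}
    (hQ : IsRelTrace B' Q) : Nat.card D ≤ Nat.card R * Nat.card Q := by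
  have hfq := Fintype.ofFinite (G ⧸ R)
  set C : Subgroup G := centralizer (R : Set G) with hC
  set Cb : Subgroup (G ⧸ R) := C.map (QuotientGroup.mk' R) with hCb
  have hCbn : Cb.Normal := Subgroup.Normal.map inferInstance _ (QuotientGroup.mk'_surjective R)
  have hRC : R ≤ C := le_cent_of_comm hRab
  let π : C →* Cb := (QuotientGroup.mk' R).subgroupMap C
  have hπ : Function.Surjective π := (QuotientGroup.mk' R).subgroupMap_surjective C
  obtain ⟨ν', x₀, D1, hx₀, hνx, hD1, hcard, hν'z⟩ := exists_below (p := p) Cb hB' hQ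
  -- the homomorphism of the centre of `kC`
  let νA : Subalgebra.center k (MonoidAlgebra k C) →ₐ[k] k := ν'.comp (mpZ π hπ)
  obtain ⟨ν, hν, hνA⟩ := exists_fun νA
  obtain ⟨L', hL'⟩ := blockHomStmt B' hB'
  obtain ⟨L, hL⟩ := blockHomStmt B hB
  have hprim := (isBlock_iff_prim ⟨B, hB.1⟩).1 hB
  have hLL : L'.comp (quoC R) = L := by
    refine eq_of_prim hprim _ _ ?_ (by rw [hL]; exact centralChar_self B hB)
    have h1 : L' (⟨B', hB'.1⟩ * quoC R ⟨B, hB.1⟩) = L' ⟨B', hB'.1⟩ :=
      congrArg L' (Subtype.ext hdom)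
    have h2 : L' ⟨B', hB'.1⟩ = 1 := by rw [hL']; exact centralChar_self B' hB'
    rw [map_mul, h2, one_mul] at h1
    exact h1
  have hiot : ∀ u : MonoidAlgebra k C, quo R (iot C u) = iot Cb (mpA k π u) := by
    intro u
    induction u using MonoidAlgebra.induction_linear with
    | zero => simp
    | add a b ha hb => rw [map_add, map_add, map_add, map_add, ha, hb]
    | single c r => rw [iot_single, mpA_single, iot_single, quo_single]; rfl
  have hνl : ∀ z : G → k, IsCF z → ν (fun h : C => z h) = l z := by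
    intro z hz
    have hzC : IsCF (fun h : C => z h) := fun t x => hz t x
    let z1 : G → k := fun g => if g ∈ C then z g else 0
    have hz1 : IsCF z1 := by
      intro t x
      have h1 : t * x * t⁻¹ ∈ C ↔ x ∈ C := by
        have hn : C.Normal := inferInstance
        constructor
        · intro h
          have h2 := hn.conj_mem _ h t⁻¹
          have h3 : t⁻¹ * (t * x * t⁻¹) * t⁻¹⁻¹ = x := by group
          rwa [h3] at h2
        · intro h
          exact hn.conj_mem _ h t
      change (if t * x * t⁻¹ ∈ C then z (t * x * t⁻¹) else 0) = if x ∈ C then z x else 0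
      simp only [h1, hz t x]
    have h1 : l z = l z1 := by
      refine hom_congr (Q := R) inferInstance hR (hl.isHomCF' hD) hz hz1 fun x hx => ?_
      exact (if_pos hx).symm
    have h2 : l z1 = L' (quoC R ⟨mkF z1, mkF_mem hz1⟩) := by
      rw [hlB z1 hz1, ← hL ⟨mkF z1, mkF_mem hz1⟩, ← hLL]
      rfl
    have h3 : iot C (mkF (fun h : C => z h)) = mkF z1 := by
      ext g
      rw [coeff_iot, coeff_mkF]
      by_cases hg : g ∈ C
      · rw [P179Y.ext_of_mem _ _ hg, coeff_mkF]
        exact (if_pos hg).symm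
      · rw [P179Y.ext_of_not_mem _ _ hg]
        exact (if_neg hg).symm
    have h4 : quo R (mkF z1) = iot Cb (mpA k π (mkF (fun h : C => z h))) := by
      rw [← h3, hiot]
    have h5 : ∀ g, g ∉ Cb → (quo R (mkF z1)).coeff g = 0 := by
      intro g hg
      rw [h4, coeff_iot]
      exact P179Y.ext_of_not_mem _ _ hg
    have h6 := hν'z (quo R (mkF z1)) (quo_mem R (mkF_mem hz1)) h5
    have h7 : L' (quoC R ⟨mkF z1, mkF_mem hz1⟩) = centralChar B' (quo R (mkF z1)) := hL' _
    rw [h1, h2, h7, ← h6, hνA _ hzC]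
    change ν' (mpZ π hπ ⟨mkF (fun h : C => z h), mkF_mem hzC⟩) = _
    congr 1
    apply Subtype.ext
    change mpA k π (mkF (fun h : C => z h)) = P179C.trunc Cb (quo R (mkF z1))
    rw [h4, trunc_iot]
  obtain ⟨g, R1, l1, hRR1, hR1C, hg, hl1, hl1ν, -, -⟩ := exists_BP_below (Q := R) hl hD hab hT hR
    hRC (by
      intro c hc
      exact cent_le_norm R hc) le_rfl hν hνl
  -- the lift of `x₀`
  obtain ⟨y, hy⟩ := hπ x₀
  set y₀ : C := pr p y with hy₀
  have hy₀reg : ¬ p ∣ orderOf y₀ := pr_regular' y
  have hπy₀ : π y₀ = x₀ := by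
    rw [hy₀, P179C.Q7.map_pr p π y (orderOf_pos y).ne', hy,
      P179C.Q7.pr_of_regular p x₀ (orderOf_pos x₀).ne' hx₀]
  have hker : π.ker = R.subgroupOf C := by
    ext x
    rw [MonoidHom.mem_ker, mem_subgroupOf]
    constructor
    · intro h
      have h1 : ((x : G) : G ⧸ R) = 1 := congrArg Subtype.val h
      exact (QuotientGroup.eq_one_iff _).1 h1
    · intro h
      apply Subtype.ext
      exact (QuotientGroup.eq_one_iff _).2 h
  have hkerp : IsPGroup p π.ker := by
    rw [hker]
    exact hR.comap_subtype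
  have hkerc : π.ker ≤ center C := by
    rw [hker]
    intro x hx
    rw [mem_subgroupOf] at hx
    rw [Subgroup.mem_center_iff]
    intro c
    apply Subtype.ext
    exact (mem_centralizer_iff.1 c.2 _ hx).symm
  have hl1y : l1 (cls k y₀) ≠ 0 := by
    rw [hl1ν _ (isCF_cls y₀), hνA _ (isCF_cls y₀)]
    change ν' (mpZ π hπ ⟨mkF (cls k y₀), mkF_mem (isCF_cls y₀)⟩) ≠ 0
    have h1 : mpZ π hπ ⟨mkF (cls k y₀), mkF_mem (isCF_cls y₀)⟩ =
        ⟨mkF (cls k x₀), mkF_mem (isCF_cls x₀)⟩ := by
      apply Subtype.ext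
      rw [mpZ_coe]
      change mpA k π (mkF (cls k y₀)) = mkF (cls k x₀)
      rw [mpA_cls π hkerp hkerc hy₀reg hπ, hπy₀]
    rw [h1]
    exact hνx
  obtain ⟨t, ht, hne⟩ : ∃ t ∈ centralizer ((R1.subgroupOf C : Subgroup C) : Set C),
      cls k y₀ t ≠ 0 := by
    by_contra hcon
    push Not at hcon
    exact hl1y (hl1.supp _ hcon)
  have hconj : IsConj y₀ t := by
    by_contra h
    unfold cls at hne
    rw [if_neg h] at hne
    exact hne rfl
  obtain ⟨c, rfl⟩ := isConj_iff.1 hconj
  set P : Subgroup C := (R1.subgroupOf C).map (MulAut.conj c⁻¹).toMonoidHom with hPdef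
  have hcardP : Nat.card P = Nat.card D := by
    rw [hPdef, Subgroup.card_map_of_injective (MulAut.conj c⁻¹).injective,
      Nat.card_congr (Subgroup.subgroupOfEquivOfLe hR1C).toEquiv, card_eq_of_conj hg]
  have hR1p : IsPGroup p R1 := by
    intro x
    obtain ⟨n, hn⟩ := hD ⟨g⁻¹ * x * g, (hg x).1 x.2⟩
    refine ⟨n, Subtype.ext ?_⟩
    have h1 : (g⁻¹ * (x : G) * g) ^ p ^ n = 1 := congrArg Subtype.val hn
    have h2 : (g⁻¹ * (x : G) * g) ^ p ^ n = g⁻¹ * (x : G) ^ p ^ n * g := by
      have := (conj_pow (a := g⁻¹) (b := (x : G)) (i := p ^ n))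
      rw [inv_inv] at this
      exact this
    rw [h2] at h1
    change (x : G) ^ p ^ n = 1
    have h3 : (x : G) ^ p ^ n = g * (g⁻¹ * (x : G) ^ p ^ n * g) * g⁻¹ := by group
    rw [h3, h1]
    group
  have hPp : IsPGroup p P := (hR1p.comap_subtype).map _
  have hPy : P ≤ centralizer {y₀} := by
    rintro _ ⟨r, hr, rfl⟩
    rw [mem_centralizer_singleton_iff]
    have h1 := mem_centralizer_iff.1 ht r hr
    change c⁻¹ * r * c⁻¹⁻¹ * y₀ = y₀ * (c⁻¹ * r * c⁻¹⁻¹)
    calc c⁻¹ * r * c⁻¹⁻¹ * y₀ = c⁻¹ * (r * (c * y₀ * c⁻¹)) * c := by group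
      _ = c⁻¹ * (c * y₀ * c⁻¹ * r) * c := by rw [h1]
      _ = _ := by group
  have hPx : P.map π ≤ centralizer {x₀} := by
    rintro _ ⟨r, hr, rfl⟩
    rw [mem_centralizer_singleton_iff, ← hπy₀, ← map_mul, ← map_mul]
    exact congrArg π (mem_centralizer_singleton_iff.1 (hPy hr))
  have h1 := hD1.card_le (hPp.map π) hPx
  have h2 := card_le_map π P
  have h3 : Nat.card π.ker = Nat.card R := by
    rw [hker, Nat.card_congr (Subgroup.subgroupOfEquivOfLe hRC).toEquiv]
  calc Nat.card D = Nat.card P := hcardP.symm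
    _ ≤ Nat.card (P.map π) * Nat.card π.ker := h2
    _ ≤ Nat.card Q * Nat.card R := by
        rw [h3]
        exact Nat.mul_le_mul_right _ (h1.trans hcard)
    _ = _ := mul_comm _ _

end Low

end P179H450
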