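import Vale.Agent.P179.R2.H450.FM
import Vale.Agent.P179.H166.PPFinal

/-!
# Blocks whose characters are of defect zero
-/

namespace P179H450

open P179H524 P179C P179A Finset P179P P179Y Subgroup P179R

open P179X (pp SameSec IrrB)

open scoped Classical

section DZ

variable {k : Type*} [Field k] (p : ℕ) [hp : Fact p.Prime] [CharP k p] (red : AA →+* k)

include p red in
/-- characters of defect zero are alone in their block -/
theorem dz_sep {K : Type*} [Group K] [Fintype K] (φ ψ : Irr K) (hφ : IsDefectZeroChar p φ.1)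
    (h : ∀ z : K → k, IsCF z → lam red ψ.1 z = lam red φ.1 z) : ψ = φ := by
  by_contra hψ
  have := Fintype.ofFinite (ConjClasses K)
  obtain ⟨hirr, d, hd, hdp⟩ := hφ
  have hd0 : d ≠ 0 := by
    rintro rfl
    exact φ.one_ne_zero (by rw [hd]; simp)
  have hdC : (d : ℂ) ≠ 0 := by exact_mod_cast hd0
  have hK : (Fintype.card K : ℂ) ≠ 0 := by exact_mod_cast Fintype.card_ne_zero
  set a : K → ℂ := fun g => φ.1 g⁻¹ with ha
  have hacf : IsCF a := by
    intro t x
    have h1 : (t * x * t⁻¹)⁻¹ = t * x⁻¹ * t⁻¹ := by group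
    simp only [ha, h1]
    exact φ.conj t x⁻¹
  have haint : ∀ g, a g ∈ integralClosure ℤ ℂ := fun g => φ.integral g⁻¹
  have hval : ∀ ψ : Irr K, omC ψ.1 a = (if ψ = φ then (Fintype.card K : ℂ) else 0) / ψ.1 1 := by
    intro ψ
    unfold omC
    congr 1
    rw [← row_orth ψ φ]
    exact Finset.sum_congr rfl fun g _ => by simp only [ha]; ring
  have hφval : omC φ.1 a = Fintype.card K / d := by
    rw [hval, if_pos rfl, hd]
  obtain ⟨t, ht⟩ : ∃ t : ℕ, Fintype.card K = d * t := by
    obtain ⟨b, hb⟩ : ∃ b : ℤ, ((Fintype.card K : ℂ) / d) = b := by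
      have h1 := omC_mem φ hacf haint
      rw [hφval] at h1
      have h2 : IsIntegral ℤ ((algebraMap ℚ ℂ) ((Fintype.card K : ℚ) / d)) := by
        have : (algebraMap ℚ ℂ) ((Fintype.card K : ℚ) / d) = (Fintype.card K : ℂ) / d := by simp
        rw [this]; exact h1
      rw [isIntegral_algebraMap_iff (algebraMap ℚ ℂ).injective] at h2
      obtain ⟨b, hb⟩ := IsIntegrallyClosed.isIntegral_iff.1 h2
      refine ⟨b, ?_⟩
      have := congrArg (algebraMap ℚ ℂ) hb
      simpa using this.symm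
    rw [div_eq_iff hdC] at hb
    have h3 : (Fintype.card K : ℤ) = b * d := by exact_mod_cast hb
    have h4 : (d : ℤ) ∣ Fintype.card K := ⟨b, by rw [h3]; ring⟩
    obtain ⟨t, ht⟩ := Int.natCast_dvd_natCast.1 h4
    exact ⟨t, ht⟩
  have ht0 : t ≠ 0 := by
    rintro rfl
    rw [mul_zero] at ht
    exact Fintype.card_ne_zero ht
  have hpt : ¬ p ∣ t := by
    rw [Nat.card_eq_fintype_card, ht, Nat.factorization_mul hd0 ht0, Finsupp.add_apply] at hdp
    have h5 : t.factorization p = 0 := by omega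
    rw [Nat.factorization_eq_zero_iff] at h5
    rcases h5 with h5 | h5 | h5
    · exact absurd hp.out h5
    · exact h5
    · exact absurd h5 ht0
  have hφval2 : omC φ.1 a = t := by
    rw [hφval, ht]
    push_cast
    field_simp
  have h1 := red_omC_eq red ψ φ (fun z hz => by
    exact omA_eq_of_lam red ψ φ h z hz) hacf haint
  have h2 : (⟨omC ψ.1 a, omC_mem ψ hacf haint⟩ : AA) = 0 := by
    apply Subtype.ext
    change omC ψ.1 a = 0
    rw [hval, if_neg hψ, zero_div]
  have h3 : (⟨omC φ.1 a, omC_mem φ hacf haint⟩ : AA) = (t : AA) := by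
    apply Subtype.ext
    change omC φ.1 a = ((t : AA) : ℂ)
    rw [hφval2]
    push_cast
    rfl
  rw [h2, h3, map_zero, map_natCast] at h1
  exact hpt ((CharP.cast_eq_zero_iff k p t).1 h1.symm)

end DZ

section Block

variable {p : ℕ} [hp : Fact p.Prime] {k : Type*} [Field k] [IsAlgClosed k] [CharP k p]
  (red : integralClosure ℤ ℂ →+* k) {K : Type} [Group K] [Fintype K]

include p in
/-- a block with a single ordinary character has a single simple module -/
theorem numSimpleIn_eq_one {B : MonoidAlgebra k K} (hB : IsBlock B) {φ : Irr K}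
    (h : ∀ χ : Irr K, CharInBlock red χ.1 B ↔ χ = φ) : numSimpleIn B = 1 := by
  have hpos := numSimpleIn_pos B hB
  obtain ⟨r, hr, hr2⟩ := P179P.N3 p red hB (fun x y h => sec_orth p red B x y h)
  have h1 : (r : ℂ) * Nat.card K = ∑ g ∈ univ.filter (fun g : K => ¬ p ∣ orderOf g),
      φ.1 g * φ.1 g⁻¹ := by
    rw [hr2, Finset.sum_comm, sum_IrrB red B (fun χ => ∑ g ∈ univ.filter
      (fun g : K => ¬ p ∣ orderOf g), χ g * χ g⁻¹), Finset.sum_eq_single φ]
    · rw [if_pos ((h φ).2 rfl)]
    · intro χ _ hχ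
      rw [if_neg fun h' => hχ ((h χ).1 h')]
    · intro h'
      exact absurd (mem_univ _) h'
  have h2 : ∑ g ∈ univ.filter (fun g : K => ¬ p ∣ orderOf g), φ.1 g * φ.1 g⁻¹ =
      ((∑ g ∈ univ.filter (fun g : K => ¬ p ∣ orderOf g), Complex.normSq (φ.1 g) : ℝ) : ℂ) := by
    push_cast
    refine Finset.sum_congr rfl fun g _ => ?_
    rw [Irr.inv_eq_conj, Complex.mul_conj]
  have h3 : ∑ g : K, Complex.normSq (φ.1 g) = (Nat.card K : ℝ) := by
    have h4 := irrChar_inner φ.2 φ.2
    rw [if_pos rfl] at h4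
    have h5 : ∑ g : K, φ.1 g * φ.1 g⁻¹ = ((∑ g : K, Complex.normSq (φ.1 g) : ℝ) : ℂ) := by
      push_cast
      refine Finset.sum_congr rfl fun g _ => ?_
      rw [Irr.inv_eq_conj, Complex.mul_conj]
    rw [h5, ← Nat.card_eq_fintype_card] at h4
    exact_mod_cast h4
  have h4 : ∑ g ∈ univ.filter (fun g : K => ¬ p ∣ orderOf g),
      Complex.normSq (φ.1 g) ≤ (Nat.card K : ℝ) := by
    rw [← h3]
    exact Finset.sum_le_sum_of_subset_of_nonneg (Finset.filter_subset _ _)
      fun _ _ _ => Complex.normSq_nonneg _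
  rw [h2] at h1
  have h5 : (r : ℝ) * Nat.card K = ∑ g ∈ univ.filter (fun g : K => ¬ p ∣ orderOf g),
      Complex.normSq (φ.1 g) := by
    exact_mod_cast h1
  rw [← h5] at h4
  have h6 : (0 : ℝ) < Nat.card K := by exact_mod_cast Nat.card_pos
  have h7 : (r : ℝ) ≤ 1 := by
    by_contra hcon
    push Not at hcon
    nlinarith
  have h8 : r ≤ 1 := by exact_mod_cast h7
  omega

end Block

end P179H450
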