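import Vale.Agent.P179.R2.H450.Nrm

/-!
# Blocks of local subgroups below a block with abelian defect group
-/

namespace P179H450

open P179H524 P179C P179A Finset P179P P179Y Subgroup P179R

open scoped Classical

section FM

variable {p : ℕ} [hp : Fact p.Prime] {k : Type*} [Field k] [IsAlgClosed k] [CharP k p]
  {G : Type} [Group G] [Fintype G]

/-- a homomorphism of the centre of `kH` which induces `l` has a Brauer pair conjugate to `(D, l)`:
here `Q ≤ H ≤ N_G(Q)` and `C_G(Q) ≤ H` for a `p`-subgroup `Q` -/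
theorem exists_BP_below {D H Q : Subgroup G} {l : (G → k) → k} (hl : BP p D l)
    (hD : IsPGroup p D) (hab : ∀ a ∈ D, ∀ b ∈ D, a * b = b * a)
    (hT : ¬ p ∣ (centralizer (D : Set G)).relIndex (stabT D l))
    (hQ : IsPGroup p Q) (hQH : Q ≤ H) (hHQ : H ≤ normalizer (Q : Set G))
    (hCH : centralizer (Q : Set G) ≤ H) {μ : (H → k) → k} (hμ : IsHomCF μ)
    (hμl : ∀ z : G → k, IsCF z → μ (fun h : H => z h) = l z) :
    ∃ (g : G) (R : Subgroup G) (l1 : (H → k) → k), Q ≤ R ∧ R ≤ H ∧
      (∀ x, x ∈ R ↔ g⁻¹ * x * g ∈ D) ∧ BP p (R.subgroupOf H) l1 ∧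
      (∀ z : H → k, IsCF z → l1 z = μ z) ∧ BP p R (fun a : G → k => l1 (fun h : H => a h)) ∧
      ∀ z : G → k, InvOn (centralizer (D : Set G)) z → l1 (fun h : H => cj g z h) = l z := by
  obtain ⟨R, l', hR, hl', hμl', hnrm⟩ := exists_BP_nrm (p := p) hμ
  set R' : Subgroup G := R.map H.subtype with hR'
  have hRR : R'.subgroupOf H = R := comap_map_eq_self_of_injective H.subtype_injective R
  have hRpH : R' ≤ H := by
    rintro _ ⟨x, -, rfl⟩
    exact x.2
  have hQn : (Q.subgroupOf H).Normal := by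
    refine ⟨fun q hq h => ?_⟩
    rw [mem_subgroupOf] at hq ⊢
    exact (mem_normalizer_iff.1 (hHQ h.2) q).1 hq
  have hQR : Q ≤ R' := by
    intro q hq
    exact ⟨⟨q, hQH hq⟩, hnrm _ hQn hQ.comap_subtype (mem_subgroupOf.2 hq), rfl⟩
  have hCR : centralizer (R' : Set G) ≤ H := (centralizer_le hQR).trans hCH
  have hl'' : BP p (R'.subgroupOf H) l' := by rw [hRR]; exact hl'
  have hl2 := BP.extend hRpH hCR hl''
  have hll : ∀ z : G → k, IsCF z → (fun a : G → k => l' (fun h : H => a h)) z = l z := by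
    intro z hz
    have hcf : IsCF (fun h : H => z h) := fun t x => hz t x
    change l' (fun h : H => z h) = l z
    rw [hμl' _ hcf, hμl _ hz]
  obtain ⟨g, hg, hg2⟩ := FDc hl hD hab hT hl2 (hR.map _) hll
  exact ⟨g, R', l', hQR, hRpH, hg, hl'', hμl', hl2, hg2⟩

omit hp [IsAlgClosed k] [CharP k p] [Fintype G] in
theorem ext_conj_mem {H : Subgroup G} {z : H → k} (hz : IsCF z) {n : G} (hn : n ∈ H) (x : G) :
    ext H z (n * x * n⁻¹) = ext H z x := by
  by_cases hx : x ∈ H
  · rw [ext_of_mem _ z hx, ext_of_mem _ z (mul_mem (mul_mem hn hx) (inv_mem hn))]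
    exact hz ⟨n, hn⟩ ⟨x, hx⟩
  · rw [ext_of_not_mem _ z hx, ext_of_not_mem _ z]
    intro h
    apply hx
    have := mul_mem (mul_mem (inv_mem hn) h) hn
    have e1 : n⁻¹ * (n * x * n⁻¹) * n = x := by group
    rwa [e1] at this

omit [Fintype G] in
/-- the order of the conjugate -/
theorem card_eq_of_conj {D R : Subgroup G} {g : G} (hg : ∀ x, x ∈ R ↔ g⁻¹ * x * g ∈ D) :
    Nat.card R = Nat.card D := by
  refine Nat.card_congr ⟨fun r => ⟨g⁻¹ * r * g, (hg r).1 r.2⟩,
    fun d => ⟨g * d * g⁻¹, (hg _).2 (by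
      have : g⁻¹ * (g * (d : G) * g⁻¹) * g = d := by group
      rw [this]; exact d.2)⟩, fun r => ?_, fun d => ?_⟩
  · apply Subtype.ext
    change g * (g⁻¹ * (r : G) * g) * g⁻¹ = r
    group
  · apply Subtype.ext
    change g⁻¹ * (g * (d : G) * g⁻¹) * g = d
    group

/-- **the first main theorem for an abelian defect group**: a homomorphism of the centre of
`k N_G(D)` inducing `l` is the restriction of `l` -/
theorem first_main {D : Subgroup G} {l : (G → k) → k} (hl : BP p D l)
    (hD : IsPGroup p D) (hab : ∀ a ∈ D, ∀ b ∈ D, a * b = b * a)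
    (hT : ¬ p ∣ (centralizer (D : Set G)).relIndex (stabT D l))
    {μ : (normalizer (D : Set G) → k) → k} (hμ : IsHomCF μ)
    (hμl : ∀ z : G → k, IsCF z → μ (fun h : normalizer (D : Set G) => z h) = l z)
    {z : normalizer (D : Set G) → k} (hz : IsCF z) :
    μ z = l (ext (normalizer (D : Set G)) z) := by
  obtain ⟨g, R, l1, hQR, hRH, hg, hl1, hl1μ, hl2, hl12⟩ := exists_BP_below hl hD hab hT hD
    le_normalizer le_rfl (cent_le_norm D) hμ hμl
  have hRD : R = D := (Subgroup.eq_of_le_of_card_ge hQR (card_eq_of_conj hg).le).symm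
  subst hRD
  have hgN : g ∈ normalizer (R : Set G) := by
    have h1 : g⁻¹ ∈ normalizer (R : Set G) := by
      rw [mem_normalizer_iff]
      intro x
      rw [hg x, inv_inv]
    simpa using inv_mem h1
  have hab' : R ≤ centralizer (R : Set G) := le_cent_of_comm hab
  set w : G → k := cutC R (ext (normalizer (R : Set G)) z) with hw
  have hwinv : InvOn (centralizer (R : Set G)) w :=
    invOn_cutC R fun c hc x => ext_conj_mem hz (cent_le_norm R hc) x
  have hwg : cj g w = w := by
    refine cj_eq_of_inv fun x => ?_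
    have h2 := conj_mem_cent (D := R) hgN x
    rw [hw]
    unfold cutC
    by_cases hx : x ∈ centralizer (R : Set G)
    · rw [if_pos hx, if_pos (h2.2 hx), ext_conj_mem hz hgN]
    · rw [if_neg hx, if_neg (fun h => hx (h2.1 h))]
  have h1 : l1 (fun h : normalizer (R : Set G) => w h) = l w := by
    have := hl12 w hwinv
    rwa [hwg] at this
  have h2 : l w = l (ext (normalizer (R : Set G)) z) := hl.cut _
  have h3 : l1 (fun h : normalizer (R : Set G) => w h) = l1 z := by
    have h4 : l1 (fun h : normalizer (R : Set G) => w h) =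
      l1 (fun h : normalizer (R : Set G) => ext (normalizer (R : Set G)) z h) := hl2.cut _
    have h5 : (fun h : normalizer (R : Set G) => ext (normalizer (R : Set G)) z h) = z := by
      funext h
      exact ext_coe _ z h
    rw [h4, h5]
  rw [← h2, ← h1, h3, hl1μ z hz]

end FM

end P179H450
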