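import Vale.Agent.P179.R2.H292.Rank

/-!
# Elements of an abelian `p`-group with regular powers

`T` normalises the abelian `p`-group `D`, and acts on it as a `p'`-group. If `x_1, ..., x_b` are
elements of order `p` with trivial common centraliser in `T / C_G(D)`, `x_i` a `p ^ (N + s_i)`-th
power, `s_1 > ... > s_b`, there is `w ∈ D` such that `w ^ (p ^ N)` has order `p ^ (s_1 + 1)` and is
centralised by no element of `T` outside `C_G(D)`.
-/

namespace P179H450

open Subgroup

section Fix

variable {p : ℕ} [hp : Fact p.Prime] {G : Type*} [Group G] [Finite G] {D T : Subgroup G}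

/-- fixed elements which are `q`-th powers are `q`-th powers of fixed elements -/
theorem exists_fixed_root (hD : IsPGroup p D) (hab : ∀ a ∈ D, ∀ b ∈ D, a * b = b * a)
    (hTN : T ≤ normalizer (D : Set G)) (hT : ¬ p ∣ (centralizer (D : Set G)).relIndex T)
    {x y : G} (hy : y ∈ D) {q : ℕ} (hyx : y ^ q = x) (hx : ∀ t ∈ T, t * x * t⁻¹ = x) :
    ∃ z ∈ D, z ^ q = x ∧ ∀ t ∈ T, t * z * t⁻¹ = z := by
  classical
  have hcomm : ∀ a b : D, a * b = b * a := fun a b => Subtype.ext (hab _ a.2 _ b.2)
  let iC : CommGroup D := { (inferInstance : Group D) with mul_comm := hcomm }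
  set C := centralizer (D : Set G) with hC
  let Q := T ⧸ C.subgroupOf T
  have := Fintype.ofFinite Q
  have hcl : ∀ t : T, ∀ d : D, (t : G) * d * (t : G)⁻¹ ∈ D := fun t d =>
    (mem_normalizer_iff.1 (hTN t.2) _).1 d.2
  let act : T → D → D := fun t d => ⟨(t : G) * d * (t : G)⁻¹, hcl t d⟩
  have hact_mul : ∀ (t : T) (a b : D), act t (a * b) = act t a * act t b := by
    intro t a b
    apply Subtype.ext
    change (t : G) * ((a : G) * b) * (t : G)⁻¹ = (t : G) * a * (t : G)⁻¹ * ((t : G) * b * (t : G)⁻¹)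
    group
  let actH : T → (D →* D) := fun t =>
    { toFun := act t
      map_one' := by
        apply Subtype.ext
        change (t : G) * 1 * (t : G)⁻¹ = 1
        group
      map_mul' := hact_mul t }
  set y' : D := ⟨y, hy⟩ with hy'
  have hxD : x ∈ D := hyx ▸ pow_mem hy q
  set x' : D := ⟨x, hxD⟩ with hx'
  have hyx' : y' ^ q = x' := Subtype.ext hyx
  let P : D := ∏ c : Q, actH c.out y'
  have hcoset : ∀ (t : T) (c : Q), actH t (actH c.out y') = actH (t • c).out y' := by
    intro t c
    have h1 : (QuotientGroup.mk ((t • c).out) : Q) = QuotientGroup.mk (t * c.out) := by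
      rw [QuotientGroup.out_eq']
      conv_lhs => rw [← QuotientGroup.out_eq' c]
      rfl
    rw [QuotientGroup.eq] at h1
    have h2 : ((t • c).out : G)⁻¹ * (t * (c.out : T) : G) ∈ C := mem_subgroupOf.1 h1
    have h3 := mem_centralizer_iff.1 h2 y hy
    apply Subtype.ext
    change (t : G) * (((c.out : T) : G) * y * ((c.out : T) : G)⁻¹) * (t : G)⁻¹ =
      (((t • c).out : T) : G) * y * (((t • c).out : T) : G)⁻¹
    set a := (((t • c).out : T) : G)
    set b := (t : G) * ((c.out : T) : G) with hb
    calc (t : G) * (((c.out : T) : G) * y * ((c.out : T) : G)⁻¹) * (t : G)⁻¹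
        = b * y * b⁻¹ := by rw [hb]; group
      _ = a * (a⁻¹ * b * y) * b⁻¹ := by group
      _ = a * (y * (a⁻¹ * b)) * b⁻¹ := by rw [h3]
      _ = a * y * a⁻¹ := by group
  have hPfix : ∀ t : T, actH t P = P := by
    intro t
    change actH t (∏ c : Q, actH c.out y') = ∏ c : Q, actH c.out y'
    rw [map_prod]
    have h1 : ∀ c : Q, actH t (actH c.out y') = actH (t • c).out y' := hcoset t
    rw [Finset.prod_congr rfl fun c _ => h1 c]
    exact Fintype.prod_equiv (MulAction.toPerm t : Equiv.Perm Q) _ _ fun c => rfl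
  have hPq : P ^ q = x' ^ Fintype.card Q := by
    change (∏ c : Q, actH c.out y') ^ q = _
    rw [← Finset.prod_pow]
    have h1 : ∀ c : Q, (actH c.out y') ^ q = x' := by
      intro c
      rw [← map_pow, hyx']
      apply Subtype.ext
      exact hx _ c.out.2
    rw [Finset.prod_congr rfl fun c _ => h1 c, Finset.prod_const, Finset.card_univ]
  have hm : ¬ p ∣ Fintype.card Q := by
    rw [← Nat.card_eq_fintype_card]
    exact hT
  have hco : (Fintype.card Q).Coprime (orderOf x') := by
    obtain ⟨k, hk⟩ := hD x'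
    have h1 : orderOf x' ∣ p ^ k := orderOf_dvd_of_pow_eq_one hk
    have h2 : (Fintype.card Q).Coprime (p ^ k) :=
      (((Nat.Prime.coprime_iff_not_dvd hp.out).2 hm).symm).pow_right k
    exact h2.coprime_dvd_right h1
  obtain ⟨m', hm'⟩ : ∃ m' : ℕ, (x' ^ Fintype.card Q) ^ m' = x' :=
    exists_pow_eq_self_of_coprime hco
  refine ⟨((P ^ m' : D) : G), (P ^ m').2, ?_, ?_⟩
  · have h1 : (P ^ m') ^ q = x' := by
      rw [← pow_mul, mul_comm, pow_mul, hPq, hm']
    exact congrArg Subtype.val h1
  · intro t ht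
    have h1 : actH ⟨t, ht⟩ (P ^ m') = P ^ m' := by rw [map_pow, hPfix]
    exact congrArg Subtype.val h1

end Fix

end P179H450
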