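import Vale.Agent.P179.R2.H450.Sq2
import Vale.Agent.P179.R2.H967.WatF

/-!
# The block of the centraliser of an element which is not regular: the number of simple modules
-/

namespace P179H450

open Subgroup Finset P179H524 P179C P179A P179P P179Y P179H12 P179H872 P179H443 P179H854

open P179B (inertialGroup inertialIndex regularElements)

open scoped Classical

universe u

section Grp

variable {p : ℕ} {G : Type} [Group G] {D T : Subgroup G} {w t : G} {s : ℕ}

theorem SqData.D_le (hab : ∀ a ∈ D, ∀ b ∈ D, a * b = b * a)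
    (h : P179H443.SqData p D T w t s) : D ≤ centralizer ({w} : Set G) := by
  intro x hx
  rw [mem_centralizer_iff]
  rintro y rfl
  exact hab _ h.w_mem _ hx

theorem SqData.C_le (h : P179H443.SqData p D T w t s) :
    centralizer (D : Set G) ≤ centralizer ({w} : Set G) :=
  centralizer_le (by rintro y rfl; exact h.w_mem)

theorem mem_cent_singleton {g : G} :
    g ∈ centralizer ({w} : Set G) ↔ g * w * g⁻¹ = w := by
  rw [mem_centralizer_iff]
  constructor
  · intro h
    rw [← h w rfl]
    group
  · rintro h y rfl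
    have h1 : g * y = y * g := by
      have := congrArg (· * g) h
      simpa [mul_assoc] using this
    exact h1.symm

theorem SqData.t_H (h : P179H443.SqData p D T w t s) : t ∈ centralizer ({w} : Set G) :=
  mem_cent_singleton.2 h.tw

end Grp

section

variable {p : ℕ} [hp : Fact p.Prime] {k : Type u} [Field k] [IsAlgClosed k] [CharP k p]
  {G : Type} [Group G] [Fintype G] {D : Subgroup G} {l : (G → k) → k} {w t : G} {s : ℕ}

/-- **the block of the centraliser of `w`** has `s` simple modules -/
theorem exists_b1 (red : integralClosure ℤ ℂ →+* k) (hl : BP p D l) (hD : IsPGroup p D)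
    (hab : ∀ a ∈ D, ∀ b ∈ D, a * b = b * a)
    (hT : ¬ p ∣ (centralizer (D : Set G)).relIndex (stabT D l)) (hq : HomSq p D)
    (h : P179H443.SqData p D (stabT D l) w t s) :
    ∃ b : MonoidAlgebra k (centralizer ({w} : Set G)), IsBlock b ∧
      Low (centralizer ({w} : Set G)) l b ∧ numSimpleIn b = s := by
  have hDH := SqData.D_le hab h
  have hCH := SqData.C_le h
  have htH := SqData.t_H h
  obtain ⟨H, hH⟩ : ∃ H, H = centralizer ({w} : Set G) := ⟨_, rfl⟩
  have hmemH : ∀ g, g ∈ H ↔ g * w * g⁻¹ = w := by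
    intro g
    rw [hH]
    exact mem_cent_singleton
  have hidx : (centralizer (D : Set G)).relIndex (stabT D l ⊓ H) = s := by
    rw [hH]
    exact h.idx
  rw [← hH] at hDH hCH htH ⊢
  clear hH
  have hab' : D ≤ centralizer (D : Set G) := by
    intro x hx
    rw [mem_centralizer_iff]
    intro y hy
    exact hab y hy x hx
  obtain ⟨β, hβ, hlβ⟩ := exists_blk (BP.mulH hl hD hab' (le_refl (centralizer (D : Set G))))
  obtain ⟨b1, hb1, hlb1⟩ := exists_blk (BP.mulH hl hD hab' hCH)
  have hdf := isDefectGroup_low (p := p) hl hD hab hT hDH hCH hb1 hlb1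
  obtain ⟨β', hβ', hlβ', -⟩ := exists_root_below hl hD hab' hDH hCH hβ hlβ
  have hST' : stabT (D.subgroupOf H) (lres H l) = inertialGroup (D.subgroupOf H) β' :=
    stabT_eq_inertialGroup hβ' hlβ'
  have hmem : ∀ n : H, n ∈ stabT (D.subgroupOf H) (lres H l) ↔ (n : G) ∈ stabT D l :=
    mem_stabT_lres hDH hCH
  have hcm : ∀ n : H, n ∈ centralizer ((D.subgroupOf H : Subgroup H) : Set H) ↔
      (n : G) ∈ centralizer (D : Set G) := mem_cent_subgroupOf hDH
  have habH : ∀ x ∈ D.subgroupOf H, ∀ y ∈ D.subgroupOf H, x * y = y * x := fun x hx y hy =>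
    Subtype.ext (hab _ (mem_subgroupOf.1 hx) _ (mem_subgroupOf.1 hy))
  have hcyc : ∃ z ∈ stabT (D.subgroupOf H) (lres H l), ∀ x ∈ stabT (D.subgroupOf H) (lres H l),
      x ∈ centralizer ((D.subgroupOf H : Subgroup H) : Set H) ⊔ zpowers z := by
    refine ⟨⟨t, htH⟩, (hmem _).2 h.t_mem, fun x hx => ?_⟩
    obtain ⟨a, -, ha⟩ := h.gen (x : G) ((hmem x).1 hx) ((hmemH _).1 x.2)
    have h5 : x = (⟨t, htH⟩ : H) ^ a * (((⟨t, htH⟩ : H) ^ a)⁻¹ * x) := by group
    rw [h5]
    refine mul_mem (mem_sup_right (pow_mem (mem_zpowers _) a)) (mem_sup_left ?_)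
    rw [hcm]
    exact ha
  have hw1 : numSimpleIn b1 = numWeightsIn p red b1 := by
    have h0 := P179H967.watStmt (p := p) (k := k) red H b1 (D.subgroupOf H) β' hb1 hdf habH hβ'
      (inducesTo_of_low (hl.restrict hDH hCH) (Low.char hlb1) hlβ')
    rw [← hST'] at h0
    refine (h0 ?_ hcyc ?_ ?_ ?_).1
    · rw [← hq.1]
      refine Nat.card_congr
        { toFun := fun x => ⟨((x.1 : H) : G), mem_subgroupOf.1 x.2.1, by
            have h2 := congrArg Subtype.val x.2.2
            exact h2⟩
          invFun := fun x => ⟨⟨x.1, hDH x.2.1⟩, mem_subgroupOf.2 x.2.1, Subtype.ext x.2.2⟩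
          left_inv := fun x => rfl
          right_inv := fun x => rfl }
    · have h2 : inertialIndex (D.subgroupOf H) β' = s := by
        unfold inertialIndex
        rw [← hST', ← hidx]
        exact relIndex_stabT_lres hDH hCH
      rw [h2]
      exact h.dvd
    · intro u hu hu1 n hn hnC hnu r hr
      by_cases huw : (u : G) ∈ zpowers w
      · obtain ⟨i, hi⟩ := mem_zpowers_iff.1 huw
        apply Subtype.ext
        have h3 := (hmemH _).1 r.2
        have h4 : (r : G) * (u : G) * (r : G)⁻¹ = u := by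
          rw [← hi, ← conj_zpow, h3]
        exact h4
      · exact absurd ((hcm n).2 (h.reg (u : G) (mem_subgroupOf.1 hu) huw (n : G)
          ((hmem n).1 hn) ((hmemH _).1 n.2) (congrArg Subtype.val hnu))) hnC
    · by_contra hcon
      push Not at hcon
      have h3 : t ^ 1 ∈ centralizer (D : Set G) := by
        rw [pow_one, mem_centralizer_iff]
        intro d hd
        have h4 := congrArg Subtype.val (hcon ⟨d, hDH hd⟩ (mem_subgroupOf.2 hd) ⟨t, htH⟩
          ((hmem _).2 h.t_mem))
        have h5 : t * d * t⁻¹ = d := h4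
        have h6 := congrArg (· * t) h5
        simpa [mul_assoc] using h6.symm
      have h4 := Nat.dvd_one.1 ((h.tpow 1).1 h3)
      have := h.two_le
      omega
  refine ⟨b1, hb1, hlb1, ?_⟩
  rw [hw1, numWeightsIn_eq_index red hb1 hdf habH (hl.restrict hDH hCH) (Low.char hlb1) hcyc,
    ← hidx]
  exact relIndex_stabT_lres hDH hCH

end

end P179H450
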