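import Vale.Agent.P179.R2.H450.Pig
import Vale.Agent.P179.R2.H450.W1

/-!
# Blocks of normal subgroups: a nonzero truncation
-/

namespace P179H450

open P179H524 P179C P179A Finset P179P P179Y Subgroup P179R

open scoped Classical

universe u

section Iot

variable {k : Type u} [Field k] {G : Type} [Group G] [Fintype G] (C : Subgroup G)

/-- the inclusion of `kC` in `kG` -/
noncomputable def iot : MonoidAlgebra k C →ₐ[k] MonoidAlgebra k G :=
  MonoidAlgebra.mapDomainAlgHom k k C.subtype

omit [Fintype G] in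
theorem iot_single (c : C) (r : k) :
    iot C (MonoidAlgebra.single c r) = MonoidAlgebra.single (c : G) r := by
  simp [iot]

omit [Fintype G] in
theorem coeff_iot (z : MonoidAlgebra k C) (g : G) :
    (iot C z).coeff g = P179Y.ext C (fun h => z.coeff h) g := by
  induction z using MonoidAlgebra.induction_linear with
  | zero =>
    rw [map_zero]
    unfold P179Y.ext
    split_ifs <;> simp
  | add a b ha hb =>
    rw [map_add]
    have h1 : (iot C a + iot C b).coeff g = (iot C a).coeff g + (iot C b).coeff g := by simp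
    rw [h1, ha, hb]
    unfold P179Y.ext
    split_ifs <;> simp
  | single c r =>
    rw [iot_single]
    unfold P179Y.ext
    by_cases hg : g ∈ C
    · rw [dif_pos hg]
      by_cases hc : (c : G) = g
      · subst hc
        simp
      · have : c ≠ ⟨g, hg⟩ := fun h => hc (congrArg Subtype.val h)
        simp [hc, this]
    · rw [dif_neg hg]
      have : (c : G) ≠ g := fun h => hg (h ▸ c.2)
      simp [this]

theorem iot_trunc {a : MonoidAlgebra k G} (ha : ∀ g, g ∉ C → a.coeff g = 0) :
    iot C (P179C.trunc C a) = a := by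
  ext g
  rw [coeff_iot]
  by_cases hg : g ∈ C
  · rw [ext_of_mem _ _ hg, coeff_trunc]
  · rw [ext_of_not_mem _ _ hg, ha g hg]

theorem trunc_iot (z : MonoidAlgebra k C) : P179C.trunc C (iot C z) = z := by
  ext h
  rw [coeff_trunc, coeff_iot, P179Y.ext_coe]

theorem trunc_mul_iot (a : MonoidAlgebra k G) (u : MonoidAlgebra k C) :
    P179C.trunc C (a * iot C u) = P179C.trunc C a * u := by
  induction u using MonoidAlgebra.induction_linear with
  | zero =>
    rw [map_zero, mul_zero, mul_zero]
    ext h
    rw [coeff_trunc]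
    rfl
  | add x y hx hy =>
    have hadd : ∀ x y : MonoidAlgebra k G, P179C.trunc C (x + y) =
        P179C.trunc C x + P179C.trunc C y := by
      intro x y
      ext h
      rw [coeff_trunc, MonoidAlgebra.coeff_add, MonoidAlgebra.coeff_add, Finsupp.add_apply,
        Finsupp.add_apply, coeff_trunc, coeff_trunc]
    rw [map_add, mul_add, mul_add, hadd, hx, hy]
  | single c r =>
    ext h
    rw [coeff_trunc, iot_single, MonoidAlgebra.coeff_mul_single_apply,
      MonoidAlgebra.coeff_mul_single_apply, coeff_trunc]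
    rfl

/-- the elements of `kG` commuting with `C` -/
noncomputable def AA' (k : Type u) [Field k] {G : Type} [Group G] (C : Subgroup G) :
    Subring (MonoidAlgebra k G) :=
  Subring.centralizer (Set.range fun c : C => MonoidAlgebra.single (c : G) (1 : k))

omit [Fintype G] in
theorem mem_AA' {a : MonoidAlgebra k G} :
    a ∈ AA' k C ↔ ∀ c ∈ C, ∀ x, a.coeff (c * x * c⁻¹) = a.coeff x := by
  unfold AA'
  rw [Subring.mem_centralizer_iff]
  constructor
  · intro h c hc x
    have h1 := h _ ⟨⟨c, hc⟩, rfl⟩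
    have h2 := congrArg (fun y : MonoidAlgebra k G => y.coeff (c * x)) h1
    simp only [MonoidAlgebra.coeff_single_mul_apply, MonoidAlgebra.coeff_mul_single_apply,
      one_mul, mul_one, inv_mul_cancel_left] at h2
    exact h2.symm
  · rintro h _ ⟨c, rfl⟩
    ext x
    simp only [MonoidAlgebra.coeff_single_mul_apply, MonoidAlgebra.coeff_mul_single_apply,
      one_mul, mul_one]
    have h1 := h c c.2 ((c : G)⁻¹ * x)
    rw [← h1]
    congr 1
    group

omit [Fintype G] in
theorem iot_comm (z : MonoidAlgebra k C) {a : MonoidAlgebra k G} (ha : a ∈ AA' k C) :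
    iot C z * a = a * iot C z := by
  induction z using MonoidAlgebra.induction_linear with
  | zero => rw [map_zero, zero_mul, mul_zero]
  | add x y hx hy => rw [map_add, add_mul, mul_add, hx, hy]
  | single c r =>
    have h1 := Subring.mem_centralizer_iff.1 ha _ ⟨c, rfl⟩
    have h2 : (MonoidAlgebra.single (c : G) r : MonoidAlgebra k G) =
        r • MonoidAlgebra.single (c : G) (1 : k) := by simp
    rw [iot_single, h2, smul_mul_assoc, mul_smul_comm, h1]

theorem trunc_mem_of {a : MonoidAlgebra k G} (ha : a ∈ AA' k C) :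
    P179C.trunc C a ∈ Subalgebra.center k (MonoidAlgebra k C) := by
  rw [P179C.mem_center_iff]
  intro g x
  change (P179C.trunc C a).coeff (g * x * g⁻¹) = (P179C.trunc C a).coeff x
  rw [coeff_trunc, coeff_trunc]
  exact (mem_AA' C).1 ha g g.2 x

omit [Fintype G] in
theorem center_le_AA' {a : MonoidAlgebra k G}
    (ha : a ∈ Subalgebra.center k (MonoidAlgebra k G)) : a ∈ AA' k C := by
  rw [mem_AA']
  intro c _ x
  exact (P179C.mem_center_iff _).1 ha c x

end Iot

section Nil

variable {k : Type u} [Field k] [IsAlgClosed k] {G : Type} [Group G] [Fintype G]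

/-- the elements of the centre killed by all homomorphisms are nilpotent -/
theorem isNilpotent_of_hom (z : Subalgebra.center k (MonoidAlgebra k G))
    (hz : ∀ ν : Subalgebra.center k (MonoidAlgebra k G) →ₐ[k] k, ν z = 0) : IsNilpotent z := by
  obtain ⟨n, y, hy⟩ := IsArtinian.exists_pow_succ_smul_dvd
    (M := Subalgebra.center k (MonoidAlgebra k G)) z
      (1 : Subalgebra.center k (MonoidAlgebra k G))
  simp only [smul_eq_mul, mul_one] at hy
  have h1 : ∀ j : ℕ, z ^ (n + 1) = z ^ (n + 1 + j) * y ^ j := by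
    intro j
    induction j with
    | zero => simp
    | succ j ih =>
      have h2 : z ^ (n + 1 + (j + 1)) * y ^ (j + 1) = z ^ (j + 1) * (z ^ (n + 1) * y) * y ^ j := by
        ring
      rw [h2, hy, ih]
      ring
  have h2 := h1 (n + 1)
  by_cases he0 : z ^ (n + 1) * y ^ (n + 1) = 0
  · refine ⟨n + 1, ?_⟩
    have h3 : z ^ (n + 1 + (n + 1)) * y ^ (n + 1) = z ^ (n + 1) * (z ^ (n + 1) * y ^ (n + 1)) := by
      ring
    rw [h2, h3, he0, mul_zero]
  · exfalso
    have hee : (z ^ (n + 1) * y ^ (n + 1)) * (z ^ (n + 1) * y ^ (n + 1)) =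
        z ^ (n + 1) * y ^ (n + 1) := by
      have h3 : z ^ (n + 1) * y ^ (n + 1) * (z ^ (n + 1) * y ^ (n + 1)) =
          (z ^ (n + 1 + (n + 1)) * y ^ (n + 1)) * y ^ (n + 1) := by ring
      rw [h3, ← h2]
    obtain ⟨ν, hν⟩ := exists_hom_of_idem _ hee he0
    rw [map_mul, map_pow, hz, zero_pow (Nat.succ_ne_zero n), zero_mul] at hν
    exact zero_ne_one hν

end Nil

section Comp

variable {k : Type u} [Field k] {G : Type} [Group G] [Fintype G] (C : Subgroup G) [C.Normal]

/-- the component on a coset -/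
noncomputable def comp (e : MonoidAlgebra k G) (x : G ⧸ C) : MonoidAlgebra k G :=
  mkF fun g => if (g : G ⧸ C) = x then e.coeff g else 0

/-- supported on a coset -/
def SS (x : G ⧸ C) (a : MonoidAlgebra k G) : Prop := ∀ g, a.coeff g ≠ 0 → (g : G ⧸ C) = x

theorem SS.mul {x y : G ⧸ C} {a b : MonoidAlgebra k G} (ha : SS C x a) (hb : SS C y b) :
    SS C (x * y) (a * b) := by
  intro g hg
  rw [P179C.coeff_mul_eq_conv] at hg
  obtain ⟨h, -, hh⟩ := Finset.exists_ne_zero_of_sum_ne_zero hg
  have h1 := ha h (left_ne_zero_of_mul hh)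
  have h2 := hb _ (right_ne_zero_of_mul hh)
  rw [← h1, ← h2, ← QuotientGroup.mk_mul, mul_inv_cancel_left]

omit [Fintype G] in
theorem SS_one : SS C (1 : G ⧸ C) (1 : MonoidAlgebra k G) := by
  intro g hg
  have h1 : g = 1 := by
    by_contra hne
    apply hg
    rw [MonoidAlgebra.one_def, MonoidAlgebra.coeff_single, Finsupp.single_apply, if_neg]
    exact fun h => hne h.symm
  rw [h1]
  rfl

omit [C.Normal] in
theorem SS_comp (e : MonoidAlgebra k G) (x : G ⧸ C) : SS C x (comp C e x) := by
  intro g hg
  unfold comp at hg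
  rw [coeff_mkF] at hg
  by_contra hne
  exact hg (if_neg hne)

omit [C.Normal] in
theorem sum_comp [Fintype (G ⧸ C)] (e : MonoidAlgebra k G) : e = ∑ x : G ⧸ C, comp C e x := by
  ext g
  rw [MonoidAlgebra.coeff_sum, Finsupp.finsetSum_apply, Finset.sum_eq_single (g : G ⧸ C)]
  · unfold comp
    rw [coeff_mkF, if_pos rfl]
  · intro x _ hx
    unfold comp
    rw [coeff_mkF, if_neg (fun h => hx h.symm)]
  · intro h
    exact absurd (mem_univ _) h

theorem comp_mem {e : MonoidAlgebra k G} (he : e ∈ Subalgebra.center k (MonoidAlgebra k G))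
    (x : G ⧸ C) : comp C e x ∈ AA' k C := by
  rw [mem_AA']
  intro c hc g
  unfold comp
  have h0 : e.coeff (c * g * c⁻¹) = e.coeff g := (P179C.mem_center_iff _).1 he c g
  rw [coeff_mkF, coeff_mkF, h0]
  have h1 : ((c * g * c⁻¹ : G) : G ⧸ C) = (g : G ⧸ C) := by
    have hc1 : ((c : G) : G ⧸ C) = 1 := (QuotientGroup.eq_one_iff c).2 hc
    rw [QuotientGroup.mk_mul, QuotientGroup.mk_mul, QuotientGroup.mk_inv, hc1]
    group
  rw [h1]

/-- the `1`-component of a product -/
theorem comp_mul_eq {e w : MonoidAlgebra k G} {x : G ⧸ C} (hw : SS C x⁻¹ w) :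
    iot C (P179C.trunc C (e * w)) = comp C e x * w := by
  have hfin := Fintype.ofFinite (G ⧸ C)
  ext g
  rw [coeff_iot]
  by_cases hg : g ∈ C
  · rw [P179Y.ext_of_mem _ _ hg, coeff_trunc, P179C.coeff_mul_eq_conv, P179C.coeff_mul_eq_conv]
    unfold conv
    refine Finset.sum_congr rfl fun h _ => ?_
    by_cases hh : w.coeff (h⁻¹ * g) = 0
    · change e.coeff h * w.coeff (h⁻¹ * g) = (comp C e x).coeff h * w.coeff (h⁻¹ * g)
      rw [hh, mul_zero, mul_zero]
    · have h1 := hw _ hh
      have h2 : (h : G ⧸ C) = x := by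
        have hg1 : ((g : G) : G ⧸ C) = 1 := (QuotientGroup.eq_one_iff g).2 hg
        rw [QuotientGroup.mk_mul, hg1, mul_one, QuotientGroup.mk_inv] at h1
        exact inv_injective h1
      change e.coeff h * w.coeff (h⁻¹ * g) = (comp C e x).coeff h * w.coeff (h⁻¹ * g)
      unfold comp
      rw [coeff_mkF, if_pos h2]
  · rw [P179Y.ext_of_not_mem _ _ hg]
    by_contra hne
    have h1 := (SS_comp C e x).mul C hw g (fun h => hne h.symm)
    rw [mul_inv_cancel] at h1
    exact hg ((QuotientGroup.eq_one_iff g).1 h1)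

end Comp

section Main

variable {k : Type u} [Field k] [IsAlgClosed k] {G : Type} [Group G] [Fintype G]
  (C : Subgroup G) [C.Normal]

/-- the inclusion of the centre of `kC` -/
noncomputable def iotZ (k : Type u) [Field k] {G : Type} [Group G] (C : Subgroup G) :
    Subalgebra.center k (MonoidAlgebra k C) →+* MonoidAlgebra k G where
  toFun z := iot C z.1
  map_one' := map_one (iot C)
  map_mul' a b := map_mul (iot C) a.1 b.1
  map_zero' := map_zero (iot C)
  map_add' a b := map_add (iot C) a.1 b.1

omit [IsAlgClosed k] [Fintype G] [C.Normal] in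
theorem iotZ_apply (z : Subalgebra.center k (MonoidAlgebra k C)) : iotZ k C z = iot C z.1 := rfl

omit [Fintype G] [C.Normal] [IsAlgClosed k] in
theorem nil_pow [Finite G] : ∃ n : ℕ,
    (nilradical (Subalgebra.center k (MonoidAlgebra k C))) ^ n = ⊥ := by
  obtain ⟨n, hn⟩ := IsNoetherianRing.isNilpotent_nilradical
    (Subalgebra.center k (MonoidAlgebra k C))
  exact ⟨n, hn⟩

/-- for a nonzero central idempotent `e` of `kG` and a normal subgroup `C` there is an element `w`
commuting with `C` such that the truncation of `e w` to `C` is not nilpotent -/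
theorem exists_nonnil {e : MonoidAlgebra k G}
    (he : e ∈ Subalgebra.center k (MonoidAlgebra k G)) (hee : e * e = e) (he0 : e ≠ 0) :
    ∃ (w : MonoidAlgebra k G) (hw : w ∈ AA' k C)
      (ν : Subalgebra.center k (MonoidAlgebra k C) →ₐ[k] k),
      ν ⟨P179C.trunc C (e * w), trunc_mem_of C (mul_mem (center_le_AA' C he) hw)⟩ ≠ 0 := by
  by_contra hcon
  push Not at hcon
  apply he0
  have hfin := Fintype.ofFinite (G ⧸ C)
  obtain ⟨n, hn⟩ := nil_pow (k := k) C
  have h1 : ∀ z : Subalgebra.center k (MonoidAlgebra k C), ∀ a ∈ AA' k C,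
      iotZ k C z * a = a * iotZ k C z := fun z a ha => iot_comm C z.1 ha
  have h2 : ∀ x : G ⧸ C, ∀ w ∈ AA' k C, SS C x⁻¹ w →
      ∃ j ∈ nilradical (Subalgebra.center k (MonoidAlgebra k C)),
        comp C e x * w = iotZ k C j := by
    intro x w hw hwS
    refine ⟨⟨P179C.trunc C (e * w), trunc_mem_of C (mul_mem (center_le_AA' C he) hw)⟩, ?_, ?_⟩
    · rw [mem_nilradical]
      exact isNilpotent_of_hom _ fun ν => hcon w hw ν
    · exact (comp_mul_eq C hwS).symm
  exact idem_eq_zero (iotZ k C) (AA' k C) h1 _ hn (comp C e) (fun x => comp_mem C he x) (SS C)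
    (SS_one C) (fun x y a b ha hb => SS.mul C ha hb) (fun x => SS_comp C e x) h2 (sum_comp C e) hee

end Main

end P179H450
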