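import Vale.Agent.P179.R2.H450.LW

/-!
# A homomorphism of the centre of a normal subgroup below a block
-/

namespace P179H450

open P179H524 P179C P179A Finset P179P P179Y Subgroup P179R

open scoped Classical

universe u

section Main

variable {k : Type u} [Field k] [IsAlgClosed k] {G : Type} [Group G] [Fintype G]
  (C : Subgroup G) [C.Normal]

/-- **(LW)** for a block `e` of `G` and a normal subgroup `C` there are `w` commuting with `C` and a
homomorphism `ν` of the centre of `kC` below `e` with `ν ((e w)|_C) ≠ 0` -/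
theorem exists_LW {e : MonoidAlgebra k G} (he : IsBlock e) :
    ∃ (w : MonoidAlgebra k G) (hw : w ∈ AA' k C)
      (ν : Subalgebra.center k (MonoidAlgebra k C) →ₐ[k] k),
      ν ⟨P179C.trunc C (e * w), trunc_mem_of C (mul_mem (center_le_AA' C he.1) hw)⟩ ≠ 0 ∧
      ∀ (z : MonoidAlgebra k G) (hz : z ∈ Subalgebra.center k (MonoidAlgebra k G)),
        (∀ g, g ∉ C → z.coeff g = 0) →
        ν ⟨P179C.trunc C z, trunc_mem_of C (center_le_AA' C hz)⟩ = centralChar e z := by
  obtain ⟨w, hw, ν, hν⟩ := exists_nonnil C he.1 he.2.1 he.2.2.1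
  refine ⟨w, hw, ν, hν, fun z hz hzC => ?_⟩
  have hprim := (isBlock_iff_prim ⟨e, he.1⟩).1 he
  obtain ⟨L, hL⟩ := blockHomStmt e he
  have hLe : L ⟨e, he.1⟩ = 1 := by rw [hL]; exact centralChar_self e he
  have hLz : L ⟨z, hz⟩ = centralChar e z := hL _
  rw [← hLz]
  set ez : Subalgebra.center k (MonoidAlgebra k G) := ⟨e, he.1⟩ with hez
  set y : Subalgebra.center k (MonoidAlgebra k G) :=
    ⟨z, hz⟩ - algebraMap k _ (L ⟨z, hz⟩) with hy
  have hee : ez * ez = ez := Subtype.ext he.2.1
  have hnil : IsNilpotent (ez * y) := by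
    refine isNilpotent_of_hom _ fun ν' => ?_
    have h1 : ν' ez * ν' ez = ν' ez := by rw [← map_mul, hee]
    rcases eq_or_ne (ν' ez) 0 with h0 | h0
    · rw [map_mul, h0, zero_mul]
    · have h2 : ν' ez = 1 := mul_left_cancel₀ h0 (by rw [h1, mul_one])
      have h3 : ν' = L := eq_of_prim hprim _ _ h2 hLe
      rw [map_mul, h3, hy, map_sub, AlgHom.commutes]
      simp
  obtain ⟨n, hn⟩ := hnil
  have hey : ez * y ^ (n + 1) = 0 := by
    have h1 : ez ^ (n + 1) = ez := by
      clear hn
      induction n with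
      | zero => rw [zero_add, pow_one]
      | succ n ih => rw [pow_succ, ih, hee]
    rw [← h1, ← mul_pow, pow_succ, hn, zero_mul]
  set v : Subalgebra.center k (MonoidAlgebra k C) :=
    ⟨P179C.trunc C z, trunc_mem_of C (center_le_AA' C hz)⟩ - algebraMap k _ (L ⟨z, hz⟩) with hv
  have hvy : iot C v.1 = y.1 := by
    have h1 : v.1 = P179C.trunc C z - algebraMap k (MonoidAlgebra k C) (L ⟨z, hz⟩) := rfl
    have h2 : y.1 = z - algebraMap k (MonoidAlgebra k G) (L ⟨z, hz⟩) := rfl
    rw [h1, h2, map_sub, iot_trunc C hzC, AlgHom.commutes]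
  have hfv : (⟨P179C.trunc C (e * w), trunc_mem_of C (mul_mem (center_le_AA' C he.1) hw)⟩ :
      Subalgebra.center k (MonoidAlgebra k C)) * v ^ (n + 1) = 0 := by
    apply Subtype.ext
    change P179C.trunc C (e * w) * v.1 ^ (n + 1) = 0
    rw [← trunc_mul_iot, map_pow, hvy]
    have h1 : e * w * y.1 ^ (n + 1) = 0 := by
      have h2 : (ez * y ^ (n + 1)).1 = 0 := by rw [hey]; rfl
      have h3 : e * y.1 ^ (n + 1) = 0 := h2
      have h4 : w * y.1 ^ (n + 1) = y.1 ^ (n + 1) * w :=
        Subalgebra.mem_center_iff.1 (y ^ (n + 1)).2 w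
      rw [mul_assoc, h4, ← mul_assoc, h3, zero_mul]
    rw [h1]
    ext h
    rw [coeff_trunc]
    rfl
  have h5 := congrArg ν hfv
  rw [map_mul, map_pow, map_zero] at h5
  have h6 : ν v = 0 := by
    rcases mul_eq_zero.1 h5 with h | h
    · exact absurd h hν
    · exact pow_eq_zero_iff (Nat.succ_ne_zero n) |>.1 h
  rw [hv, map_sub, AlgHom.commutes] at h6
  exact sub_eq_zero.1 h6

end Main

end P179H450
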