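import Vale.Agent.P179.R2.H450.W1a

/-!
# Normal `p`-subgroups lie in the defect groups
-/

namespace P179H450

open P179H524 P179C P179A Finset P179P P179Y Subgroup P179R

open scoped Classical

section Nrm

variable {p : ℕ} [hp : Fact p.Prime] {k : Type*} [Field k] [IsAlgClosed k] [CharP k p]
  {N : Type} [Group N] [Fintype N]

/-- the classes on which a homomorphism of the centre does not vanish centralise the normal
`p`-subgroups -/
theorem mem_cent_of_cls {μ : (N → k) → k} (hμ : IsHomCF μ) {x : N} (hx : μ (cls k x) ≠ 0)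
    {Q : Subgroup N} (hQn : Q.Normal) (hQ : IsPGroup p Q) : x ∈ centralizer (Q : Set N) := by
  by_contra hxQ
  apply hx
  refine hom_zero hQn hQ hμ (isCF_cls x) fun y hy => ?_
  unfold cls
  rw [if_neg]
  intro hxy
  apply hxQ
  obtain ⟨c, rfl⟩ := isConj_iff.1 hxy
  have h1 : (centralizer (Q : Set N)).Normal := inferInstance
  have h2 := h1.conj_mem _ hy c⁻¹
  have h3 : c⁻¹ * (c * x * c⁻¹) * c⁻¹⁻¹ = x := by group
  rwa [h3] at h2

omit [IsAlgClosed k] [CharP k p] in
theorem le_of_sylCent {x : N} {R : Subgroup N} (hR : SylCent p x R) {Q : Subgroup N}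
    (hQn : Q.Normal) (hQ : IsPGroup p Q) (hx : x ∈ centralizer (Q : Set N)) : Q ≤ R := by
  obtain ⟨c, -, hc⟩ := hR.max Q hQ fun q hq => by
    rw [mem_centralizer_singleton_iff]
    exact mem_centralizer_iff.1 hx q hq
  intro q hq
  have h1 := hc _ (hQn.conj_mem _ hq c)
  have h2 : c⁻¹ * (c * q * c⁻¹) * c = q := by group
  rwa [h2] at h1

/-- existence of Brauer pairs for homomorphisms of the centre -/
theorem exists_BP_nrm {μ : (N → k) → k} (hμ : IsHomCF μ) :
    ∃ (R : Subgroup N) (l : (N → k) → k), IsPGroup p R ∧ BP p R l ∧ (∀ z, IsCF z → l z = μ z) ∧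
      ∀ Q : Subgroup N, Q.Normal → IsPGroup p Q → Q ≤ R := by
  obtain ⟨B, hB, hlB⟩ := exists_prim hμ.toAlgHom
  have hb : IsCF (fun g => B.1.coeff g) := (P179C.mem_center_iff _).1 B.2
  have hBb : (⟨mkF (fun g => B.1.coeff g), mkF_mem hb⟩ :
      Subalgebra.center k (MonoidAlgebra k N)) = B := Subtype.ext (mkF_coeff _)
  have hμb : μ (fun g => B.1.coeff g) = 1 := hlB
  obtain ⟨x, hx, hμx⟩ := exists_cls_ne hμ hb (by rw [hμb]; exact one_ne_zero)
  obtain ⟨R, hR⟩ := exists_sylCent p x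
  obtain ⟨l, hl, hlz⟩ := exists_BP_aux hμ hb (by rw [hBb]; exact hB) hμb hx hμx hR
  exact ⟨R, l, hR.pgp, hl, hlz, fun Q hQn hQ =>
    le_of_sylCent hR hQn hQ (mem_cent_of_cls hμ hμx hQn hQ)⟩

end Nrm

end P179H450
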