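import Mathlib

/-!
# Idempotents in strongly graded ideals
-/

namespace P179H450

section Pigeon

variable {X : Type*} [Group X] [Fintype X]

/-- a long word has a nonempty segment with product `1` -/
theorem exists_segment (w : List X) (hw : Fintype.card X ≤ w.length) :
    ∃ u s v : List X, w = u ++ s ++ v ∧ s ≠ [] ∧ s.prod = 1 := by
  classical
  have key : ∀ i j : ℕ, i < j → j ≤ w.length → (w.take i).prod = (w.take j).prod →
      ∃ u s v : List X, w = u ++ s ++ v ∧ s ≠ [] ∧ s.prod = 1 := by
    intro i j hij hj h
    have h1 : w.take j = w.take i ++ (w.take j).drop i := by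
      have h2 := List.take_append_drop i (w.take j)
      rw [List.take_take, min_eq_left hij.le] at h2
      exact h2.symm
    refine ⟨w.take i, (w.take j).drop i, w.drop j, ?_, ?_, ?_⟩
    · rw [← h1, List.take_append_drop]
    · intro h3
      have h4 := congrArg List.length h3
      rw [List.length_drop, List.length_take, min_eq_left hj, List.length_nil] at h4
      omega
    · rw [h1, List.prod_append] at h
      exact (mul_left_cancel (a := (w.take i).prod) (by rw [← h, mul_one]))
  obtain ⟨i, j, hne, hij⟩ := Fintype.exists_ne_map_eq_of_card_lt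
    (fun i : Fin (Fintype.card X + 1) => (w.take i).prod) (by simp)
  have hi := i.2
  have hj := j.2
  rcases lt_or_gt_of_ne (fun h => hne (Fin.ext h) : (i : ℕ) ≠ j) with h | h
  · exact key i j h (by omega) hij
  · exact key j i h (by omega) hij.symm

end Pigeon

section Idem

variable {R Z X : Type*} [Ring R] [CommRing Z] [Group X] [Fintype X]

/-- the elements `∑ ι(j) a` -/
def II (ι : Z →+* R) (A : Subring R) (J : Ideal Z) : AddSubmonoid R :=
  AddSubmonoid.closure {r | ∃ j ∈ J, ∃ a ∈ A, r = ι j * a}

theorem II_mul (ι : Z →+* R) (A : Subring R) (hcomm : ∀ z, ∀ a ∈ A, ι z * a = a * ι z)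
    (J J' : Ideal Z) {r s : R} (hr : r ∈ II ι A J) (hs : s ∈ II ι A J') :
    r * s ∈ II ι A (J * J') := by
  induction hr using AddSubmonoid.closure_induction with
  | mem r hr =>
    obtain ⟨j, hj, a, ha, rfl⟩ := hr
    induction hs using AddSubmonoid.closure_induction with
    | mem s hs =>
      obtain ⟨j', hj', a', ha', rfl⟩ := hs
      refine AddSubmonoid.subset_closure ⟨j * j', Ideal.mul_mem_mul hj hj', a * a',
        mul_mem ha ha', ?_⟩
      rw [map_mul]
      calc ι j * a * (ι j' * a') = ι j * (a * ι j') * a' := by noncomm_ring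
        _ = ι j * (ι j' * a) * a' := by rw [hcomm j' a ha]
        _ = _ := by noncomm_ring
    | zero => rw [mul_zero]; exact zero_mem _
    | add x y _ _ hx hy => rw [mul_add]; exact add_mem hx hy
  | zero => rw [zero_mul]; exact zero_mem _
  | add x y _ _ hx hy => rw [add_mul]; exact add_mem hx hy

/-- an idempotent whose homogeneous components pair into a nilpotent ideal vanishes -/
theorem idem_eq_zero (ι : Z →+* R) (A : Subring R)
    (hcomm : ∀ z, ∀ a ∈ A, ι z * a = a * ι z) (J : Ideal Z) {n : ℕ} (hJ : J ^ n = ⊥)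
    (c : X → R) (hcA : ∀ x, c x ∈ A) (S : X → R → Prop) (hS1 : S 1 1)
    (hSmul : ∀ x y a b, S x a → S y b → S (x * y) (a * b)) (hSc : ∀ x, S x (c x))
    (hJc : ∀ x, ∀ w ∈ A, S x⁻¹ w → ∃ j ∈ J, c x * w = ι j) {e : R} (he : e = ∑ x, c x)
    (hee : e * e = e) : e = 0 := by
  -- words
  have hword : ∀ w : List X, (w.map c).prod ∈ A ∧ S w.prod (w.map c).prod := by
    intro w
    induction w with
    | nil => exact ⟨one_mem _, hS1⟩
    | cons x w ih =>
      rw [List.map_cons, List.prod_cons, List.prod_cons]
      exact ⟨mul_mem (hcA x) ih.1, hSmul _ _ _ _ (hSc x) ih.2⟩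
  have hlong : ∀ w : List X, Fintype.card X ≤ w.length → (w.map c).prod ∈ II ι A J := by
    intro w hw
    obtain ⟨u, s, v, rfl, hs, hs1⟩ := exists_segment w hw
    cases s with
    | nil => exact absurd rfl hs
    | cons x s' =>
      rw [List.prod_cons] at hs1
      have h1 : s'.prod = x⁻¹ := (inv_eq_of_mul_eq_one_right hs1).symm
      obtain ⟨j, hj, hjc⟩ := hJc x _ (hword s').1 (h1 ▸ (hword s').2)
      rw [List.map_append, List.map_append, List.prod_append, List.prod_append, List.map_cons,
        List.prod_cons, hjc]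
      refine AddSubmonoid.subset_closure ⟨j, hj, (u.map c).prod * (v.map c).prod,
        mul_mem (hword u).1 (hword v).1, ?_⟩
      rw [← hcomm j _ (hword u).1, mul_assoc]
  have hpow : ∀ m : ℕ, e ^ m ∈ AddSubmonoid.closure
      {r : R | ∃ w : List X, w.length = m ∧ r = (w.map c).prod} := by
    intro m
    induction m with
    | zero =>
      rw [pow_zero]
      exact AddSubmonoid.subset_closure ⟨[], rfl, rfl⟩
    | succ m ih =>
      have hstep : ∀ r ∈ AddSubmonoid.closure
          {r : R | ∃ w : List X, w.length = m ∧ r = (w.map c).prod},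
          e * r ∈ AddSubmonoid.closure
            {r : R | ∃ w : List X, w.length = m + 1 ∧ r = (w.map c).prod} := by
        intro r hr
        rw [he, Finset.sum_mul]
        refine sum_mem fun x _ => ?_
        induction hr using AddSubmonoid.closure_induction with
        | mem r hr =>
          obtain ⟨w, hw, rfl⟩ := hr
          exact AddSubmonoid.subset_closure ⟨x :: w, by rw [List.length_cons, hw], by
            rw [List.map_cons, List.prod_cons]⟩
        | zero => rw [mul_zero]; exact zero_mem _
        | add a b _ _ ha hb => rw [mul_add]; exact add_mem ha hb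
      rw [pow_succ']
      exact hstep _ ih
  have hcard : Fintype.card X ≠ 0 := Fintype.card_ne_zero
  have hepow : ∀ m : ℕ, m ≠ 0 → e ^ m = e := by
    intro m hm
    obtain ⟨m, rfl⟩ := Nat.exists_eq_succ_of_ne_zero hm
    induction m with
    | zero => exact pow_one e
    | succ m ih => rw [pow_succ, ih (Nat.succ_ne_zero m), hee]
  have he1 : e ∈ II ι A J := by
    have h1 := hpow (Fintype.card X)
    rw [hepow _ hcard] at h1
    refine AddSubmonoid.closure_le.2 ?_ h1
    rintro r ⟨w, hw, rfl⟩
    exact hlong w hw.ge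
  have hen : ∀ m : ℕ, e ∈ II ι A (J ^ (m + 1)) := by
    intro m
    induction m with
    | zero => rw [zero_add, pow_one]; exact he1
    | succ m ih =>
      rw [pow_succ, ← hee]
      exact II_mul ι A hcomm _ _ ih he1
  have h0 : J ^ (n + 1) = ⊥ := by rw [pow_succ, hJ, Ideal.bot_mul]
  have h1 := hen n
  rw [h0] at h1
  have h2 : II ι A (⊥ : Ideal Z) ≤ ⊥ := by
    refine AddSubmonoid.closure_le.2 ?_
    rintro r ⟨j, hj, a, -, rfl⟩
    rw [Ideal.mem_bot] at hj
    rw [hj, map_zero, zero_mul]
    exact zero_mem _
  exact AddSubmonoid.mem_bot.1 (h2 h1)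

end Idem

end P179H450
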