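import Vale.Agent.P179.R2.H450.DZ

/-!
# The simple modules of a block with normal abelian defect group
-/

namespace P179H450

open P179H524 P179C P179A Finset P179P P179Y Subgroup P179R

open P179X (pp SameSec IrrB)

open scoped Classical

universe u

section Deg

/-- degrees divide the order of the group -/
theorem deg_dvd {K : Type*} [Group K] [Fintype K] (φ : Irr K) {d : ℕ} (hd : φ.1 1 = d) :
    d ∣ Fintype.card K := by
  have hd0 : d ≠ 0 := by
    rintro rfl
    exact φ.one_ne_zero (by rw [hd]; simp)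
  have hdC : (d : ℂ) ≠ 0 := by exact_mod_cast hd0
  have hacf : IsCF (fun g => φ.1 g⁻¹) := by
    intro t x
    have h1 : (t * x * t⁻¹)⁻¹ = t * x⁻¹ * t⁻¹ := by group
    simp only [h1]
    exact φ.conj t x⁻¹
  have haint : ∀ g, (fun g => φ.1 g⁻¹) g ∈ integralClosure ℤ ℂ := fun g => φ.integral g⁻¹
  have hφval : omC φ.1 (fun g => φ.1 g⁻¹) = Fintype.card K / d := by
    unfold omC
    rw [hd]
    congr 1
    have := row_orth φ φ
    rw [if_pos rfl] at this
    rw [← this]
    exact Finset.sum_congr rfl fun g _ => by ring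
  obtain ⟨b, hb⟩ : ∃ b : ℤ, ((Fintype.card K : ℂ) / d) = b := by
    have h1 := omC_mem φ hacf haint
    rw [hφval] at h1
    have h2 : IsIntegral ℤ ((algebraMap ℚ ℂ) ((Fintype.card K : ℚ) / d)) := by
      have : (algebraMap ℚ ℂ) ((Fintype.card K : ℚ) / d) = (Fintype.card K : ℂ) / d := by simp
      rw [this]; exact h1
    rw [isIntegral_algebraMap_iff (algebraMap ℚ ℂ).injective] at h2
    obtain ⟨b, hb⟩ := IsIntegrallyClosed.isIntegral_iff.1 h2
    refine ⟨b, ?_⟩
    have := congrArg (algebraMap ℚ ℂ) hb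
    simpa using this.symm
  rw [div_eq_iff hdC] at hb
  have h3 : (Fintype.card K : ℤ) = b * d := by exact_mod_cast hb
  have h4 : (d : ℤ) ∣ Fintype.card K := ⟨b, by rw [h3]; ring⟩
  exact Int.natCast_dvd_natCast.1 h4

end Deg

section Infl

variable {p : ℕ} [hp : Fact p.Prime] {k : Type u} [Field k] [CharP k p]
  (red : integralClosure ℤ ℂ →+* k) {N : Type} [Group N] [Fintype N] {D : Subgroup N} [D.Normal]
  {l : (N → k) → k}

/-- inflation of characters -/
noncomputable def inf (D : Subgroup N) [D.Normal] (φ : Irr (N ⧸ D)) : Irr N :=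
  ⟨fun n => φ.1 (QuotientGroup.mk' D n), φ.2.comp _ (QuotientGroup.mk'_surjective D)⟩

omit [Fintype N] in
theorem inf_apply (φ : Irr (N ⧸ D)) (n : N) : (inf D φ).1 n = φ.1 (QuotientGroup.mk' D n) := rfl

omit [Fintype N] in
theorem inf_injective : Function.Injective (inf D) := by
  intro φ ψ h
  apply Subtype.ext
  funext c
  obtain ⟨n, rfl⟩ := QuotientGroup.mk'_surjective D c
  exact congrFun (congrArg Subtype.val h) n

/-- the characters of `N/D` whose inflations lie in `l` are of defect zero -/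
theorem dz_of_inf (hl : BP p D l) (hD : IsPGroup p D) (hab : D ≤ centralizer (D : Set N))
    (hT : ¬ p ∣ (centralizer (D : Set N)).relIndex (stabT D l)) (φ : Irr (N ⧸ D))
    (hφ : InL red l (inf D φ).1) : IsDefectZeroChar p φ.1 := by
  have := Fintype.ofFinite (N ⧸ D)
  obtain ⟨d, hd, hd1⟩ := φ.exists_deg
  obtain ⟨V, W, hV, hVW⟩ := P179T.height red hl hD hab hT (inf D φ) hφ
  refine ⟨φ.2, d, hd1, ?_⟩
  have h1 : (inf D φ).1 1 = d := by
    rw [inf_apply, map_one, hd1]
  have hcard : Nat.card N = Nat.card (N ⧸ D) * Nat.card D :=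
    card_eq_card_quotient_mul_card_subgroup D
  have hDC : (Nat.card D : ℂ) ≠ 0 := by exact_mod_cast Nat.card_pos.ne'
  rw [h1, hcard] at hVW
  have h2 : (V : ℂ) * ((d : ℤ) : ℂ) = (p : ℂ) ^ ((Nat.card (N ⧸ D)).factorization p) *
      ((ordCompl[p] (Nat.card (N ⧸ D)) : AA) * W : AA) := by
    apply mul_left_cancel₀ hDC
    have h3 : ((ordProj[p] (Nat.card (N ⧸ D)) * ordCompl[p] (Nat.card (N ⧸ D)) : ℕ) : ℂ) =
        Nat.card (N ⧸ D) := by
      rw [Nat.ordProj_mul_ordCompl_eq_self]
    push_cast at h3 hVW ⊢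
    rw [← h3] at hVW
    linear_combination hVW
  have h3 := P179T.dvd_of_red red hV _ _ _ h2
  have h4 : p ^ ((Nat.card (N ⧸ D)).factorization p) ∣ d := by exact_mod_cast h3
  have h5 : d ∣ Nat.card (N ⧸ D) := by
    rw [Nat.card_eq_fintype_card]
    exact deg_dvd φ hd1
  refine le_antisymm ?_ ?_
  · exact (Nat.factorization_le_iff_dvd hd.ne' Nat.card_pos.ne').2 h5 p
  · exact (hp.out.pow_dvd_iff_le_factorization hd.ne').1 h4

/-- the homomorphism of the centres -/
noncomputable def quoC (D : Subgroup N) [D.Normal] : Subalgebra.center k (MonoidAlgebra k N) →ₐ[k]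
    Subalgebra.center k (MonoidAlgebra k (N ⧸ D)) :=
  ((quo (k := k) D).comp (Subalgebra.center k (MonoidAlgebra k N)).val).codRestrict _
    fun z => quo_mem D z.2

omit [Fintype N] hp [CharP k p] in
theorem quoC_coe (z : Subalgebra.center k (MonoidAlgebra k N)) :
    (quoC D z : MonoidAlgebra k (N ⧸ D)) = quo D z.1 := rfl

omit hp in
theorem lamHom_quoC [Fintype (N ⧸ D)] (φ : Irr (N ⧸ D)) {z : N → k} (hz : IsCF z) :
    lamHom red φ.1 φ.2 (quoC D ⟨mkF z, mkF_mem hz⟩) = lam red (inf D φ).1 z := by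
  rw [lamHom_apply, quoC_coe]
  have h1 : (inf D φ).1 = fun n => φ.1 (QuotientGroup.mk' D n) := rfl
  rw [h1, ← lam_push red (QuotientGroup.mk' D) (QuotientGroup.mk'_surjective D) φ.2 hz]
  congr 1
  funext c
  rw [coeff_quo]
  unfold pushR
  refine Finset.sum_congr rfl fun g _ => ?_
  rw [coeff_mkF]
  have hiff : ((g : N ⧸ D) = c) ↔ (QuotientGroup.mk' D g = c) := Iff.rfl
  by_cases hg : (g : N ⧸ D) = c
  · rw [if_pos hg, if_pos (hiff.1 hg)]
  · rw [if_neg hg, if_neg (fun h => hg (hiff.2 h))]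

end Infl

section Count

variable {p : ℕ} [hp : Fact p.Prime] {k : Type u} [Field k] [IsAlgClosed k] [CharP k p]
  (red : integralClosure ℤ ℂ →+* k) {N : Type} [Group N] [Fintype N] {D : Subgroup N} [D.Normal]
  {l : (N → k) → k}

/-- the number of simple modules of a block with normal abelian defect group `D` is the number of
characters of `N/D` whose inflations lie in the block -/
theorem numSimpleIn_eq_inf (hl : BP p D l) (hD : IsPGroup p D)
    (hab : D ≤ centralizer (D : Set N))
    (hT : ¬ p ∣ (centralizer (D : Set N)).relIndex (stabT D l))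
    {b : MonoidAlgebra k N} (hb : IsBlock b)
    (hlb : ∀ z : N → k, IsCF z → l z = centralChar b (mkF z)) :
    numSimpleIn b = Nat.card {φ : Irr (N ⧸ D) // InL red l (inf D φ).1} := by
  have := Fintype.ofFinite (N ⧸ D)
  rw [numSimpleIn_quo (p := p) D hD b]
  obtain ⟨r, μ, hμ, -⟩ := exists_L p (k := k) (G := N ⧸ D)
  rw [hμ _ (quo_mem D hb.1)]
  have hlhom : IsHomCF l := hl.isHomCF' hD
  have hprim := (isBlock_iff_prim ⟨b, hb.1⟩).1 hb
  have hbcf : IsCF (fun g => b.coeff g) := (P179C.mem_center_iff _).1 hb.1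
  have hmk : (⟨mkF (fun g => b.coeff g), mkF_mem hbcf⟩ :
      Subalgebra.center k (MonoidAlgebra k N)) = ⟨b, hb.1⟩ := Subtype.ext (mkF_coeff b)
  have hlb1 : l (fun g => b.coeff g) = 1 := by
    rw [hlb _ hbcf, mkF_coeff]
    exact centralChar_self b hb
  -- homomorphisms of the centre of `k[N/D]` which are `1` on the image of `b`
  have key : ∀ L : Subalgebra.center k (MonoidAlgebra k (N ⧸ D)) →ₐ[k] k,
      L ⟨quo D b, quo_mem D hb.1⟩ = 1 ↔
        ∀ (z : N → k) (hz : IsCF z), L (quoC D ⟨mkF z, mkF_mem hz⟩) = l z := by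
    intro L
    constructor
    · intro h z hz
      have h1 : L.comp (quoC D) = hlhom.toAlgHom := by
        refine eq_of_prim hprim _ _ h ?_
        rw [← hmk, hlhom.toAlgHom_mkF hbcf, hlb1]
      rw [← hlhom.toAlgHom_mkF hz, ← h1]
      rfl
    · intro h
      have h1 := h _ hbcf
      rw [hmk, hlb1] at h1
      exact h1
  have hcard := card_eq_of_blocks (k := k) (G := N ⧸ D) μ
    (fun φ : Irr (N ⧸ D) => lamHom red φ.1 φ.2) ⟨quo D b, quo_mem D hb.1⟩ (by
      intro B' hB' hB'b
      have hB'b' : centralChar B' (quo D b) = 1 := hB'b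
      rw [← hμ B' hB'.1]
      obtain ⟨L', hL'⟩ := blockHomStmt B' hB'
      have hL'b : L' ⟨quo D b, quo_mem D hb.1⟩ = 1 := by rw [hL']; exact hB'b'
      obtain ⟨μ', hμ', hμ'z⟩ := exists_hom_of_block hB'
      obtain ⟨φ₀, hφ₀⟩ := P179Y.exists_inL p red hμ'
      have hin : ∀ χ : Irr (N ⧸ D), InL red μ' χ.1 ↔ CharInBlock red χ.1 B' :=
        fun χ => inL_iff red hB' hμ'z χ
      have hφ₀l : InL red l (inf D φ₀).1 := by
        intro z hz
        rw [← lamHom_quoC red φ₀ hz, lamHom_apply]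
        have hcf : IsCF (fun h => (quoC D ⟨mkF z, mkF_mem hz⟩ :
            Subalgebra.center k (MonoidAlgebra k (N ⧸ D))).1.coeff h) :=
          (P179C.mem_center_iff _).1 (quoC D ⟨mkF z, mkF_mem hz⟩).2
        rw [hφ₀ _ hcf, hμ'z _ hcf, mkF_coeff, ← (key L').1 hL'b z hz, hL']
      have hdz := dz_of_inf red hl hD hab hT φ₀ hφ₀l
      have huniq : ∀ χ : Irr (N ⧸ D), CharInBlock red χ.1 B' ↔ χ = φ₀ := by
        intro χ
        rw [← hin]
        constructor
        · intro h
          refine dz_sep p red φ₀ χ hdz fun z hz => ?_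
          rw [h z hz, hφ₀ z hz]
        · rintro rfl
          exact hφ₀
      rw [numSimpleIn_eq_one (p := p) red hB' huniq]
      symm
      rw [Nat.card_eq_one_iff_unique]
      have hval : ∀ χ : Irr (N ⧸ D), lamHom red χ.1 χ.2 ⟨B', hB'.1⟩ = 1 ↔ χ = φ₀ := by
        intro χ
        rw [← huniq χ, ← hin χ]
        have hprim' := (isBlock_iff_prim ⟨B', hB'.1⟩).1 hB'
        constructor
        · intro h z hz
          have h1 : lamHom red χ.1 χ.2 = hμ'.toAlgHom := by
            refine eq_of_prim hprim' _ _ h ?_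
            have hcf : IsCF (fun g => B'.coeff g) := (P179C.mem_center_iff _).1 hB'.1
            have hmk' : (⟨mkF (fun g => B'.coeff g), mkF_mem hcf⟩ :
                Subalgebra.center k (MonoidAlgebra k (N ⧸ D))) = ⟨B', hB'.1⟩ :=
              Subtype.ext (mkF_coeff B')
            rw [← hmk', hμ'.toAlgHom_mkF hcf, hμ'z _ hcf, mkF_coeff]
            exact centralChar_self B' hB'
          have h2 : lamHom red χ.1 χ.2 ⟨mkF z, mkF_mem hz⟩ = lam red χ.1 z := by
            rw [lamHom_apply]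
            congr 1
            funext g
            exact coeff_mkF z g
          rw [← h2, h1, hμ'.toAlgHom_mkF hz]
        · intro h
          have hcf : IsCF (fun g => B'.coeff g) := (P179C.mem_center_iff _).1 hB'.1
          have h2 : lamHom red χ.1 χ.2 ⟨B', hB'.1⟩ = lam red χ.1 (fun g => B'.coeff g) := rfl
          rw [h2, h _ hcf, hμ'z _ hcf, mkF_coeff]
          exact centralChar_self B' hB'
      refine ⟨⟨fun a b => Subtype.ext (((hval _).1 a.2).trans ((hval _).1 b.2).symm)⟩,
        ⟨⟨φ₀, (hval φ₀).2 rfl⟩⟩⟩)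
  rw [hcard]
  refine Nat.card_congr (Equiv.subtypeEquivRight fun φ => ?_)
  rw [key]
  constructor
  · intro h z hz
    rw [← lamHom_quoC red φ hz, h z hz]
  · intro h z hz
    rw [lamHom_quoC red φ hz, h z hz]

end Count

end P179H450
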