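import Vale.Agent.P179.R2.H450.R2a

/-!
# A `p'`-group acting on an abelian group of rank two and fixing a line of `Ω_1`
-/

namespace P179H450

open Subgroup P179H292

/-- the data: `T` acts on the abelian `p`-group `D` of rank two as a `p'`-group, and stabilises the
subgroup `L` of order `p` -/
structure LineData (p : ℕ) {G : Type*} [Group G] (D T L : Subgroup G) : Prop where
  isP : IsPGroup p D
  comm : ∀ a ∈ D, ∀ b ∈ D, a * b = b * a
  norm : T ≤ normalizer (D : Set G)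
  cent : centralizer (D : Set G) ≤ T
  idx : ¬ p ∣ (centralizer (D : Set G)).relIndex T
  rank : Nat.card (omS comm p) = p ^ 2
  card : Nat.card L = p
  le : L ≤ omS comm p
  stab : ∀ t ∈ T, ∀ x ∈ L, t * x * t⁻¹ ∈ L

namespace LineData

variable {p : ℕ} [hp : Fact p.Prime] {G : Type*} [Group G] [Finite G] {D T L : Subgroup G}
  (h : LineData p D T L)

include h

omit hp [Finite G] in
theorem conj_D {t x : G} (ht : t ∈ T) (hx : x ∈ D) : t * x * t⁻¹ ∈ D :=
  (mem_normalizer_iff.1 (h.norm ht) x).1 hx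

omit hp [Finite G] in
theorem conj_om {t x : G} (ht : t ∈ T) (hx : x ∈ omS h.comm p) : t * x * t⁻¹ ∈ omS h.comm p := by
  refine ⟨h.conj_D ht hx.1, ?_⟩
  rw [conj_pow, hx.2]
  group

omit hp in
/-- a subgroup of `Ω_1` containing `L` properly is everything -/
theorem max {F : Subgroup G} [Fact p.Prime] (hF : F ≤ omS h.comm p) (hLF : L ≤ F) {x : G}
    (hx : x ∈ F) (hxL : x ∉ L) : F = omS h.comm p := by
  have hp : p.Prime := Fact.out
  refine Subgroup.eq_of_le_of_card_ge hF ?_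
  rw [h.rank]
  have h1 : Nat.card F ∣ p ^ 2 := by
    rw [← h.rank]
    exact Subgroup.card_dvd_of_le hF
  obtain ⟨i, hi, hi'⟩ := (Nat.dvd_prime_pow hp).1 h1
  have h2 : p < Nat.card F := by
    rw [← h.card]
    refine lt_of_le_of_ne (Subgroup.card_le_of_le hLF) ?_
    intro h3
    have := Subgroup.eq_of_le_of_card_ge hLF h3.ge
    rw [this] at hxL
    exact hxL hx
  rw [hi'] at h2 ⊢
  have h3 : 1 < i := by
    by_contra hcon
    have : i ≤ 1 := by omega
    have h4 : p ^ i ≤ p ^ 1 := Nat.pow_le_pow_right hp.pos this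
    rw [pow_one] at h4
    omega
  exact Nat.pow_le_pow_right hp.pos h3

omit [Finite G] in
/-- elements of `L` are powers of any non-trivial element of `L` -/
theorem gen {x y : G} (hx : x ∈ L) (hx1 : x ≠ 1) (hy : y ∈ L) : ∃ i : ℕ, x ^ i = y := by
  have h1 := mem_powers_of_prime_card h.card (g := (⟨x, hx⟩ : L)) (g' := ⟨y, hy⟩)
    (fun hc => hx1 (congrArg Subtype.val hc))
  obtain ⟨i, hi⟩ := h1
  exact ⟨i, congrArg Subtype.val hi⟩

omit hp [Finite G] h in
theorem fix_pow {t x : G} (ht : t * x * t⁻¹ = x) (i : ℕ) : t * x ^ i * t⁻¹ = x ^ i := by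
  rw [← conj_pow, ht]

/-- fixing one non-trivial element of `L`, `t` fixes all of `L` -/
theorem fix_L {t x : G} (hx : x ∈ L) (hx1 : x ≠ 1) (ht : t * x * t⁻¹ = x) {y : G} (hy : y ∈ L) :
    t * y * t⁻¹ = y := by
  obtain ⟨i, rfl⟩ := h.gen hx hx1 hy
  exact fix_pow ht i

/-- a proper subgroup of `Ω_1` with an element outside `L` meets `L` trivially -/
theorem inf_L {F : Subgroup G} (hF : F ≤ omS h.comm p) (hne : F ≠ omS h.comm p) {u : G}
    (hu : u ∈ F) (huL : u ∉ L) {x : G} (hx : x ∈ F) (hxL : x ∈ L) : x = 1 := by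
  by_contra hx1
  apply hne
  refine h.max hF (fun y hy => ?_) hu huL
  obtain ⟨i, rfl⟩ := h.gen hxL hx1 hy
  exact pow_mem hx i

omit hp [Finite G] h in
/-- the elements of `A` fixed by `t` -/
def fixS (A : Subgroup G) (t : G) : Subgroup G where
  carrier := {x | x ∈ A ∧ t * x * t⁻¹ = x}
  one_mem' := ⟨one_mem _, by group⟩
  mul_mem' := by
    rintro x y ⟨hx, hx'⟩ ⟨hy, hy'⟩
    refine ⟨mul_mem hx hy, ?_⟩
    calc t * (x * y) * t⁻¹ = t * x * t⁻¹ * (t * y * t⁻¹) := by group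
      _ = x * y := by rw [hx', hy']
  inv_mem' := by
    rintro x ⟨hx, hx'⟩
    refine ⟨inv_mem hx, ?_⟩
    calc t * x⁻¹ * t⁻¹ = (t * x * t⁻¹)⁻¹ := by group
      _ = x⁻¹ := by rw [hx']

omit hp [Finite G] in
theorem pow_idx {t : G} (ht : t ∈ T) :
    t ^ (centralizer (D : Set G)).relIndex T ∈ centralizer (D : Set G) := by
  have hN : ((centralizer (D : Set G)).subgroupOf T).Normal := by
    refine ⟨fun c hc n => ?_⟩
    rw [mem_subgroupOf] at hc ⊢
    change (n : G) * c * (n : G)⁻¹ ∈ _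
    rw [mem_centralizer_iff] at hc ⊢
    intro x hx
    have h1 : (n : G)⁻¹ * x * n ∈ D := by
      have := (mem_normalizer_iff.1 (inv_mem (h.norm n.2)) x).1 hx
      rwa [inv_inv] at this
    have h2 := hc _ h1
    calc x * (n * c * (n : G)⁻¹) = n * ((n : G)⁻¹ * x * n * c) * (n : G)⁻¹ := by group
      _ = n * c * (n : G)⁻¹ * x := by rw [h2]; group
  have h1 : (⟨t, ht⟩ : T) ^ ((centralizer (D : Set G)).subgroupOf T).index ∈
      (centralizer (D : Set G)).subgroupOf T := pow_index_mem _ _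
  exact h1

omit hp [Finite G] in
/-- an element of `T` fixing `Ω_1` centralises `D` -/
theorem mem_C_of_om [Fact p.Prime] {t : G} (ht : t ∈ T)
    (hfix : ∀ x ∈ omS h.comm p, t * x * t⁻¹ = x) : t ∈ centralizer (D : Set G) :=
  centralises_of_omega h.comm h.isP (h.norm ht) h.idx (h.pow_idx ht) hfix

/-- an element of `T` fixing an element of `L` and an element of `Ω_1` outside `L` centralises
`D` -/
theorem mem_C_of_two {t : G} (ht : t ∈ T) {x y : G} (hx : x ∈ L) (hx1 : x ≠ 1)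
    (hy : y ∈ omS h.comm p) (hyL : y ∉ L) (htx : t * x * t⁻¹ = x) (hty : t * y * t⁻¹ = y) :
    t ∈ centralizer (D : Set G) := by
  have h1 : fixS (omS h.comm p) t = omS h.comm p :=
    h.max (F := fixS (omS h.comm p) t) (fun _ h => h.1)
      (fun z hz => ⟨h.le hz, h.fix_L hx hx1 htx hz⟩) (x := y) ⟨hy, hty⟩ hyL
  refine h.mem_C_of_om ht fun z hz => ?_
  have h2 : z ∈ fixS (omS h.comm p) t := by rw [h1]; exact hz
  exact h2.2

omit hp [Finite G] in
/-- the elements of `Ω_1` fixed modulo `L` -/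
def fixL (t : G) (ht : t ∈ T) : Subgroup G where
  carrier := {x | x ∈ omS h.comm p ∧ t * x * t⁻¹ * x⁻¹ ∈ L}
  one_mem' := ⟨one_mem _, by
    have : t * 1 * t⁻¹ * (1 : G)⁻¹ = 1 := by group
    rw [this]
    exact one_mem _⟩
  mul_mem' := by
    rintro x y ⟨hx, hx'⟩ ⟨hy, hy'⟩
    refine ⟨mul_mem hx hy, ?_⟩
    have e1 : t * (x * y) * t⁻¹ * (x * y)⁻¹ = t * x * t⁻¹ * (t * y * t⁻¹ * y⁻¹) * x⁻¹ := by group
    have e2 : t * x * t⁻¹ * (t * y * t⁻¹ * y⁻¹) = (t * y * t⁻¹ * y⁻¹) * (t * x * t⁻¹) :=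
      h.comm _ (h.conj_D ht hx.1) _ (mul_mem (h.conj_D ht hy.1) (inv_mem hy.1))
    rw [e1, e2, mul_assoc (t * y * t⁻¹ * y⁻¹)]
    exact mul_mem hy' hx'
  inv_mem' := by
    rintro x ⟨hx, hx'⟩
    refine ⟨inv_mem hx, ?_⟩
    have e1 : t * x⁻¹ * t⁻¹ * x⁻¹⁻¹ = x⁻¹ * (t * x * t⁻¹ * x⁻¹)⁻¹ * x := by group
    have e2 : x⁻¹ * (t * x * t⁻¹ * x⁻¹)⁻¹ = (t * x * t⁻¹ * x⁻¹)⁻¹ * x⁻¹ :=
      h.comm _ (inv_mem hx.1) _ (inv_mem (mul_mem (h.conj_D ht hx.1) (inv_mem hx.1)))
    rw [e1, e2, mul_assoc, inv_mul_cancel, mul_one]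
    exact inv_mem hx'

theorem fixL_all {t : G} (ht : t ∈ T) {x : G} (hx : x ∈ omS h.comm p) (hxL : x ∉ L)
    (hxt : t * x * t⁻¹ * x⁻¹ ∈ L) {y : G} (hy : y ∈ omS h.comm p) : t * y * t⁻¹ * y⁻¹ ∈ L := by
  have h1 : h.fixL t ht = omS h.comm p :=
    h.max (F := h.fixL t ht) (fun _ h => h.1)
      (fun z hz => ⟨h.le hz, mul_mem (h.stab t ht z hz) (inv_mem hz)⟩) (x := x) ⟨hx, hxt⟩ hxL
  have h2 : y ∈ h.fixL t ht := by rw [h1]; exact hy
  exact h2.2

/-- an element fixing `L` and acting trivially on `Ω_1 / L` centralises `D` -/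
theorem mem_C_of_unip {t : G} (ht : t ∈ T) {x y : G} (hx : x ∈ L) (hx1 : x ≠ 1)
    (hy : y ∈ omS h.comm p) (hyL : y ∉ L) (htx : t * x * t⁻¹ = x)
    (hty : t * y * t⁻¹ * y⁻¹ ∈ L) : t ∈ centralizer (D : Set G) := by
  refine h.mem_C_of_two ht hx hx1 hy hyL htx ?_
  set l := t * y * t⁻¹ * y⁻¹ with hl
  have hlt : t * l * t⁻¹ = l := h.fix_L hx hx1 htx hty
  have e1 : t * y * t⁻¹ = l * y := by rw [hl]; group
  have hpow : ∀ i : ℕ, t ^ i * y * (t ^ i)⁻¹ = l ^ i * y := by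
    intro i
    induction i with
    | zero => simp
    | succ i ih =>
      have e2 : t ^ (i + 1) * y * (t ^ (i + 1))⁻¹ = t * (t ^ i * y * (t ^ i)⁻¹) * t⁻¹ := by
        rw [pow_succ']; group
      have e3 : t * (l ^ i * y) * t⁻¹ = (t * l ^ i * t⁻¹) * (t * y * t⁻¹) := by group
      rw [e2, ih, e3, fix_pow hlt, e1, ← mul_assoc, ← pow_succ]
  have h6 := mem_centralizer_iff.1 (h.pow_idx ht) y hy.1
  have h7 := hpow ((centralizer (D : Set G)).relIndex T)
  have h8 : t ^ (centralizer (D : Set G)).relIndex T * y *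
      (t ^ (centralizer (D : Set G)).relIndex T)⁻¹ = y := by
    rw [← h6]; group
  rw [h8] at h7
  have h9 : l ^ (centralizer (D : Set G)).relIndex T = 1 := mul_eq_right.1 h7.symm
  have hlp : l ^ p = 1 := (h.le hty).2
  have h10 : l = 1 := by
    have hco : Nat.Coprime p ((centralizer (D : Set G)).relIndex T) :=
      (Nat.Prime.coprime_iff_not_dvd hp.out).2 h.idx
    have h11 := Nat.dvd_gcd (orderOf_dvd_of_pow_eq_one hlp) (orderOf_dvd_of_pow_eq_one h9)
    rwa [hco.gcd_eq_one, Nat.dvd_one, orderOf_eq_one_iff] at h11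
  rw [e1, h10, one_mul]

end LineData

end P179H450
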