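import Vale.Agent.P179.R2.H450.R2b

/-!
# The order of the inertial quotient and the elements with non-trivial stabiliser
-/

namespace P179H450

open Subgroup P179H292

section Idx

variable {G : Type*} [Group G] [Finite G]

theorem relIndex_le_of_inj (K T : Subgroup G) {S : Type*} [Finite S] (f : T → S)
    (hf : ∀ t t' : T, f t = f t' → (t : G)⁻¹ * t' ∈ K) : K.relIndex T ≤ Nat.card S := by
  unfold Subgroup.relIndex Subgroup.index
  refine Nat.card_le_card_of_injective (fun c : T ⧸ K.subgroupOf T => f c.out) ?_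
  intro c c' h
  rw [← QuotientGroup.out_eq' c, ← QuotientGroup.out_eq' c', QuotientGroup.eq, mem_subgroupOf]
  exact hf _ _ h

theorem relIndex_mul_le_of_inj (K T L : Subgroup G) {S : Type*} [Finite S] (f : T → L → S)
    (hf : ∀ t t' : T, ∀ l l' : L, f t l = f t' l' → (t : G)⁻¹ * t' ∈ K)
    (hf' : ∀ t l l', f t l = f t l' → l = l') : K.relIndex T * Nat.card L ≤ Nat.card S := by
  unfold Subgroup.relIndex Subgroup.index
  rw [← Nat.card_prod]
  refine Nat.card_le_card_of_injective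
    (fun c : (T ⧸ K.subgroupOf T) × L => f c.1.out c.2) ?_
  rintro ⟨c, l⟩ ⟨c', l'⟩ h
  have h0 : f c.out l = f c'.out l' := h
  have h1 : c = c' := by
    rw [← QuotientGroup.out_eq' c, ← QuotientGroup.out_eq' c', QuotientGroup.eq, mem_subgroupOf]
    exact hf _ _ _ _ h0
  subst h1
  rw [hf' _ _ _ h0]

end Idx

namespace LineData

variable {p : ℕ} [hp : Fact p.Prime] {G : Type*} [Group G] [Finite G] {D T L : Subgroup G}
  (h : LineData p D T L)

/-- the stabiliser of `x` in `T` -/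
def K1 (T : Subgroup G) (x : G) : Subgroup G where
  carrier := {t | t ∈ T ∧ t * x * t⁻¹ = x}
  one_mem' := ⟨one_mem _, by group⟩
  mul_mem' := by
    rintro s t ⟨hs, hs'⟩ ⟨ht, ht'⟩
    refine ⟨mul_mem hs ht, ?_⟩
    calc s * t * x * (s * t)⁻¹ = s * (t * x * t⁻¹) * s⁻¹ := by group
      _ = x := by rw [ht', hs']
  inv_mem' := by
    rintro t ⟨ht, ht'⟩
    refine ⟨inv_mem ht, ?_⟩
    calc t⁻¹ * x * t⁻¹⁻¹ = t⁻¹ * (t * x * t⁻¹) * t := by rw [ht']; group
      _ = x := by group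

include h

omit hp [Finite G] in
theorem L_le_D {x : G} (hx : x ∈ L) : x ∈ D := (h.le hx).1

omit hp [Finite G] in
/-- congruence modulo `L` and conjugation -/
theorem cg_conj {t y z : G} (ht : t ∈ T) (hyz : y * z⁻¹ ∈ L) :
    t * y * t⁻¹ * (t * z * t⁻¹)⁻¹ ∈ L := by
  have e : t * y * t⁻¹ * (t * z * t⁻¹)⁻¹ = t * (y * z⁻¹) * t⁻¹ := by group
  rw [e]
  exact h.stab t ht _ hyz

omit hp [Finite G] in
theorem cg_mul {y z y' z' : G} (hz : z ∈ D) (hy' : y' ∈ D) (hz' : z' ∈ D)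
    (h1 : y * z⁻¹ ∈ L) (h2 : y' * z'⁻¹ ∈ L) : y * y' * (z * z')⁻¹ ∈ L := by
  have e : y * y' * (z * z')⁻¹ = y * z⁻¹ * (z * (y' * z'⁻¹) * z⁻¹) := by group
  have e2 : z * (y' * z'⁻¹) = y' * z'⁻¹ * z := h.comm _ hz _ (mul_mem hy' (inv_mem hz'))
  rw [e, e2, mul_assoc (y' * z'⁻¹), mul_inv_cancel, mul_one]
  exact mul_mem h1 h2

omit hp [Finite G] in
theorem cg_pow {y z : G} (hy : y ∈ D) (hz : z ∈ D) (h1 : y * z⁻¹ ∈ L) (n : ℕ) :
    y ^ n * (z ^ n)⁻¹ ∈ L := by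
  induction n with
  | zero =>
    rw [pow_zero, pow_zero, inv_one, mul_one]
    exact one_mem _
  | succ n ih =>
    rw [pow_succ, pow_succ]
    exact h.cg_mul (pow_mem hz n) hy hz ih h1

omit hp [Finite G] in
theorem cg_trans {y z v : G} (h1 : y * z⁻¹ ∈ L) (h2 : z * v⁻¹ ∈ L) : y * v⁻¹ ∈ L := by
  have e : y * v⁻¹ = y * z⁻¹ * (z * v⁻¹) := by group
  rw [e]
  exact mul_mem h1 h2

omit hp [Finite G] in
theorem cg_symm {y z : G} (h1 : y * z⁻¹ ∈ L) : z * y⁻¹ ∈ L := by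
  have e : z * y⁻¹ = (y * z⁻¹)⁻¹ := by group
  rw [e]
  exact inv_mem h1

/-- `Ω_1 = ⟨x⟩ L` -/
theorem exists_pow_cg {x y : G} (hx : x ∈ omS h.comm p) (hxL : x ∉ L) (hy : y ∈ omS h.comm p) :
    ∃ a : ℕ, y * (x ^ a)⁻¹ ∈ L := by
  have hx1 : x ≠ 1 := fun hc => hxL (hc ▸ one_mem _)
  let F : Subgroup G :=
    { carrier := {y | y ∈ omS h.comm p ∧ ∃ a : ℕ, y * (x ^ a)⁻¹ ∈ L}
      one_mem' := ⟨one_mem _, 0, by simp [one_mem]⟩
      mul_mem' := by
        rintro y z ⟨hy, a, ha⟩ ⟨hz, b, hb⟩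
        refine ⟨mul_mem hy hz, a + b, ?_⟩
        rw [pow_add]
        exact h.cg_mul (pow_mem hx.1 a) hz.1 (pow_mem hx.1 b) ha hb
      inv_mem' := by
        rintro y ⟨hy, a, ha⟩
        refine ⟨inv_mem hy, (p - 1) * a, ?_⟩
        have h1 := h.cg_pow hy.1 (pow_mem hx.1 a) ha (p - 1)
        have h2 : y ^ (p - 1) = y⁻¹ := by
          rw [eq_inv_iff_mul_eq_one, ← pow_succ,
            Nat.sub_add_cancel hp.out.one_lt.le, hy.2]
        rw [h2, ← pow_mul, mul_comm a] at h1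
        exact h1 }
  have h1 : F = omS h.comm p := by
    refine h.max (F := F) (fun _ h => h.1) (fun z hz => ⟨h.le hz, 0, ?_⟩) (x := x)
      ⟨hx, 1, ?_⟩ hxL
    · rw [pow_zero, inv_one, mul_one]
      exact hz
    · rw [pow_one, mul_inv_cancel]
      exact one_mem _
  have h2 : y ∈ F := by rw [h1]; exact hy
  exact h2.2

/-- **commutators of elements of `T` centralise `D`** -/
theorem comm_mem {x1 x2 : G} (hx1 : x1 ∈ L) (hx1n : x1 ≠ 1) (hx2 : x2 ∈ omS h.comm p)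
    (hx2L : x2 ∉ L) {s t : G} (hs : s ∈ T) (ht : t ∈ T) :
    s * t * s⁻¹ * t⁻¹ ∈ centralizer (D : Set G) := by
  have hst : s * t ∈ T := mul_mem hs ht
  have hts : t * s ∈ T := mul_mem ht hs
  set c := s * t * s⁻¹ * t⁻¹ with hc
  have hcT : c ∈ T := mul_mem (mul_mem hst (inv_mem hs)) (inv_mem ht)
  have key : ∀ x : G, c * (t * s * x * (t * s)⁻¹) * c⁻¹ = s * t * x * (s * t)⁻¹ := by
    intro x
    rw [hc]
    group
  -- on `L`
  obtain ⟨a, ha⟩ := h.gen hx1 hx1n (h.stab s hs x1 hx1)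
  obtain ⟨b, hb⟩ := h.gen hx1 hx1n (h.stab t ht x1 hx1)
  have e1 : s * t * x1 * (s * t)⁻¹ = x1 ^ (a * b) := by
    calc s * t * x1 * (s * t)⁻¹ = s * (t * x1 * t⁻¹) * s⁻¹ := by group
      _ = (s * x1 * s⁻¹) ^ b := by rw [← hb, conj_pow]
      _ = x1 ^ (a * b) := by rw [← ha, ← pow_mul]
  have e2 : t * s * x1 * (t * s)⁻¹ = x1 ^ (a * b) := by
    calc t * s * x1 * (t * s)⁻¹ = t * (s * x1 * s⁻¹) * t⁻¹ := by group
      _ = (t * x1 * t⁻¹) ^ a := by rw [← ha, conj_pow]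
      _ = x1 ^ (a * b) := by rw [← hb, ← pow_mul, mul_comm]
  -- on `Ω_1 / L`
  obtain ⟨a', ha'⟩ := h.exists_pow_cg hx2 hx2L (h.conj_om hs hx2)
  obtain ⟨b', hb'⟩ := h.exists_pow_cg hx2 hx2L (h.conj_om ht hx2)
  have f1 : s * t * x2 * (s * t)⁻¹ * (x2 ^ (a' * b'))⁻¹ ∈ L := by
    have g1 : s * t * x2 * (s * t)⁻¹ = s * (t * x2 * t⁻¹) * s⁻¹ := by group
    rw [g1]
    refine h.cg_trans (h.cg_conj hs hb') ?_
    rw [← conj_pow, pow_mul]
    exact h.cg_pow (h.conj_D hs hx2.1) (pow_mem hx2.1 _) ha' b'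
  have f2 : t * s * x2 * (t * s)⁻¹ * (x2 ^ (a' * b'))⁻¹ ∈ L := by
    have g1 : t * s * x2 * (t * s)⁻¹ = t * (s * x2 * s⁻¹) * t⁻¹ := by group
    rw [g1]
    refine h.cg_trans (h.cg_conj ht ha') ?_
    rw [← conj_pow, mul_comm a', pow_mul]
    exact h.cg_pow (h.conj_D ht hx2.1) (pow_mem hx2.1 _) hb' a'
  refine h.mem_C_of_unip hcT (x := t * s * x1 * (t * s)⁻¹) (y := t * s * x2 * (t * s)⁻¹)
    (h.stab _ hts x1 hx1) ?_ (h.conj_om hts hx2) ?_ ?_ ?_
  · intro h1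
    apply hx1n
    have : x1 = (t * s)⁻¹ * (t * s * x1 * (t * s)⁻¹) * (t * s) := by group
    rw [this, h1]
    group
  · intro h1
    apply hx2L
    have h2 := h.stab _ (inv_mem hts) _ h1
    have : (t * s)⁻¹ * (t * s * x2 * (t * s)⁻¹) * (t * s)⁻¹⁻¹ = x2 := by group
    rwa [this] at h2
  · rw [key, e1, e2]
  · rw [key]
    exact h.cg_trans f1 (h.cg_symm f2)

omit hp [Finite G] in
theorem fixS_comm {s t : G} (hs : s ∈ T) (hc : t * s * t⁻¹ * s⁻¹ ∈ centralizer (D : Set G))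
    {x : G} (hx : x ∈ D) (hx' : t * x * t⁻¹ = x) : t * (s * x * s⁻¹) * t⁻¹ = s * x * s⁻¹ := by
  have h1 := mem_centralizer_iff.1 hc (s * x * s⁻¹) (h.conj_D hs hx)
  calc t * (s * x * s⁻¹) * t⁻¹
      = (t * s * t⁻¹ * s⁻¹) * (s * (t * x * t⁻¹) * s⁻¹) * (t * s * t⁻¹ * s⁻¹)⁻¹ := by group
    _ = (t * s * t⁻¹ * s⁻¹) * (s * x * s⁻¹) * (t * s * t⁻¹ * s⁻¹)⁻¹ := by rw [hx']
    _ = s * x * s⁻¹ := by rw [← h1]; group

/-- if `s` fixes the elements of order `p` fixed by `t`, it fixes the elements of `D` fixed by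
`t` -/
theorem fix_of_fixS {s t : G} (hs : s ∈ T) (ht : t ∈ T)
    (hcom : ∀ s ∈ T, ∀ t ∈ T, s * t * s⁻¹ * t⁻¹ ∈ centralizer (D : Set G))
    (h1 : ∀ x ∈ omS h.comm p, t * x * t⁻¹ = x → s * x * s⁻¹ = x) {u : G} (hu : u ∈ D)
    (htu : t * u * t⁻¹ = u) : s * u * s⁻¹ = u := by
  set W := fixS D t with hW
  have hWD : W ≤ D := fun _ h => h.1
  have habW : ∀ a ∈ W, ∀ b ∈ W, a * b = b * a := fun a ha b hb => h.comm a ha.1 b hb.1
  have hWp : IsPGroup p W := h.isP.to_le hWD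
  have hn : s ∈ normalizer (W : Set G) := by
    rw [mem_normalizer_iff]
    intro x
    constructor
    · rintro ⟨hx, hx'⟩
      exact ⟨h.conj_D hs hx, h.fixS_comm hs (hcom t ht s hs) hx hx'⟩
    · rintro ⟨hx, hx'⟩
      have h2 := h.conj_D (inv_mem hs) hx
      have h3 := h.fixS_comm (inv_mem hs) (hcom t ht _ (inv_mem hs)) hx hx'
      have e : s⁻¹ * (s * x * s⁻¹) * s⁻¹⁻¹ = x := by group
      rw [e] at h2 h3
      exact ⟨h2, h3⟩
  have hce : s ^ (centralizer (D : Set G)).relIndex T ∈ centralizer (W : Set G) :=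
    centralizer_le hWD (h.pow_idx hs)
  have h2 : s ∈ centralizer (W : Set G) :=
    centralises_of_omega habW hWp hn h.idx hce fun x hx => h1 x ⟨hx.1.1, hx.2⟩ hx.1.2
  have h3 := mem_centralizer_iff.1 h2 u ⟨hu, htu⟩
  rw [← h3]
  group

omit hp [Finite G] in
/-- the second stabiliser -/
theorem K2_aux {x2 : G} (hx2 : x2 ∈ D) {s t : G} (hs : s ∈ T) (ht : t ∈ T)
    (hs' : s * x2 * s⁻¹ * x2⁻¹ ∈ L) (ht' : t * x2 * t⁻¹ * x2⁻¹ ∈ L) :
    s * t * x2 * (s * t)⁻¹ * x2⁻¹ ∈ L := by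
  have e : s * t * x2 * (s * t)⁻¹ = s * (t * x2 * t⁻¹) * s⁻¹ := by group
  rw [e]
  exact h.cg_trans (h.cg_conj hs ht') hs'

omit hp [Finite G] in
/-- the stabiliser of `x2 L` in `T` -/
def K2 {x2 : G} (hx2 : x2 ∈ D) : Subgroup G where
  carrier := {t | t ∈ T ∧ t * x2 * t⁻¹ * x2⁻¹ ∈ L}
  one_mem' := ⟨one_mem _, by
    have : (1 : G) * x2 * 1⁻¹ * x2⁻¹ = 1 := by group
    rw [this]
    exact one_mem _⟩
  mul_mem' := by
    rintro s t ⟨hs, hs'⟩ ⟨ht, ht'⟩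
    exact ⟨mul_mem hs ht, h.K2_aux hx2 hs ht hs' ht'⟩
  inv_mem' := by
    rintro t ⟨ht, ht'⟩
    refine ⟨inv_mem ht, ?_⟩
    have h1 := h.cg_conj (inv_mem ht) (h.cg_symm ht')
    have e : t⁻¹ * (t * x2 * t⁻¹) * t⁻¹⁻¹ = x2 := by group
    rw [e] at h1
    exact h1

theorem card_L_ne : Nat.card {x : G // x ∈ L ∧ x ≠ 1} = p - 1 := by
  classical
  have := Fintype.ofFinite G
  have h1 : (Finset.univ.filter fun x : G => x ∈ L ∧ x ≠ 1) =
      (Finset.univ.filter fun x : G => x ∈ L).erase 1 := by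
    ext x
    simp only [Finset.mem_filter, Finset.mem_univ, true_and, Finset.mem_erase]
    exact and_comm
  have h2 : (Finset.univ.filter fun x : G => x ∈ L).card = p := by
    rw [← h.card, Nat.card_eq_fintype_card, Fintype.card_subtype]
  rw [Nat.card_eq_fintype_card, Fintype.card_subtype, h1, Finset.card_erase_of_mem, h2]
  exact Finset.mem_filter.2 ⟨Finset.mem_univ _, one_mem _⟩

theorem card_om_diff : Nat.card {x : G // x ∈ omS h.comm p ∧ x ∉ L} = p ^ 2 - p := by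
  classical
  have := Fintype.ofFinite G
  have h1 : (Finset.univ.filter fun x : G => x ∈ omS h.comm p ∧ x ∉ L) =
      (Finset.univ.filter fun x : G => x ∈ omS h.comm p) \
        (Finset.univ.filter fun x : G => x ∈ L) := by
    ext x
    simp only [Finset.mem_filter, Finset.mem_univ, true_and, Finset.mem_sdiff]
  have h2 : (Finset.univ.filter fun x : G => x ∈ L).card = p := by
    rw [← h.card, Nat.card_eq_fintype_card, Fintype.card_subtype]
  have h3 : (Finset.univ.filter fun x : G => x ∈ omS h.comm p).card = p ^ 2 := by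
    rw [← h.rank, Nat.card_eq_fintype_card, Fintype.card_subtype]
  rw [Nat.card_eq_fintype_card, Fintype.card_subtype, h1, Finset.card_sdiff_of_subset, h2, h3]
  intro x hx
  rw [Finset.mem_filter] at hx ⊢
  exact ⟨Finset.mem_univ _, h.le hx.2⟩

/-- **the order of the inertial quotient** is at most `(p - 1) ^ 2` -/
theorem relIndex_le {x1 x2 : G} (hx1 : x1 ∈ L) (hx1n : x1 ≠ 1) (hx2 : x2 ∈ omS h.comm p)
    (hx2L : x2 ∉ L) : (centralizer (D : Set G)).relIndex T ≤ (p - 1) ^ 2 := by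
  have hi1 : (K1 T x1).relIndex T ≤ p - 1 := by
    rw [← h.card_L_ne]
    refine relIndex_le_of_inj _ _ (fun t : T => (⟨t * x1 * (t : G)⁻¹, h.stab t t.2 x1 hx1,
      fun hc => hx1n ?_⟩ : {x : G // x ∈ L ∧ x ≠ 1})) ?_
    · have : x1 = (t : G)⁻¹ * (t * x1 * (t : G)⁻¹) * t := by group
      rw [this, hc]
      group
    · intro t t' htt
      have h1 : (t : G) * x1 * (t : G)⁻¹ = t' * x1 * (t' : G)⁻¹ := congrArg Subtype.val htt
      refine ⟨mul_mem (inv_mem t.2) t'.2, ?_⟩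
      calc (t : G)⁻¹ * t' * x1 * ((t : G)⁻¹ * t')⁻¹
          = (t : G)⁻¹ * (t' * x1 * (t' : G)⁻¹) * t := by group
        _ = x1 := by rw [← h1]; group
  have hi2 : (h.K2 hx2.1).relIndex T ≤ p - 1 := by
    have h1 : (h.K2 hx2.1).relIndex T * Nat.card L ≤ p ^ 2 - p := by
      rw [← h.card_om_diff]
      refine relIndex_mul_le_of_inj _ _ _ (fun (t : T) (l : L) =>
        (⟨l * (t * x2 * (t : G)⁻¹), mul_mem (h.le l.2) (h.conj_om t.2 hx2), fun hc => ?_⟩ :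
          {x : G // x ∈ omS h.comm p ∧ x ∉ L})) ?_ ?_
      · have h2 : (t : G) * x2 * (t : G)⁻¹ ∈ L := by
          have := mul_mem (inv_mem l.2) hc
          rwa [inv_mul_cancel_left] at this
        apply hx2L
        have h3 := h.stab _ (inv_mem t.2) _ h2
        have : (t : G)⁻¹ * (t * x2 * (t : G)⁻¹) * (t : G)⁻¹⁻¹ = x2 := by group
        rwa [this] at h3
      · intro t t' l l' htt
        have h1 : (l : G) * (t * x2 * (t : G)⁻¹) = l' * (t' * x2 * (t' : G)⁻¹) :=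
          congrArg Subtype.val htt
        have h2 : t' * x2 * (t' : G)⁻¹ * (t * x2 * (t : G)⁻¹)⁻¹ ∈ L := by
          have e : t' * x2 * (t' : G)⁻¹ * (t * x2 * (t : G)⁻¹)⁻¹ = (l' : G)⁻¹ * l := by
            have e2 : t' * x2 * (t' : G)⁻¹ = (l' : G)⁻¹ * (l * (t * x2 * (t : G)⁻¹)) := by
              rw [h1]; group
            rw [e2]
            group
          rw [e]
          exact mul_mem (inv_mem l'.2) l.2
        have h3 := h.cg_conj (inv_mem t.2) h2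
        refine ⟨mul_mem (inv_mem t.2) t'.2, ?_⟩
        have e3 : (t : G)⁻¹ * (t' * x2 * (t' : G)⁻¹) * (t : G)⁻¹⁻¹ *
            ((t : G)⁻¹ * (t * x2 * (t : G)⁻¹) * (t : G)⁻¹⁻¹)⁻¹ =
            (t : G)⁻¹ * t' * x2 * ((t : G)⁻¹ * t')⁻¹ * x2⁻¹ := by group
        rwa [e3] at h3
      · intro t l l' hll
        have h1 : (l : G) * (t * x2 * (t : G)⁻¹) = l' * (t * x2 * (t : G)⁻¹) :=
          congrArg Subtype.val hll
        exact Subtype.ext (mul_right_cancel h1)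
    rw [h.card] at h1
    have h2 : p ^ 2 - p = (p - 1) * p := by
      rw [Nat.sub_mul, one_mul, sq]
    rw [h2] at h1
    exact Nat.le_of_mul_le_mul_right h1 hp.out.pos
  have hle : K1 T x1 ⊓ h.K2 hx2.1 ≤ centralizer (D : Set G) := by
    rintro t ⟨⟨ht, ht1⟩, ⟨-, ht2⟩⟩
    exact h.mem_C_of_unip ht hx1 hx1n hx2 hx2L ht1 ht2
  calc (centralizer (D : Set G)).relIndex T ≤ (K1 T x1 ⊓ h.K2 hx2.1).relIndex T :=
        Subgroup.relIndex_le_of_le_left hle (by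
          unfold Subgroup.relIndex
          exact Subgroup.index_ne_zero_of_finite)
    _ ≤ (K1 T x1).relIndex T * (h.K2 hx2.1).relIndex T := Subgroup.relIndex_inf_le
    _ ≤ (p - 1) * (p - 1) := Nat.mul_le_mul hi1 hi2
    _ = (p - 1) ^ 2 := (sq _).symm

end LineData

end P179H450
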