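import Vale.Agent.P179.R2.H450.R2c

/-!
# The abelian groups `C_(p ^ m) × C_(p ^ n)`, `m > n ≥ 2`: a regular element modulo `D ^ p`, and the
number of regular elements
-/

namespace P179H450

open Subgroup P179H292

namespace LineData

variable {p : ℕ} [hp : Fact p.Prime] {G : Type*} [Group G] [Finite G] {D T L : Subgroup G}
  (h : LineData p D T L)

/-- the elements of `A` fixed by the elements of `K` -/
def fixG (A K : Subgroup G) : Subgroup G where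
  carrier := {x | x ∈ A ∧ ∀ t ∈ K, t * x * t⁻¹ = x}
  one_mem' := ⟨one_mem _, fun t _ => by group⟩
  mul_mem' := by
    rintro x y ⟨hx, hx'⟩ ⟨hy, hy'⟩
    refine ⟨mul_mem hx hy, fun t ht => ?_⟩
    calc t * (x * y) * t⁻¹ = t * x * t⁻¹ * (t * y * t⁻¹) := by group
      _ = x * y := by rw [hx' t ht, hy' t ht]
  inv_mem' := by
    rintro x ⟨hx, hx'⟩
    refine ⟨inv_mem hx, fun t ht => ?_⟩
    calc t * x⁻¹ * t⁻¹ = (t * x * t⁻¹)⁻¹ := by group
      _ = x⁻¹ := by rw [hx' t ht]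

omit hp [Finite G] in
theorem exists_pow_order [Fact p.Prime] (hD : IsPGroup p D) {u : G} (hu : u ∈ D) (hu1 : u ≠ 1) :
    ∃ i : ℕ, (u ^ p ^ i) ^ p = 1 ∧ u ^ p ^ i ≠ 1 := by
  classical
  have hp : p.Prime := Fact.out
  have hex : ∃ n : ℕ, u ^ p ^ n = 1 := by
    obtain ⟨n, hn⟩ := hD ⟨u, hu⟩
    exact ⟨n, congrArg Subtype.val hn⟩
  have h1 := Nat.find_spec hex
  have h0 : Nat.find hex ≠ 0 := by
    intro h0
    rw [h0, pow_zero, pow_one] at h1
    exact hu1 h1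
  obtain ⟨i, hi⟩ := Nat.exists_eq_succ_of_ne_zero h0
  rw [hi] at h1
  refine ⟨i, by rw [← pow_mul, ← pow_succ]; exact h1, ?_⟩
  exact Nat.find_min hex (by omega)

include h

/-- **the elements with non-trivial stabiliser** -/
theorem nonreg {x1 x2 : G} (hx1 : x1 ∈ L) (hx1n : x1 ≠ 1) (hx2 : x2 ∈ omS h.comm p)
    (hx2L : x2 ∉ L) {u : G} (hu : u ∈ D) (hu1 : u ≠ 1) {t : G} (ht : t ∈ T)
    (htC : t ∉ centralizer (D : Set G)) (htu : t * u * t⁻¹ = u) :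
    (t ∈ K1 T x1 ∧ u ∈ fixG D (K1 T x1)) ∨ (t ∈ h.K2 hx2.1 ∧ u ∈ fixG D (h.K2 hx2.1)) := by
  have hcom : ∀ s ∈ T, ∀ t ∈ T, s * t * s⁻¹ * t⁻¹ ∈ centralizer (D : Set G) :=
    fun s hs t ht => h.comm_mem hx1 hx1n hx2 hx2L hs ht
  obtain ⟨i, hi, hi1⟩ := exists_pow_order h.isP hu hu1
  set v := u ^ p ^ i with hv
  have hvO : v ∈ omS h.comm p := ⟨pow_mem hu _, hi⟩
  have htv : t * v * t⁻¹ = v := fix_pow htu _
  by_cases hvL : v ∈ L
  · left
    have htx1 : t * x1 * t⁻¹ = x1 := h.fix_L hvL hi1 htv hx1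
    refine ⟨⟨ht, htx1⟩, hu, ?_⟩
    rintro s ⟨hs, hsx⟩
    refine h.fix_of_fixS hs ht hcom (fun x hx htx => ?_) hu htu
    refine h.fix_L hx1 hx1n hsx ?_
    by_contra hxL
    exact htC (h.mem_C_of_two ht hx1 hx1n hx hxL htx1 htx)
  · right
    have htx : t * x2 * t⁻¹ * x2⁻¹ ∈ L := h.fixL_all ht hvO hvL (by
      rw [htv, mul_inv_cancel]
      exact one_mem _) hx2
    refine ⟨⟨ht, htx⟩, hu, ?_⟩
    rintro s ⟨hs, hsx⟩
    refine h.fix_of_fixS hs ht hcom (fun x hx htx => ?_) hu htu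
    have hne : fixS (omS h.comm p) t ≠ omS h.comm p := by
      intro he
      apply htC
      refine h.mem_C_of_om ht fun y hy => ?_
      have : y ∈ fixS (omS h.comm p) t := by rw [he]; exact hy
      exact this.2
    have h1 : s * x * s⁻¹ * x⁻¹ ∈ L := h.fixL_all hs hx2 hx2L hsx hx
    have h2 : s * x * s⁻¹ ∈ fixS (omS h.comm p) t :=
      ⟨h.conj_om hs hx, h.fixS_comm hs (hcom t ht s hs) hx.1 htx⟩
    have h3 : s * x * s⁻¹ * x⁻¹ ∈ fixS (omS h.comm p) t :=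
      mul_mem h2 (inv_mem ⟨hx, htx⟩)
    have h4 := h.inf_L (F := fixS (omS h.comm p) t) (fun _ h => h.1) hne (u := v) ⟨hvO, htv⟩ hvL
      h3 h1
    rwa [mul_inv_eq_one] at h4

/-- the order of the first exceptional subgroup -/
theorem card_fix1 {x1 : G} (hx1 : x1 ∈ L) (hx1n : x1 ≠ 1) {t : G} (ht : t ∈ K1 T x1)
    (htC : t ∉ centralizer (D : Set G)) {M : ℕ} (hM : ∀ x ∈ D, x ^ p ^ M = 1) :
    Nat.card (fixG D (K1 T x1)) ≤ p ^ M := by
  have hab : ∀ a ∈ fixG D (K1 T x1), ∀ b ∈ fixG D (K1 T x1), a * b = b * a :=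
    fun a ha b hb => h.comm a ha.1 b hb.1
  refine card_le_exp hab ?_ fun x hx => hM x hx.1
  refine le_trans (Subgroup.card_le_of_le ?_) h.card.le
  rintro x ⟨⟨hx, hxt⟩, hxp⟩
  by_contra hxL
  exact htC (h.mem_C_of_two ht.1 hx1 hx1n ⟨hx, hxp⟩ hxL ht.2 (hxt t ht))

/-- the order of the second exceptional subgroup -/
theorem card_fix2 {x1 x2 : G} (hx1 : x1 ∈ L) (hx1n : x1 ≠ 1) (hx2 : x2 ∈ omS h.comm p)
    (hx2L : x2 ∉ L) {t : G} (ht : t ∈ h.K2 hx2.1) (htC : t ∉ centralizer (D : Set G)) {N : ℕ}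
    (hN : ∀ y ∈ D, (y ^ p ^ N) ^ p = 1 → y ^ p ^ N ∈ L) :
    Nat.card (fixG D (h.K2 hx2.1)) ≤ p ^ N := by
  set A := fixG D (h.K2 hx2.1) with hA
  have hab : ∀ a ∈ A, ∀ b ∈ A, a * b = b * a := fun a ha b hb => h.comm a ha.1 b hb.1
  have hAL : ∀ x ∈ A, x ∈ L → x = 1 := by
    intro x hx hxL
    by_contra hx1'
    apply htC
    exact h.mem_C_of_unip ht.1 hxL hx1' hx2 hx2L (hx.2 t ht) ht.2
  refine card_le_exp hab ?_ fun x hx => ?_
  · have h1 : omS hab p ≤ omS h.comm p := fun x hx => ⟨hx.1.1, hx.2⟩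
    have h2 : Nat.card (omS hab p) ∣ p ^ 2 := by
      rw [← h.rank]
      exact Subgroup.card_dvd_of_le h1
    obtain ⟨i, hi, hi'⟩ := (Nat.dvd_prime_pow hp.out).1 h2
    rw [hi']
    have h3 : i ≠ 2 := by
      rintro rfl
      have h4 : omS hab p = omS h.comm p := by
        refine Subgroup.eq_of_le_of_card_ge h1 ?_
        rw [hi', h.rank]
      have h5 : x1 ∈ omS hab p := by rw [h4]; exact h.le hx1
      exact hx1n (hAL x1 h5.1 hx1)
    have h4 : i ≤ 1 := by omega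
    calc p ^ i ≤ p ^ 1 := Nat.pow_le_pow_right hp.out.pos h4
      _ = p := pow_one p
  · by_contra hxN
    obtain ⟨i, hi, hi1⟩ := exists_pow_order h.isP (pow_mem hx.1 (p ^ N)) hxN
    apply hi1
    refine hAL _ (pow_mem (pow_mem hx _) _) ?_
    have e : (x ^ p ^ N) ^ p ^ i = (x ^ p ^ i) ^ p ^ N := by
      rw [← pow_mul, ← pow_mul, mul_comm]
    rw [e] at hi ⊢
    exact hN _ (pow_mem hx.1 _) hi

/-- **the number of regular elements** -/
theorem card_le_reg {x1 x2 : G} (hx1 : x1 ∈ L) (hx1n : x1 ≠ 1) (hx2 : x2 ∈ omS h.comm p)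
    (hx2L : x2 ∉ L) {M N : ℕ} (hM : ∀ x ∈ D, x ^ p ^ M = 1)
    (hN : ∀ y ∈ D, (y ^ p ^ N) ^ p = 1 → y ^ p ^ N ∈ L) :
    Nat.card D ≤ Nat.card {w : G // w ∈ D ∧ ∀ n ∈ T, n * w * n⁻¹ = w →
      n ∈ centralizer (D : Set G)} + (p ^ M + p ^ N) := by
  classical
  have := Fintype.ofFinite G
  set R : Finset G := Finset.univ.filter fun w => w ∈ D ∧ ∀ n ∈ T, n * w * n⁻¹ = w →
    n ∈ centralizer (D : Set G) with hR
  set P : Finset G := Finset.univ.filter fun w => w ∈ D with hP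
  let A1 : Finset G := if ∃ t ∈ K1 T x1, t ∉ centralizer (D : Set G) then
    Finset.univ.filter fun w => w ∈ fixG D (K1 T x1) else {1}
  let A2 : Finset G := if ∃ t ∈ h.K2 hx2.1, t ∉ centralizer (D : Set G) then
    Finset.univ.filter fun w => w ∈ fixG D (h.K2 hx2.1) else {1}
  have hA1 : A1.card ≤ p ^ M := by
    by_cases hc : ∃ t ∈ K1 T x1, t ∉ centralizer (D : Set G)
    · have e : A1 = Finset.univ.filter fun w => w ∈ fixG D (K1 T x1) := if_pos hc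
      obtain ⟨t, ht, htC⟩ := hc
      have h1 := h.card_fix1 hx1 hx1n ht htC hM
      rw [Nat.card_eq_fintype_card, Fintype.card_subtype] at h1
      rw [e]
      exact h1
    · have e : A1 = {1} := if_neg hc
      rw [e, Finset.card_singleton]
      exact Nat.one_le_pow _ _ hp.out.pos
  have hA2 : A2.card ≤ p ^ N := by
    by_cases hc : ∃ t ∈ h.K2 hx2.1, t ∉ centralizer (D : Set G)
    · have e : A2 = Finset.univ.filter fun w => w ∈ fixG D (h.K2 hx2.1) := if_pos hc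
      obtain ⟨t, ht, htC⟩ := hc
      have h1 := h.card_fix2 hx1 hx1n hx2 hx2L ht htC hN
      rw [Nat.card_eq_fintype_card, Fintype.card_subtype] at h1
      rw [e]
      exact h1
    · have e : A2 = {1} := if_neg hc
      rw [e, Finset.card_singleton]
      exact Nat.one_le_pow _ _ hp.out.pos
  have h1A1 : (1 : G) ∈ A1 := by
    by_cases hc : ∃ t ∈ K1 T x1, t ∉ centralizer (D : Set G)
    · have e : A1 = Finset.univ.filter fun w => w ∈ fixG D (K1 T x1) := if_pos hc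
      rw [e]
      exact Finset.mem_filter.2 ⟨Finset.mem_univ _, one_mem _⟩
    · have e : A1 = {1} := if_neg hc
      rw [e]
      exact Finset.mem_singleton_self _
  have hcov : P ⊆ R ∪ (A1 ∪ A2) := by
    intro u hu
    have huD : u ∈ D := (Finset.mem_filter.1 hu).2
    rw [Finset.mem_union, Finset.mem_union]
    by_cases hu1 : u = 1
    · right; left
      rw [hu1]
      exact h1A1
    by_cases hreg : ∀ n ∈ T, n * u * n⁻¹ = u → n ∈ centralizer (D : Set G)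
    · left
      exact Finset.mem_filter.2 ⟨Finset.mem_univ _, huD, hreg⟩
    · right
      push Not at hreg
      obtain ⟨t, ht, htu, htC⟩ := hreg
      rcases h.nonreg hx1 hx1n hx2 hx2L huD hu1 ht htC htu with ⟨h1, h2⟩ | ⟨h1, h2⟩
      · left
        have e : A1 = Finset.univ.filter fun w => w ∈ fixG D (K1 T x1) := if_pos ⟨t, h1, htC⟩
        rw [e]
        exact Finset.mem_filter.2 ⟨Finset.mem_univ _, h2⟩
      · right
        have e : A2 = Finset.univ.filter fun w => w ∈ fixG D (h.K2 hx2.1) := if_pos ⟨t, h1, htC⟩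
        rw [e]
        exact Finset.mem_filter.2 ⟨Finset.mem_univ _, h2⟩
  have h1 : P.card = Nat.card D := by
    rw [Nat.card_eq_fintype_card, Fintype.card_subtype]
  have h2 : R.card = Nat.card {w : G // w ∈ D ∧ ∀ n ∈ T, n * w * n⁻¹ = w →
      n ∈ centralizer (D : Set G)} := by
    rw [Nat.card_eq_fintype_card, Fintype.card_subtype]
  rw [← h1, ← h2]
  calc P.card ≤ (R ∪ (A1 ∪ A2)).card := Finset.card_le_card hcov
    _ ≤ R.card + (A1 ∪ A2).card := Finset.card_union_le _ _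
    _ ≤ R.card + (A1.card + A2.card) := Nat.add_le_add_left (Finset.card_union_le _ _) _
    _ ≤ R.card + (p ^ M + p ^ N) := Nat.add_le_add_left (Nat.add_le_add hA1 hA2) _

/-- **an element regular modulo `D ^ p`** -/
theorem exists_reg {x1 x2 y1 y2 : G} (hx1 : x1 ∈ L) (hx1n : x1 ≠ 1) (hx2 : x2 ∈ omS h.comm p)
    (hx2L : x2 ∉ L) {M N : ℕ} (hNM : N < M) (hM : ∀ x ∈ D, x ^ p ^ (M + 1) = 1)
    (hy1 : y1 ∈ D) (hyx1 : y1 ^ p ^ M = x1) (hy2 : y2 ∈ D) (hyx2 : y2 ^ p ^ N = x2)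
    (hN : ∀ y ∈ D, (y ^ p ^ (N + 1)) ^ p = 1 → y ^ p ^ (N + 1) ∈ L) :
    ∃ w ∈ D, (∀ i : ℕ, (∃ d ∈ D, d ^ p = w ^ i) → p ∣ i) ∧
      ∀ n ∈ T, (∃ d ∈ D, n * w * n⁻¹ * w⁻¹ = d ^ p) → n ∈ centralizer (D : Set G) := by
  have hCK : centralizer (D : Set G) ≤ K1 T x1 := by
    intro c hc
    refine ⟨h.cent hc, ?_⟩
    have h1 := mem_centralizer_iff.1 hc x1 (h.L_le_D hx1)
    rw [← h1]
    group
  have hKT : K1 T x1 ≤ T := fun _ h => h.1
  have hidx : ¬ p ∣ (centralizer (D : Set G)).relIndex (K1 T x1) := by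
    intro hc
    apply h.idx
    rw [← Subgroup.relIndex_mul_relIndex _ _ _ hCK hKT]
    exact hc.mul_right _
  obtain ⟨z1, hz1, hzx1, hzfix⟩ := exists_fixed_root (T := K1 T x1) h.isP h.comm
    (hKT.trans h.norm) hidx hy1 hyx1 fun t ht => ht.2
  have hcomm : Commute z1 y2 := h.comm _ hz1 _ hy2
  have hwM : (z1 * y2) ^ p ^ M = x1 := by
    rw [hcomm.mul_pow, hzx1]
    have h1 : y2 ^ p ^ M = 1 := by
      obtain ⟨c, rfl⟩ := Nat.exists_eq_add_of_lt hNM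
      rw [show N + c + 1 = N + 1 + c by ring, pow_add, pow_mul, pow_succ, pow_mul, hyx2, hx2.2,
        one_pow]
    rw [h1, mul_one]
  refine ⟨z1 * y2, mul_mem hz1 hy2, ?_, ?_⟩
  · rintro i ⟨d, hd, hdi⟩
    have h1 : x1 ^ i = 1 := by
      rw [← hwM, ← pow_mul, mul_comm, pow_mul, ← hdi, ← pow_mul, ← pow_succ']
      exact hM d hd
    have h2 : orderOf x1 = p := orderOf_eq_prime (h.le hx1).2 hx1n
    rw [← h2]
    exact orderOf_dvd_of_pow_eq_one h1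
  · rintro t ht ⟨d, hd, htd⟩
    set w := z1 * y2 with hw
    have hwD : w ∈ D := mul_mem hz1 hy2
    have e1 : t * w * t⁻¹ = d ^ p * w := by rw [← htd]; group
    have hdw : Commute (d ^ p) w := h.comm _ (pow_mem hd _) _ hwD
    have htx1 : t * x1 * t⁻¹ = x1 := by
      rw [← hwM, ← conj_pow, e1, hdw.mul_pow, ← pow_mul, ← pow_succ', hM d hd, one_mul]
    have htz : t * z1 * t⁻¹ = z1 := hzfix t ⟨ht, htx1⟩
    have e2 : t * y2 * t⁻¹ = d ^ p * y2 := by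
      have e3 : t * w * t⁻¹ = t * z1 * t⁻¹ * (t * y2 * t⁻¹) := by rw [hw]; group
      rw [e3, htz] at e1
      have e4 : d ^ p * w = z1 * (d ^ p * y2) := by
        have e5 : d ^ p * z1 = z1 * d ^ p := h.comm _ (pow_mem hd _) _ hz1
        rw [hw, ← mul_assoc, e5, mul_assoc]
      rw [e4] at e1
      exact mul_left_cancel e1
    have hdy : Commute (d ^ p) y2 := h.comm _ (pow_mem hd _) _ hy2
    have e3 : t * x2 * t⁻¹ = d ^ p ^ (N + 1) * x2 := by
      rw [← hyx2, ← conj_pow, e2, hdy.mul_pow, ← pow_mul, ← pow_succ']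
    have e4 : t * x2 * t⁻¹ * x2⁻¹ = d ^ p ^ (N + 1) := by rw [e3]; group
    refine h.mem_C_of_unip ht hx1 hx1n hx2 hx2L htx1 ?_
    rw [e4]
    refine hN d hd ?_
    rw [← e4]
    exact (mul_mem (h.conj_om ht hx2) (inv_mem hx2) : t * x2 * t⁻¹ * x2⁻¹ ∈ omS h.comm p).2

end LineData

section Main

variable {p : ℕ} [hp : Fact p.Prime] {G : Type*} [Group G] [Finite G] {D T : Subgroup G}

theorem exists_exp_aux (hD : IsPGroup p D) {N : ℕ} (h4 : ∃ z ∈ D, z ^ p ^ (N + 1) ≠ 1) :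
    ∃ M : ℕ, N < M ∧ (∀ x ∈ D, x ^ p ^ (M + 1) = 1) ∧ ∃ z ∈ D, z ^ p ^ M ≠ 1 := by
  classical
  obtain ⟨z, hz, hz1⟩ := h4
  have hex : ∃ m : ℕ, ∀ x ∈ D, x ^ p ^ m = 1 := by
    obtain ⟨m, hm⟩ := IsPGroup.iff_card.1 hD
    refine ⟨m, fun x hx => ?_⟩
    have h1 : (⟨x, hx⟩ : D) ^ Nat.card D = 1 := pow_card_eq_one'
    rw [hm] at h1
    exact congrArg Subtype.val h1
  have h1 := Nat.find_spec hex
  have h2 : N + 1 < Nat.find hex := by
    by_contra hcon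
    apply hz1
    obtain ⟨c, hc⟩ := Nat.exists_eq_add_of_le (not_lt.1 hcon)
    rw [hc, pow_add, pow_mul, h1 z hz, one_pow]
  obtain ⟨M, hM⟩ : ∃ M, Nat.find hex = M + 1 := ⟨Nat.find hex - 1, by omega⟩
  rw [hM] at h1
  refine ⟨M, by omega, h1, ?_⟩
  have h3 := Nat.find_min hex (m := M) (by omega)
  push Not at h3
  exact h3

/-- **(R')** the groups `C_(p ^ m) × C_(p ^ n)`, `m > n = N + 1 ≥ 2` -/
theorem rank2 (hD : IsPGroup p D) (hab : ∀ a ∈ D, ∀ b ∈ D, a * b = b * a)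
    (hTN : T ≤ normalizer (D : Set G)) (hCT : centralizer (D : Set G) ≤ T)
    (hT : ¬ p ∣ (centralizer (D : Set G)).relIndex T)
    (h1 : Nat.card {x : G // x ∈ D ∧ x ^ p = 1} = p ^ 2) {N : ℕ} (hN : 1 ≤ N)
    (h2 : ∀ x ∈ D, x ^ p = 1 → ∃ y ∈ D, y ^ p ^ N = x)
    (h3 : ∃ x ∈ D, x ^ p = 1 ∧ ∀ y ∈ D, y ^ p ^ (N + 1) ≠ x)
    (h4 : ∃ z ∈ D, z ^ p ^ (N + 1) ≠ 1) :
    (∃ w ∈ D, (∀ i : ℕ, (∃ d ∈ D, d ^ p = w ^ i) → p ∣ i) ∧
      ∀ n ∈ T, (∃ d ∈ D, n * w * n⁻¹ * w⁻¹ = d ^ p) → n ∈ centralizer (D : Set G)) ∧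
    (centralizer (D : Set G)).relIndex T * Nat.card D < p ^ 2 * Nat.card {w : G // w ∈ D ∧
      ∀ n ∈ T, n * w * n⁻¹ = w → n ∈ centralizer (D : Set G)} ∧
    Nat.card D = p ^ 2 * Nat.card {y : G // ∃ d ∈ D, d ^ p = y} ∧
    (centralizer (D : Set G)).relIndex T ≤ (p - 1) ^ 2 := by
  have hom : Nat.card (omS hab p) = p ^ 2 := h1
  obtain ⟨M, hNM, hM, z, hz, hz1⟩ := exists_exp_aux hD h4
  -- the line
  let L : Subgroup G := omS hab p ⊓ pw hab (p ^ (N + 1))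
  have hLO : L ≤ omS hab p := inf_le_left
  have hx1L : z ^ p ^ M ∈ L := by
    refine ⟨⟨pow_mem hz _, ?_⟩, ?_⟩
    · rw [← pow_mul, ← pow_succ]
      exact hM z hz
    · obtain ⟨c, rfl⟩ := Nat.exists_eq_add_of_lt hNM
      refine ⟨z ^ p ^ c, pow_mem hz _, ?_⟩
      rw [← pow_mul, ← pow_add]
      congr 2
      omega
  obtain ⟨x2, hx2D, hx2p, hx2⟩ := h3
  have hx2O : x2 ∈ omS hab p := ⟨hx2D, hx2p⟩
  have hx2L : x2 ∉ L := by
    rintro ⟨-, y, hy, hyx⟩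
    exact hx2 y hy hyx
  have hcardL : Nat.card L = p := by
    have h5 : Nat.card L ∣ p ^ 2 := by
      rw [← hom]
      exact Subgroup.card_dvd_of_le hLO
    obtain ⟨i, hi, hi'⟩ := (Nat.dvd_prime_pow hp.out).1 h5
    have h6 : i ≠ 2 := by
      rintro rfl
      have h7 : L = omS hab p := Subgroup.eq_of_le_of_card_ge hLO (by rw [hi', hom])
      exact hx2L (h7 ▸ hx2O)
    have h7 : i ≠ 0 := by
      rintro rfl
      rw [pow_zero] at hi'
      have h8 := Subgroup.card_eq_one.1 hi'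
      have h9 : z ^ p ^ M ∈ (⊥ : Subgroup G) := h8 ▸ hx1L
      exact hz1 (mem_bot.1 h9)
    have h8 : i = 1 := by omega
    rw [hi', h8, pow_one]
  have hconj : ∀ t ∈ T, ∀ x ∈ L, t * x * t⁻¹ ∈ L := by
    rintro t ht x ⟨⟨hx, hxp⟩, y, hy, rfl⟩
    have hc : ∀ v ∈ D, t * v * t⁻¹ ∈ D := fun v hv => (mem_normalizer_iff.1 (hTN ht) v).1 hv
    refine ⟨⟨hc _ hx, ?_⟩, t * y * t⁻¹, hc _ hy, conj_pow⟩
    rw [conj_pow, hxp]
    group
  have hdat : LineData p D T L := ⟨hD, hab, hTN, hCT, hT, hom, hcardL, hLO, hconj⟩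
  have hNL : ∀ y ∈ D, (y ^ p ^ (N + 1)) ^ p = 1 → y ^ p ^ (N + 1) ∈ L :=
    fun y hy hyp => ⟨⟨pow_mem hy _, hyp⟩, y, hy, rfl⟩
  obtain ⟨y2, hy2, hyx2⟩ := h2 x2 hx2D hx2p
  have he := hdat.relIndex_le hx1L hz1 hx2O hx2L
  have hreg := hdat.card_le_reg hx1L hz1 hx2O hx2L hM hNL
  -- the order of `D`
  have hcD : p ^ (M + N + 2) ≤ Nat.card D := by
    rw [← card_pw hab (p ^ (N + 1))]
    have h5 := card_omS_ge_pow hab p N h2 (N + 1) le_rfl
    rw [hom] at h5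
    have h6 : p ^ (M - N) ≤ Nat.card (pw hab (p ^ (N + 1))) := by
      have h7 : orderOf (z ^ p ^ (N + 1)) = p ^ (M - N) := by
        have h8 : M - N = (M - N - 1) + 1 := by omega
        rw [h8]
        refine orderOf_eq_prime_pow ?_ ?_
        · rw [← pow_mul, ← pow_add, show N + 1 + (M - N - 1) = M by omega]
          exact hz1
        · rw [← pow_mul, ← pow_add, show N + 1 + (M - N - 1 + 1) = M + 1 by omega]
          exact hM z hz
      rw [← h7, ← Nat.card_zpowers]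
      refine Subgroup.card_le_of_le ?_
      rw [zpowers_le]
      exact ⟨z, hz, rfl⟩
    calc p ^ (M + N + 2) = (p ^ 2) ^ (N + 1) * p ^ (M - N) := by
          rw [← pow_mul, ← pow_add]
          congr 1
          omega
      _ ≤ _ := Nat.mul_le_mul h5 h6
  refine ⟨?_, ?_, ?_, he⟩
  · exact hdat.exists_reg hx1L hz1 hx2O hx2L hNM hM hz rfl hy2 hyx2 hNL
  · have h5 : p ^ (M + 1) * p ^ 2 ≤ Nat.card D := by
      refine le_trans ?_ hcD
      rw [← pow_add]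
      exact Nat.pow_le_pow_right hp.out.pos (by omega)
    have h6 : p ^ (N + 1) * p ^ 2 ≤ Nat.card D := by
      refine le_trans ?_ hcD
      rw [← pow_add]
      exact Nat.pow_le_pow_right hp.out.pos (by omega)
    have h7 : 0 < Nat.card D := Nat.card_pos
    have h8 : 2 ≤ p := hp.out.two_le
    obtain ⟨q, rfl⟩ : ∃ q, p = q + 1 := ⟨p - 1, by omega⟩
    rw [Nat.add_sub_cancel] at he
    set R := Nat.card {w : G // w ∈ D ∧ ∀ n ∈ T, n * w * n⁻¹ = w →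
      n ∈ centralizer (D : Set G)}
    have h9 : (q + 1) ^ 2 * Nat.card D ≤ (q + 1) ^ 2 * R + 2 * Nat.card D := by
      calc (q + 1) ^ 2 * Nat.card D
          ≤ (q + 1) ^ 2 * (R + ((q + 1) ^ (M + 1) + (q + 1) ^ (N + 1))) :=
            Nat.mul_le_mul_left _ hreg
        _ = (q + 1) ^ 2 * R + ((q + 1) ^ (M + 1) * (q + 1) ^ 2 +
            (q + 1) ^ (N + 1) * (q + 1) ^ 2) := by ring
        _ ≤ (q + 1) ^ 2 * R + (Nat.card D + Nat.card D) := by gcongr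
        _ = (q + 1) ^ 2 * R + 2 * Nat.card D := by ring
    have h10 : (centralizer (D : Set G)).relIndex T * Nat.card D ≤ q ^ 2 * Nat.card D :=
      Nat.mul_le_mul_right _ he
    have h11 : 1 ≤ q := by omega
    nlinarith [Nat.mul_le_mul_right (Nat.card D) h11]
  · rw [← hom]
    exact (card_pw hab p).symm

end Main

end P179H450
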