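import Vale.Agent.P179.R2.H450.Coh3
import Vale.Agent.P179.R2.H443.Gp2

/-!
# The groups `C_(p^2) × C_(p^2)`: a complement of `<w>`
-/

namespace P179H450

open Subgroup

section Sq

variable {G : Type} [Group G] [Finite G] {D : Subgroup G} {w v : G} {q : ℕ}

/-- generation by counting -/
theorem gen_of_card [NeZero q] (hw : w ∈ D) (hv : v ∈ D)
    (ho : ∀ j : ℕ, v ^ j ∈ zpowers w ↔ q ∣ j) (hcard : Nat.card D ≤ Nat.card (zpowers w) * q) :
    ∀ u ∈ D, ∃ z ∈ zpowers w, ∃ j : ℕ, u = z * v ^ j := by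
  classical
  have := Fintype.ofFinite D
  have := Fintype.ofFinite (zpowers w)
  let f : zpowers w × Fin q → D := fun x => ⟨(x.1 : G) * v ^ (x.2 : ℕ),
    mul_mem (zpowers_le_of_mem hw x.1.2) (pow_mem hv _)⟩
  have key : ∀ (a b : zpowers w) (i j : Fin q), (i : ℕ) ≤ j →
      (a : G) * v ^ (i : ℕ) = (b : G) * v ^ (j : ℕ) → (i : ℕ) = j := by
    intro a b i j hij h
    have h1 : v ^ ((j : ℕ) - i) ∈ zpowers w := by
      have h2 : v ^ (j : ℕ) = v ^ ((j : ℕ) - i) * v ^ (i : ℕ) := by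
        rw [← pow_add, Nat.sub_add_cancel hij]
      have h3 : (a : G) = (b : G) * v ^ ((j : ℕ) - i) := by
        apply mul_right_cancel (b := v ^ (i : ℕ))
        rw [h, h2, mul_assoc]
      have h4 : v ^ ((j : ℕ) - i) = (b : G)⁻¹ * a := by rw [h3]; group
      rw [h4]
      exact mul_mem (inv_mem b.2) a.2
    have h2 := (ho _).1 h1
    have h3 := Nat.eq_zero_of_dvd_of_lt h2 (lt_of_le_of_lt (Nat.sub_le _ _) j.2)
    omega
  have hinj : Function.Injective f := by
    rintro ⟨a, i⟩ ⟨b, j⟩ h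
    have h1 : (a : G) * v ^ (i : ℕ) = (b : G) * v ^ (j : ℕ) := congrArg Subtype.val h
    have h2 : (i : ℕ) = j := by
      rcases le_total (i : ℕ) j with h | h
      · exact key a b i j h h1
      · exact (key b a j i h h1.symm).symm
    rw [h2] at h1
    exact Prod.ext (Subtype.ext (mul_right_cancel h1)) (Fin.ext h2)
  have hsurj : Function.Surjective f := by
    refine ((Fintype.bijective_iff_injective_and_card f).2 ⟨hinj, le_antisymm ?_ ?_⟩).2
    · exact Fintype.card_le_of_injective f hinj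
    · rw [Fintype.card_prod, Fintype.card_fin, ← Nat.card_eq_fintype_card,
        ← Nat.card_eq_fintype_card]
      exact hcard
  intro u hu
  obtain ⟨⟨z, j⟩, hzj⟩ := hsurj ⟨u, hu⟩
  exact ⟨z, z.2, j, (congrArg Subtype.val hzj).symm⟩

variable {p : ℕ} [hp : Fact p.Prime]

/-- a generator modulo `<w>` -/
theorem exists_v (hab : ∀ a ∈ D, ∀ b ∈ D, a * b = b * a) (h : P179H443.HomSq p D) (hw : w ∈ D)
    (hwp : w ^ p ≠ 1) : ∃ v ∈ D, (∀ j : ℕ, v ^ j ∈ zpowers w ↔ p ^ 2 ∣ j) ∧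
      ∀ u ∈ D, ∃ z ∈ zpowers w, ∃ j : ℕ, u = z * v ^ j := by
  have hord : orderOf w = p ^ 2 := h.orderOf_eq hw hwp
  have hpp := hp.out
  -- `v ^ p ∉ <w>`
  obtain ⟨v, hv, hvp⟩ : ∃ v ∈ D, v ^ p ∉ zpowers w := by
    by_contra hcon
    push Not at hcon
    -- all elements of order `p` in `<w>`
    have h1 : ∀ x ∈ D, x ^ p = 1 → x ∈ zpowers (w ^ p) := by
      intro x hx hxp
      obtain ⟨d, hd, hdx⟩ := h.2.1 x hx hxp
      have h2 : x ∈ zpowers w := by rw [← hdx]; exact hcon d hd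
      obtain ⟨i, hi⟩ := mem_zpowers_iff.1 h2
      have h3 : w ^ (i * p) = 1 := by
        rw [zpow_mul, hi, zpow_natCast, hxp]
      have h4 : ((p ^ 2 : ℕ) : ℤ) ∣ i * p := by
        rw [← hord]
        exact orderOf_dvd_iff_zpow_eq_one.2 h3
      have h5 : (p : ℤ) ∣ i := by
        have h6 : (p : ℤ) * p ∣ i * p := by
          have : ((p ^ 2 : ℕ) : ℤ) = (p : ℤ) * p := by push_cast; ring
          rwa [this] at h4
        exact Int.dvd_of_mul_dvd_mul_right (by exact_mod_cast hpp.ne_zero) h6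
      obtain ⟨c, hc⟩ := h5
      rw [← hi, hc, zpow_mul, zpow_natCast]
      exact zpow_mem (mem_zpowers _) c
    have h2 : Nat.card {x : G // x ∈ D ∧ x ^ p = 1} ≤ Nat.card (zpowers (w ^ p)) := by
      refine Nat.card_le_card_of_injective (fun x => (⟨x.1, h1 x.1 x.2.1 x.2.2⟩ :
        zpowers (w ^ p))) fun x y hxy => Subtype.ext (congrArg (fun z : zpowers (w ^ p) =>
          (z : G)) hxy)
    rw [h.1, Nat.card_zpowers] at h2
    have h3 : orderOf (w ^ p) ≤ p := by
      refine Nat.le_of_dvd hpp.pos (orderOf_dvd_of_pow_eq_one ?_)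
      rw [← pow_mul, ← pow_two, ← hord, pow_orderOf_eq_one]
    have h4 : p < p ^ 2 := by nlinarith [hpp.one_lt]
    omega
  have hv2 : v ^ p ^ 2 = 1 := h.2.2 v hv
  have ho : ∀ j : ℕ, v ^ j ∈ zpowers w ↔ p ^ 2 ∣ j := by
    intro j
    constructor
    · intro hj
      have h1 : v ^ Nat.gcd j (p ^ 2) ∈ zpowers w := by
        have h2 : v ^ ((Nat.gcd j (p ^ 2) : ℕ) : ℤ) ∈ zpowers w := by
          rw [Nat.gcd_eq_gcd_ab, zpow_add, zpow_mul, zpow_mul, zpow_natCast, zpow_natCast, hv2,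
            one_zpow, mul_one]
          exact zpow_mem hj _
        rwa [zpow_natCast] at h2
      obtain ⟨i, hi, hgi⟩ := (Nat.dvd_prime_pow hpp).1 (Nat.gcd_dvd_right j (p ^ 2))
      rw [hgi] at h1
      have hi2 : i = 2 := by
        by_contra hne
        apply hvp
        have h3 : p ^ i ∣ p := by
          have : i ≤ 1 := by omega
          calc p ^ i ∣ p ^ 1 := pow_dvd_pow p this
            _ = p := pow_one p
        obtain ⟨c, hc⟩ := h3
        have h4 : v ^ p = (v ^ p ^ i) ^ c := by rw [← pow_mul, ← hc]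
        rw [h4]
        exact pow_mem h1 c
      rw [hi2] at hgi
      rw [← hgi]
      exact Nat.gcd_dvd_left j (p ^ 2)
    · rintro ⟨c, rfl⟩
      rw [pow_mul, hv2, one_pow]
      exact one_mem _
  have : NeZero (p ^ 2) := ⟨pow_ne_zero _ hpp.ne_zero⟩
  refine ⟨v, hv, ho, gen_of_card hw hv ho ?_⟩
  rw [Nat.card_zpowers, hord, h.card_D hab]
  exact le_of_eq (by ring)

end Sq

end P179H450
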