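import Vale.Agent.P179.H526.M9e
import Vale.Agent.P179.H526.Inert
import Vale.Agent.P179.H526.Z14

/-!
# Homomorphisms of the centre and normal `p`-subgroups
-/

namespace P179H450

open P179H524 P179C P179A Finset P179P P179Y Subgroup P179R

open scoped Classical

section Cut

variable {p : ℕ} [hp : Fact p.Prime] {k : Type*} [Field k] [IsAlgClosed k] [CharP k p]
  {N : Type} [Group N] [Fintype N]

/-- a homomorphism of the centre is given by a simple module -/
theorem exists_irrRep {μ : (N → k) → k} (hμ : IsHomCF μ) :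
    ∃ a : IrrRep k N, ∀ z : N → k, IsCF z →
      a.1.2.asAlgebraHom (mkF z) = μ z • (1 : Module.End k (Fin a.1.1 → k)) := by
  obtain ⟨B, hB, hlB⟩ := homBlockStmt (k := k) (G := N) hμ.toAlgHom
  obtain ⟨a, ha⟩ := exists_inBlock B hB
  obtain ⟨L, hL⟩ := exists_chi a
  refine ⟨a, fun z hz => ?_⟩
  have h1 := hL ⟨mkF z, mkF_mem hz⟩
  have h2 := P179C.centralChar_eq B hB a ha L hL ⟨mkF z, mkF_mem hz⟩
  have h3 := hlB ⟨mkF z, mkF_mem hz⟩
  rw [hμ.toAlgHom_mkF hz] at h3
  rw [← h2, ← h3] at h1
  exact h1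

/-- a homomorphism of the centre only depends on the values on the centraliser of a normal
`p`-subgroup -/
theorem hom_zero {Q : Subgroup N} (hQn : Q.Normal) (hQ : IsPGroup p Q) {μ : (N → k) → k}
    (hμ : IsHomCF μ) {z : N → k} (hz : IsCF z)
    (h0 : ∀ x ∈ centralizer (Q : Set N), z x = 0) : μ z = 0 := by
  obtain ⟨a, ha⟩ := exists_irrRep hμ
  have h1 := ha z hz
  have hnt := nontrivial_irrRep a
  have h2 : a.1.2.asAlgebraHom (mkF z) = 0 := by
    have e1 : a.1.2.asAlgebraHom (mkF z) = ∑ x : N, z x • a.1.2 x := by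
      have : mkF z = ∑ x : N, MonoidAlgebra.single x (z x) := by
        ext y
        rw [coeff_mkF, MonoidAlgebra.coeff_sum, Finsupp.finsetSum_apply]
        simp [MonoidAlgebra.coeff_single, Finsupp.single_apply]
      rw [this, map_sum]
      refine Finset.sum_congr rfl fun x _ => ?_
      rw [Representation.asAlgebraHom_single]
    rw [e1]
    have hQ1 : ∀ q ∈ Q, a.1.2 q = 1 := fun q hq =>
      apply_eq_one_of_isIrreducible Q hQ a.1.2 a.2 q hq
    apply LinearMap.ext
    intro v
    funext i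
    rw [LinearMap.sum_apply, Finset.sum_apply]
    have hfin : Finite Q := inferInstance
    refine (sum_eq_zero_of_perm p hQ (conjPerm Q) (fun x => (z x • a.1.2 x) v i) ?_ ?_)
    · intro q x
      rw [conjPerm_apply, hz, map_mul, map_mul, hQ1 q q.2, hQ1 _ (inv_mem q.2), one_mul, mul_one]
    · intro x hx
      rw [h0 x ((mem_cent_iff Q x).2 fun d hd => hx ⟨d, hd⟩), zero_smul]
      rfl
  rw [h2] at h1
  by_contra hne
  have h3 : (1 : Module.End k (Fin a.1.1 → k)) = 0 := by
    have := congrArg (fun f => (μ z)⁻¹ • f) h1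
    simpa [smul_smul, inv_mul_cancel₀ hne] using this.symm
  exact one_ne_zero h3

theorem hom_congr {Q : Subgroup N} (hQn : Q.Normal) (hQ : IsPGroup p Q) {μ : (N → k) → k}
    (hμ : IsHomCF μ) {z z' : N → k} (hz : IsCF z) (hz' : IsCF z')
    (h0 : ∀ x ∈ centralizer (Q : Set N), z x = z' x) : μ z = μ z' := by
  have h1 : IsCF (z + (-1 : k) • z') := by
    intro g x
    simp only [Pi.add_apply, Pi.smul_apply, hz g x, hz' g x]
  have h2 := hom_zero hQn hQ hμ h1 (fun x hx => by
    simp only [Pi.add_apply, Pi.smul_apply, h0 x hx, smul_eq_mul]; ring)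
  rw [hμ.add, hμ.smul] at h2
  linear_combination h2

end Cut

end P179H450
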